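import Vale.Agent.P199.Level

namespace Vale.Agent.P199

open Module NPS

section Inv
variable (Z : Type) {D σ : Type} [Field Z] [DivisionRing D] [Algebra Z D] [Fintype σ]

def PP (a0 : D) : Subalgebra Z D := Subalgebra.centralizer Z {a0}
def LL (a0 : D) : Subalgebra Z D := Subalgebra.centralizer Z (PP Z a0 : Set D)
noncomputable def Vt (b : NPS σ D) (f : σ → Z) : Submodule Z D :=
  (LinearMap.range (lin Z b)).map (LinearMap.mulRight Z (lin Z b f)⁻¹)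
noncomputable def EE (b : NPS σ D) (f : σ → Z) : Subalgebra Z D := Algebra.adjoin Z (Vt Z b f)

variable {Z}

noncomputable def WW (T : Tr Z D) (b : NPS σ D) (f : σ → Z) : Submodule Z D :=
  (EE Z b f).toSubmodule ⊓ T.perp (Vt Z b f)

lemma mem_PP {a0 x : D} : x ∈ PP Z a0 ↔ x * a0 = a0 * x := by
  simp [PP, Subalgebra.mem_centralizer_iff, eq_comm]

lemma mem_LL {a0 x : D} : x ∈ LL Z a0 ↔ ∀ p, p * a0 = a0 * p → p * x = x * p := by
  simp [LL, Subalgebra.mem_centralizer_iff, mem_PP]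

lemma LL_le (a0 : D) : LL Z a0 ≤ PP Z a0 := fun _ hx => mem_PP.2 (mem_LL.1 hx a0 rfl).symm

lemma LL_comm {a0 x y : D} (hx : x ∈ LL Z a0) (hy : y ∈ LL Z a0) : x * y = y * x :=
  mem_LL.1 hy x (mem_PP.1 (LL_le a0 hx))

lemma mem_Vt {b : NPS σ D} {f : σ → Z} {x : D} :
    x ∈ Vt Z b f ↔ ∃ δ, lin Z b δ * (lin Z b f)⁻¹ = x := by
  simp [Vt]

lemma Vt_le (b : NPS σ D) (f : σ → Z) : Vt Z b f ≤ (EE Z b f).toSubmodule :=
  fun _ hx => Algebra.subset_adjoin hx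

lemma one_mem_Vt {b : NPS σ D} {f : σ → Z} (h : lin Z b f ≠ 0) : (1 : D) ∈ Vt Z b f :=
  mem_Vt.2 ⟨f, mul_inv_cancel₀ h⟩

lemma EE_le [FiniteDimensional Z D] {b : NPS σ D} {a0 : D} (h : ∀ δ, lin Z b δ ∈ LL Z a0)
    (f : σ → Z) : EE Z b f ≤ LL Z a0 := by
  apply Algebra.adjoin_le
  intro x hx
  obtain ⟨δ, rfl⟩ := mem_Vt.1 hx
  exact mul_mem (h δ) (sub_inv_mem _ (h f))

lemma Vt_pow_le (b : NPS σ D) (f : σ → Z) (k : ℕ) : Vt Z b f ^ k ≤ (EE Z b f).toSubmodule := by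
  induction k with
  | zero =>
    rw [pow_zero, Submodule.one_le]
    exact (EE Z b f).one_mem
  | succ k ih =>
    rw [pow_succ, Submodule.mul_le]
    exact fun x hx y hy => (EE Z b f).mul_mem (ih hx) (Vt_le b f hy)

lemma Vt_pow_mono {b : NPS σ D} {f : σ → Z} (h : lin Z b f ≠ 0) {k l : ℕ} (hkl : k ≤ l) :
    Vt Z b f ^ k ≤ Vt Z b f ^ l := by
  induction l, hkl using Nat.le_induction with
  | base => exact le_rfl
  | succ l _ ih =>
    refine ih.trans fun x hx => ?_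
    rw [pow_succ]
    simpa using Submodule.mul_mem_mul hx (one_mem_Vt h)

lemma exists_EE_le [FiniteDimensional Z D] {b : NPS σ D} {f : σ → Z} (h : lin Z b f ≠ 0) :
    ∃ k, (EE Z b f).toSubmodule ≤ Vt Z b f ^ (k + 2) := by
  have h1 : ∀ x ∈ EE Z b f, ∃ k, x ∈ Vt Z b f ^ k := by
    intro x hx
    induction hx using Algebra.adjoin_induction with
    | mem x hx => exact ⟨1, by simpa using hx⟩
    | algebraMap r => exact ⟨0, by simp⟩
    | add x y _ _ hx hy =>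
      obtain ⟨k, hk⟩ := hx
      obtain ⟨l, hl⟩ := hy
      exact ⟨k + l, add_mem (Vt_pow_mono h (by omega) hk) (Vt_pow_mono h (by omega) hl)⟩
    | mul x y _ _ hx hy =>
      obtain ⟨k, hk⟩ := hx
      obtain ⟨l, hl⟩ := hy
      exact ⟨k + l, by rw [pow_add]; exact Submodule.mul_mem_mul hk hl⟩
  obtain ⟨s, hs⟩ := (IsNoetherian.noetherian (EE Z b f).toSubmodule)
  have h2 : ∀ x : s, ∃ k, (x : D) ∈ Vt Z b f ^ k := fun x =>
    h1 x (by change (x : D) ∈ (EE Z b f).toSubmodule; rw [← hs]; exact Submodule.subset_span x.2)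
  choose k hk using h2
  refine ⟨∑ x, k x, ?_⟩
  rw [← hs, Submodule.span_le]
  intro x hx
  refine Vt_pow_mono h ?_ (hk ⟨x, hx⟩)
  have := Finset.single_le_sum (f := k) (fun _ _ => Nat.zero_le _) (Finset.mem_univ ⟨x, hx⟩)
  omega

/-- output of block diagonalisation -/
structure BD (T : Tr Z D) (β g b : NPS σ D) : Prop where
  g_nil : co g [] = 1
  b_nil : co b [] = 0
  b_comm : ∀ w, co b w * co β [] = co β [] * co b w
  g_perp : ∀ w, w ≠ [] → ∀ q, q * co β [] = co β [] * q → T.τ (q * co g w) = 0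
  eq : β * g = g * (C (co β []) + b)

omit [Fintype σ] in
lemma exists_BD [FiniteDimensional Z D] (T : Tr Z D) (β : NPS σ D) : ∃ g b, BD T β g b := by
  obtain ⟨g, b, h1, h2, h3, h4, h5⟩ := T.block_diag β
  exact ⟨g, b, h1, h2, h3, h4, h5⟩

namespace BD
variable {T : Tr Z D} {β g b : NPS σ D} (h : BD T β g b)
include h

lemma lin_eq (δ : σ → Z) :
    lin Z β δ = lin Z b δ + (lin Z g δ * co β [] - co β [] * lin Z g δ) := by
  have := congrArg (fun z => lin Z z δ) h.eq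
  simp only [lin_mul, lin_add, lin_C, h.g_nil, co_add, co_C_nil, h.b_nil, add_zero, zero_add,
    one_mul, mul_one] at this
  rw [← sub_eq_zero] at this ⊢
  rw [← this]; abel

lemma perp (δ : σ → Z) {q : D} (hq : q * co β [] = co β [] * q) : T.τ (q * lin Z g δ) = 0 := by
  simp [lin_apply, Finset.mul_sum, h.g_perp _ _ q hq]

lemma τ_lin (δ : σ → Z) {q : D} (hq : q * co β [] = co β [] * q) :
    T.τ (q * lin Z β δ) = T.τ (q * lin Z b δ) := by
  rw [h.lin_eq, mul_add, map_add, T.τ_comm_zero hq, add_zero]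

lemma τ_quad (δ δ' : σ → Z) {q : D} (hq : q * co β [] = co β [] * q) :
    T.τ (q * quad Z b δ δ') = T.τ (q * quad Z β δ δ') + T.τ (q * (lin Z β δ * lin Z g δ')) := by
  have := congrArg (fun z => T.τ (q * quad Z z δ δ')) h.eq
  simp only [quad_mul, quad_add, quad_C, lin_add, lin_C, h.g_nil, co_add, co_C_nil, h.b_nil,
    add_zero, zero_add, one_mul, mul_one] at this
  simp only [mul_add, map_add] at this
  have e1 := T.τ_comm_zero hq (quad Z g δ δ')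
  rw [mul_sub, map_sub, sub_eq_zero] at e1
  have e2 : T.τ (q * (lin Z g δ * lin Z b δ')) = 0 := by
    rw [← mul_assoc, T.comm, ← mul_assoc]
    apply h.perp
    rw [mul_assoc, hq, ← mul_assoc, lin_comm h.b_comm, mul_assoc]
  rw [e2, e1] at this
  linear_combination -this

end BD

end Inv

/-- context of an arc computation -/
structure Ctx {Z D σ : Type} [Field Z] [DivisionRing D] [Algebra Z D] [Fintype σ] {T : Tr Z D}
    (A : Arc T σ) where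
  a0 : D
  b : NPS σ D
  hbc : ∀ w, co b w * a0 = a0 * co b w
  hb : subst A.hφ b ∈ (Filt.ord A.S D).I A.n
  g : NPS A.σ' A.D'
  b' : NPS A.σ' A.D'
  bd : BD A.T' (A.Ψ (C a0 + b)) g b'

namespace Ctx
variable {Z D σ : Type} [Field Z] [DivisionRing D] [Algebra Z D] [Fintype σ] {T : Tr Z D}
  {A : Arc T σ} (x : Ctx A)

noncomputable def a1 : A.D' := co (A.Ψ (C x.a0 + x.b)) []
noncomputable def v : D := lin Z x.b A.f1
noncomputable def β1 (δ : A.σ' → A.Z') : A.D' := lin A.Z' (A.Ψ x.b) δ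
noncomputable def l' (δ : A.σ' → A.Z') : A.D' := lin A.Z' x.b' δ
noncomputable def g1 (δ : A.σ' → A.Z') : A.D' := lin A.Z' x.g δ

lemma lin_β (δ : A.σ' → A.Z') : lin A.Z' (A.Ψ (C x.a0 + x.b)) δ = x.β1 δ := by
  rw [map_add, A.Ψ_C, lin_add, lin_C, zero_add, β1]

lemma β1_eq (δ : A.σ' → A.Z') : x.β1 δ = x.l' δ + (x.g1 δ * x.a1 - x.a1 * x.g1 δ) := by
  rw [← lin_β]; exact x.bd.lin_eq δ

lemma τ_β1 (δ : A.σ' → A.Z') {q : A.D'} (hq : q * x.a1 = x.a1 * q) :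
    A.T'.τ (q * x.β1 δ) = A.T'.τ (q * x.l' δ) := by
  rw [← lin_β]; exact x.bd.τ_lin δ hq

lemma l'_comm (δ : A.σ' → A.Z') : x.l' δ * x.a1 = x.a1 * x.l' δ := lin_comm x.bd.b_comm δ

lemma Ψb_comm (w : List A.σ') : co (A.Ψ x.b) w * A.ι' x.a0 = A.ι' x.a0 * co (A.Ψ x.b) w := by
  have := congrArg A.Ψ ((comm_C_iff x.a0 x.b).2 fun w => (x.hbc w).symm)
  rw [map_mul, map_mul, A.Ψ_C, comm_C_iff] at this
  exact (this w).symm

lemma β1_comm (δ : A.σ' → A.Z') : x.β1 δ * A.ι' x.a0 = A.ι' x.a0 * x.β1 δ := lin_comm x.Ψb_comm δ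

lemma a1_eq' : x.a1 = A.ι' x.a0 + co (A.Ψ x.b) [] := by
  rw [a1, map_add, A.Ψ_C, co_add, co_C_nil]

lemma a1_eq : x.a1 = A.ι' x.a0 + A.t (2 * A.n - 1) • A.bh x.b := by
  rw [a1_eq', Arc.bh, smul_smul, tt_mul, add_neg_cancel, tt_zero, one_smul]

lemma bh_comm : A.bh x.b * A.ι' x.a0 = A.ι' x.a0 * A.bh x.b := by
  rw [Arc.bh, smul_mul_assoc, mul_smul_comm, Ψb_comm]

lemma a1_comm : x.a1 * A.ι' x.a0 = A.ι' x.a0 * x.a1 := by
  rw [a1_eq', add_mul, mul_add, Ψb_comm]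

lemma bh_mem : A.bh x.b ∈ A.J 0 := (A.bh_est x.hb).1
lemma bh_co0 : Lau.co 0 (A.bh x.b) = A.c.j (A.lam • A.c.ι x.v) := (A.bh_est x.hb).2.1

lemma comm_a0 {c : A.D'} (hc : c * x.a1 = x.a1 * c) : c * A.ι' x.a0 = A.ι' x.a0 * c := by
  by_contra hne
  have h0 : c * A.ι' x.a0 - A.ι' x.a0 * c ≠ 0 := sub_ne_zero.2 hne
  obtain ⟨N, h1, h2⟩ := Lau.exists_norm h0
  set d := A.t N • (c * A.ι' x.a0 - A.ι' x.a0 * c) with hd
  have h3 : d * x.a1 = x.a1 * d := by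
    rw [hd, smul_mul_assoc, mul_smul_comm, sub_mul, mul_sub, mul_assoc, ← a1_comm, mul_assoc, hc,
      ← mul_assoc, hc, ← mul_assoc (x.a1), ← mul_assoc (x.a1), ← mul_assoc _ x.a1, a1_comm]
  have h4 : d * A.ι' x.a0 - A.ι' x.a0 * d =
      A.t (2 * A.n - 1) • (A.bh x.b * d - d * A.bh x.b) := by
    rw [a1_eq, mul_add, add_mul, mul_smul_comm, smul_mul_assoc (A.t (2 * A.n - 1))] at h3
    rw [smul_sub, sub_eq_sub_iff_add_eq_add, h3, add_comm]
  have h5 := congrArg (Lau.co 0) h4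
  have hn := A.hn
  rw [Lau.co_tt_smul, Lau.mem_J.1 (sub_mem (Lau.J_mul0 x.bh_mem h1) (Lau.J_mul0 h1 x.bh_mem)) _
    (by omega), map_sub, A.ι'_apply, Lau.co_mul_Cst, Lau.co_Cst_mul, sub_eq_zero] at h5
  apply h2
  apply A.c.T1.eq_zero_of
  have h6 : Lau.co 0 d = Lau.co (0 - N) c * A.c.jι x.a0 - A.c.jι x.a0 * Lau.co (0 - N) c := by
    rw [hd, Lau.co_tt_smul, map_sub, A.ι'_apply, Lau.co_mul_Cst, Lau.co_Cst_mul]
  conv_lhs => enter [2, 2]; rw [h6]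
  exact A.c.T1.τ_comm_zero (Commute.inv_left₀ h5) _

lemma comm_bh {c : A.D'} (hc : c * x.a1 = x.a1 * c) : c * A.bh x.b = A.bh x.b * c := by
  have h1 := x.comm_a0 hc
  rw [a1_eq, mul_add, add_mul, h1, add_right_inj, mul_smul_comm, smul_mul_assoc] at hc
  exact smul_right_injective _ (tt_ne_zero _) hc

lemma bh_a1 : A.bh x.b * x.a1 = x.a1 * A.bh x.b := by
  rw [a1_eq, mul_add, add_mul, bh_comm, mul_smul_comm, smul_mul_assoc]

lemma g1_comm (δ : A.σ' → A.Z') : x.g1 δ * A.ι' x.a0 = A.ι' x.a0 * x.g1 δ := by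
  rw [← sub_eq_zero]
  apply A.T'.eq_zero_of
  apply A.T'.τ_comm_zero
  apply x.comm_a0
  apply Commute.inv_left₀
  have h1 := x.β1_comm δ
  have h2 := x.comm_a0 (x.l'_comm δ)
  rw [β1_eq, add_mul, mul_add, h2, add_right_inj] at h1
  have h3 := x.a1_comm
  change _ * _ = _ * _
  rw [← sub_eq_zero] at h1 ⊢
  rw [← h1]
  simp only [sub_mul, mul_sub, mul_assoc, h3]
  simp only [← mul_assoc, h3]
  abel

lemma cp_comm {c : A.D'} (hc : c * A.ι' x.a0 = A.ι' x.a0 * c) (k : ℤ) (l : ZMod A.m) :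
    A.c.ι x.a0 * A.c.cp l (Lau.co k c) = A.c.cp l (Lau.co k c) * A.c.ι x.a0 :=
  (A.c.comm_jι_iff _ _).1 ((Lau.comm_Cst_iff _ _).1 hc.symm k) l

lemma l'_ne_of {u : A.D'} (hu : u * x.a1 = x.a1 * u) (h0 : u ∈ A.J 0) (h1 : Lau.co 0 u ≠ 0)
    {δ : A.σ' → A.Z'} (h2 : x.β1 δ ∈ A.J 0)
    (h3 : A.c.T1.τ ((Lau.co 0 u)⁻¹ * Lau.co 0 (x.β1 δ)) ≠ 0) : x.l' δ ≠ 0 := by
  intro h
  apply h3
  have := x.τ_β1 δ (Commute.inv_left₀ hu)
  rw [h, mul_zero, map_zero] at this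
  have := congrArg (fun z : A.Z' => z.coeff 0) this
  simp only [Lau.coeff_tr] at this
  rw [Lau.co_mul0 (Lau.inv_mem h0 h1).1 h2, (Lau.inv_mem h0 h1).2] at this
  simpa using this

lemma m0_ne (hv : x.v ≠ 0) : A.c.j (A.lam • A.c.ι x.v) ≠ 0 := by
  rw [map_ne_zero]
  exact smul_ne_zero (A.c.X_ne_zero _ _) ((map_ne_zero _).2 hv)

lemma l'_ne (hv : x.v ≠ 0) : ∃ δ, x.l' δ ≠ 0 := by
  obtain ⟨δ, hδ⟩ := A.exists_dir A.f1 A.lam 0
  have h1 := A.res_of_sub (Lau.J_anti (by omega) (hδ x.b))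
  refine ⟨δ, x.l'_ne_of x.bh_a1 x.bh_mem (by rw [bh_co0]; exact x.m0_ne hv) h1.1 ?_⟩
  rw [β1, h1.2, bh_co0, A.c.y_zero, mul_one, A.c.jK_jι, A.c.jι_apply, ← A.c.j_smul]
  change A.c.T1.τ (_ * A.c.j (A.lam • A.c.ι x.v)) ≠ 0
  rw [inv_mul_cancel₀ (x.m0_ne hv), A.c.T1.one]
  exact one_ne_zero

open Classical in
noncomputable def δE : A.σ' → A.Z' := A.t (-(2 * A.n)) • Pi.single none 1

lemma β1_δE : x.β1 δE ∈ A.J 0 ∧ Lau.co 0 (x.β1 δE) = A.n • A.o x.b := by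
  classical
  apply A.res_of_sub
  have h1 := Lau.tt_smul_mem (a := -(2 * A.n)) (c := 1) (A.Ψ_est x.hb).2 (by omega)
  rw [smul_sub, smul_smul, tt_mul, neg_add_cancel, tt_zero, one_smul] at h1
  rw [β1, δE, map_smul]
  convert h1
  convert lin_single _ _

variable [FiniteDimensional Z D]

lemma o_ne {w : List A.S} (hw : w.length = A.n) (h : co (subst A.hφ x.b) w ≠ 0) :
    A.o x.b ≠ 0 := by
  obtain ⟨u, h0, -, hu⟩ := A.exists_o
  rw [hu, map_ne_zero]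
  refine smul_ne_zero h0 fun h1 => h ?_
  have := A.c.τ_hE A.k (co (subst A.hφ x.b) w)⁻¹ A.n 0 (subst A.hφ x.b)
  rw [h1, mul_zero, map_zero, eq_comm, ← map_zero A.c.g.emb] at this
  exact T.eq_zero_of (hP_ind1 A.hm _ (A.c.g.emb_inj this) w hw)

lemma l'_ne0 (hl : ∀ i, co x.b [i] = 0) {w : List A.S} (hw : w.length = A.n)
    (h : co (subst A.hφ x.b) w ≠ 0) : ∃ δ, x.l' δ ≠ 0 := by
  have h1 := Lau.tt_smul_mem (a := -(2 * A.n)) (c := 1) (A.Ψ_est x.hb).1 (by omega)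
  simp only [hl, map_zero, mul_zero, Finset.sum_const_zero, add_zero] at h1
  rw [smul_sub, smul_smul, tt_mul, neg_add_cancel, tt_zero, one_smul] at h1
  have h2 := A.res_of_sub h1
  have h3 := x.o_ne hw h
  refine ⟨δE, x.l'_ne_of ?_ h2.1 (by rw [h2.2]; exact h3) x.β1_δE.1 ?_⟩
  · rw [smul_mul_assoc, mul_smul_comm, a1_eq', mul_add, add_mul, Ψb_comm]
  · rw [h2.2, x.β1_δE.2, mul_smul_comm, inv_mul_cancel₀ h3, map_nsmul, A.c.T1.one]
    have := A.hn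
    simp; omega

lemma cp_mem_P {c : A.D'} (hc : c * A.ι' x.a0 = A.ι' x.a0 * c) (k : ℤ) (l : ZMod A.m) :
    A.c.cp l (Lau.co k c) ∈ A.c.g.x.bcA (PP Z x.a0) :=
  A.c.g.x.mem_bc_cent _ (by rintro _ rfl; exact x.cp_comm hc k l)

lemma comm_L {e : A.c.E} (he : e ∈ A.c.g.x.bcA (PP Z x.a0)) {y : D} (hy : y ∈ LL Z x.a0) :
    e * A.c.ι y = A.c.ι y * e :=
  A.c.g.x.comm_of_bc he fun d hd => by
    rw [← map_mul, ← map_mul, mem_LL.1 hy d ((mem_PP (Z := Z)).1 hd)]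

lemma diag_of_comm (hv : x.v ≠ 0) {c : A.D'} (h0 : c ∈ A.J 0)
    (hc : c * A.bh x.b = A.bh x.b * c) :
    Lau.co 0 c = A.c.j (A.c.cp 0 (Lau.co 0 c)) ∧
    A.c.ι x.v * A.c.cp 0 (Lau.co 0 c) = A.c.cp 0 (Lau.co 0 c) * A.c.ι x.v := by
  have h1 := congrArg (Lau.co 0) hc
  rw [Lau.co_mul0 h0 x.bh_mem, Lau.co_mul0 x.bh_mem h0, bh_co0] at h1
  refine ⟨A.c.eq_j fun l hl => A.c.offdiag_zero none hv h1.symm hl, ?_⟩
  have h2 := congrArg (A.c.cp 0) h1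
  rw [A.c.cp_j_mul, A.c.cp_mul_j, A.c.g.sE_zero, mul_smul_comm, smul_mul_assoc] at h2
  exact (smul_right_injective _ (A.c.X_ne_zero _ _) h2).symm

lemma res_P (hv : x.v ≠ 0) : Lau.Res (PP A.Z' x.a1).toSubmodule ≤
    A.c.JK (Subalgebra.centralizer Z {x.a0, x.v}).toSubmodule := by
  rintro _ ⟨c, hc, h0, rfl⟩
  have hc' := (mem_PP (Z := A.Z')).1 hc
  obtain ⟨h1, h2⟩ := x.diag_of_comm hv h0 (x.comm_bh hc')
  refine ⟨_, A.c.g.x.mem_bc_cent _ ?_, h1.symm⟩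
  rintro _ (rfl | rfl)
  · exact x.cp_comm (x.comm_a0 hc') 0 0
  · exact h2

lemma finrank_P' (hv : x.v ≠ 0) : finrank A.Z' (PP A.Z' x.a1) ≤
    A.m * finrank Z (Subalgebra.centralizer Z {x.a0, x.v}) := by
  have := Lau.finrank_le_of_Res_le A.c.T1 (x.res_P hv)
  rw [A.c.finrank_JK none] at this
  exact this

lemma ι'_mem_L' {y : D} (hy : y ∈ LL Z x.a0) : A.ι' y ∈ LL A.Z' x.a1 := by
  rw [mem_LL]
  intro p hp
  symm
  rw [A.ι'_apply, Lau.comm_Cst_iff]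
  intro k
  rw [A.c.comm_jι_iff]
  intro l
  exact (x.comm_L (x.cp_mem_P (x.comm_a0 hp) k l) hy).symm

lemma finrank_L' (hv : x.v ≠ 0) : A.m * finrank Z (LL Z x.a0) ≤ finrank A.Z' (LL A.Z' x.a1) := by
  let b := Module.finBasis Z (LL Z x.a0)
  have hli : LinearIndependent Z fun i => (b i : D) :=
    b.linearIndependent.map' (LL Z x.a0).toSubmodule.subtype (Submodule.ker_subtype _)
  let z : Fin A.m × Fin (finrank Z (LL Z x.a0)) → A.D' := fun p =>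
    A.ι' (b p.2) * A.bh x.b ^ (p.1 : ℕ)
  have hz : ∀ p, z p ∈ LL A.Z' x.a1 := fun p =>
    mul_mem (x.ι'_mem_L' (b p.2).2) (pow_mem (mem_LL.2 fun _ hp => x.comm_bh hp) _)
  have hpow : ∀ k : ℕ, A.bh x.b ^ k ∈ A.J 0 ∧
      Lau.co 0 (A.bh x.b ^ k) = A.c.j (A.lam ^ k • A.c.ι x.v ^ k) := by
    intro k
    induction k with
    | zero => simpa using Lau.one_mem
    | succ k ih =>
      refine ⟨by rw [pow_succ]; exact Lau.J_mul0 ih.1 x.bh_mem, ?_⟩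
      rw [pow_succ, Lau.co_mul0 ih.1 x.bh_mem, ih.2, bh_co0, ← map_mul, smul_mul_smul_comm,
        pow_succ, pow_succ]
  have h1 : LinearIndependent A.Z' z := by
    refine Lau.li_of_res z (fun p => Lau.J_mul0 (A.ι'_mem _) (hpow _).1) ?_
    rw [Fintype.linearIndependent_iff]
    rintro α hα ⟨k, i⟩
    simp only [z, A.ι'_apply, Lau.co_Cst_mul, (hpow _).2, A.c.jι_apply, ← map_mul, ← map_smul,
      ← map_sum, map_eq_zero, Fintype.sum_prod_type] at hα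
    have h2 := A.c.gal_li (A.c.li_pow none)
      (u := fun k => (∑ i, algebraMap _ A.c.K (α (k, i)) • A.c.ι (b i)) * A.c.ι x.v ^ (k : ℕ))
      (fun l k => by
        simp only [map_mul, map_sum, map_pow, A.c.g.sE_smul, A.c.g.sE_ι, A.c.fixed])
      (by
        rw [← hα]
        refine Finset.sum_congr rfl fun k _ => ?_
        simp only [Finset.sum_mul, Finset.smul_sum, algebraMap_smul, mul_smul_comm,
          smul_mul_assoc]
        exact Finset.sum_congr rfl fun i _ => smul_comm _ _ _) k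
    have h3 := (mul_eq_zero.1 h2).resolve_right (pow_ne_zero _ ((map_ne_zero _).2 hv))
    have h4 := Fintype.linearIndependent_iff.1 (A.c.g.x.li hli) _ h3 i
    simpa using h4
  have h2 : LinearIndependent A.Z' fun p => (⟨z p, hz p⟩ : LL A.Z' x.a1) :=
    LinearIndependent.of_comp (LL A.Z' x.a1).toSubmodule.subtype h1
  simpa using h2.fintype_card_le_finrank

end Ctx

end Vale.Agent.P199
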