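import Vale.Agent.P199.An1

namespace Vale.Agent.P199

open Module NPS

namespace Arc
variable {Z D σ : Type} [Field Z] [DivisionRing D] [Algebra Z D] [Fintype σ] {T : Tr Z D}
  (A : Arc T σ)

noncomputable def f1' : A.σ' → A.Z' := (A.exists_dir A.f1 1 0).choose

lemma τ'_res {p q : A.D'} (hp : p ∈ A.J 0) (hq : q ∈ A.J 0) :
    (A.T'.τ (p * q)).coeff 0 = A.c.T1.τ (Lau.co 0 p * Lau.co 0 q) := by
  rw [Lau.coeff_tr, Lau.co_mul0 hp hq]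

end Arc

namespace Ctx
variable {Z D σ : Type} [Field Z] [DivisionRing D] [Algebra Z D] [Fintype σ] {T : Tr Z D}
  {A : Arc T σ} (x : Ctx A)

noncomputable def v' : A.D' := x.l' A.f1'

structure Good : Prop where
  hv : x.v ≠ 0
  hL : ∀ δ, lin Z x.b δ ∈ LL Z x.a0
  hP : Lau.Res (PP A.Z' x.a1).toSubmodule = A.c.JK (PP Z x.a0).toSubmodule
  hL' : ∀ δ, x.l' δ ∈ LL A.Z' x.a1

lemma l'_mem {δ : A.σ' → A.Z'} (h : x.β1 δ ∈ A.J 0) : x.l' δ ∈ A.J 0 := by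
  by_contra hc
  obtain ⟨n, hn, h1, h2⟩ := Lau.exists_norm_pos hc
  have h3 : (A.t n • x.l' δ) * x.a1 = x.a1 * (A.t n • x.l' δ) := by
    rw [smul_mul_assoc, mul_smul_comm, l'_comm]
  have h0 : A.t n • x.l' δ ≠ 0 := by intro h; rw [h] at h2; simp at h2
  have h4 := x.τ_β1 (A.t n • δ) (Commute.inv_left₀ h3)
  have e1 : x.l' (A.t n • δ) = A.t n • x.l' δ := map_smul _ _ _
  have e2 : x.β1 (A.t n • δ) = A.t n • x.β1 δ := map_smul _ _ _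
  rw [e1, e2, inv_mul_cancel₀ h0, A.T'.one] at h4
  have h5 := congrArg (fun z : A.Z' => z.coeff 0) h4
  rw [A.τ'_res (Lau.inv_mem h1 h2).1 (Lau.tt_smul_mem h (by omega)), Lau.co_tt_smul,
    Lau.mem_J.1 h _ (by omega)] at h5
  simp at h5

variable [FiniteDimensional Z D] {x}

lemma Good.l'_res (h : x.Good) {δ : A.σ' → A.Z'} (hδ : x.β1 δ ∈ A.J 0) :
    Lau.co 0 (x.l' δ) = A.c.j (A.c.cp 0 (Lau.co 0 (x.β1 δ))) := by
  have h1 : Lau.co 0 (x.l' δ) ∈ Lau.Res (PP A.Z' x.a1).toSubmodule :=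
    ⟨_, (mem_PP (Z := A.Z')).2 (x.l'_comm δ), x.l'_mem hδ, rfl⟩
  rw [h.hP] at h1
  obtain ⟨u, hu, hu'⟩ := A.c.mem_JK.1 h1
  have h2 : A.c.cp 0 (Lau.co 0 (x.β1 δ)) - u ∈ A.c.g.x.bcA (PP Z x.a0) :=
    sub_mem (x.cp_mem_P (x.β1_comm δ) 0 0) hu
  have h3 : A.c.j (A.c.cp 0 (Lau.co 0 (x.β1 δ)) - u)⁻¹ ∈ Lau.Res (PP A.Z' x.a1).toSubmodule := by
    rw [h.hP]
    exact ⟨_, sub_inv_mem _ h2, rfl⟩
  obtain ⟨p, hp, hp0, hp1⟩ := h3
  have h4 := congrArg (fun z : A.Z' => z.coeff 0) (x.τ_β1 δ ((mem_PP (Z := A.Z')).1 hp))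
  rw [A.τ'_res hp0 hδ, A.τ'_res hp0 (x.l'_mem hδ), ← sub_eq_zero, ← map_sub, ← mul_sub, hp1, ← hu',
    A.c.τ1_eq_zero_iff, A.c.cp_j_mul, map_sub, A.c.cp0_j] at h4
  by_contra hne
  rw [← hu'] at hne
  rw [inv_mul_cancel₀ (sub_ne_zero.2 fun e => hne (by rw [e]))] at h4
  simp [A.c.g.T'.one, NeZero.ne A.m] at h4

lemma Good.l'_dir (h : x.Good) {δ : A.σ' → A.Z'} {f : σ → Z} {k : A.c.K}
    (hδ : ∀ z : NPS σ D, lin A.Z' (A.Ψ z) δ -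
      A.Cst (A.c.jι (lin Z z f) * (A.c.jK k * A.c.y 0)) ∈ A.J 2) :
    x.l' δ ∈ A.J 0 ∧ Lau.co 0 (x.l' δ) = A.c.j (k • A.c.ι (lin Z x.b f)) := by
  have h1 := A.res_of_sub (Lau.J_anti (by omega) (hδ x.b))
  refine ⟨x.l'_mem h1.1, ?_⟩
  rw [h.l'_res h1.1, β1, h1.2, A.c.y_zero, mul_one, A.c.jK_jι, A.c.jι_apply, ← A.c.j_smul,
    A.c.cp0_j]

lemma Good.v'_res (h : x.Good) : x.v' ∈ A.J 0 ∧ Lau.co 0 x.v' = A.c.j (A.c.ι x.v) := by
  have := h.l'_dir (A.exists_dir A.f1 1 0).choose_spec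
  rw [one_smul] at this
  exact this

lemma Good.v'_co_ne (h : x.Good) : Lau.co 0 x.v' ≠ 0 := by
  rw [h.v'_res.2]
  simpa using h.hv

lemma Good.v'_ne (h : x.Good) : x.v' ≠ 0 := fun e => h.v'_co_ne (by rw [e]; simp)

lemma Good.v'_inv (h : x.Good) : x.v'⁻¹ ∈ A.J 0 ∧ Lau.co 0 x.v'⁻¹ = A.c.j (A.c.ι x.v⁻¹) := by
  have := Lau.inv_mem h.v'_res.1 h.v'_co_ne
  rw [h.v'_res.2] at this
  simpa using this

lemma Good.Vt_res (h : x.Good) {y : D} (hy : y ∈ Vt Z x.b A.f1) (k : A.c.K) :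
    A.c.j (k • A.c.ι y) ∈ Lau.Res (Vt A.Z' x.b' A.f1') := by
  obtain ⟨f, rfl⟩ := mem_Vt.1 hy
  obtain ⟨δ, hδ⟩ := A.exists_dir f k 0
  have h1 := h.l'_dir hδ
  refine ⟨x.l' δ * x.v'⁻¹, mem_Vt.2 ⟨δ, rfl⟩, Lau.J_mul0 h1.1 h.v'_inv.1, ?_⟩
  rw [Lau.co_mul0 h1.1 h.v'_inv.1, h1.2, h.v'_inv.2, ← map_mul, smul_mul_assoc, ← map_mul]
  rfl

lemma Good.Vt_pow_res (h : x.Good) (n : ℕ) {y : D} (hy : y ∈ Vt Z x.b A.f1 ^ (n + 1)) (k : A.c.K) :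
    A.c.j (k • A.c.ι y) ∈ Lau.Res (Vt A.Z' x.b' A.f1' ^ (n + 1)) := by
  induction n generalizing y k with
  | zero =>
    rw [zero_add, pow_one] at hy ⊢
    exact h.Vt_res hy k
  | succ n ih =>
    rw [pow_succ] at hy
    refine Submodule.mul_induction_on hy (fun a ha b hb => ?_) fun a b ha hb => ?_
    · obtain ⟨p, hp, hp0, hp1⟩ := ih ha k
      obtain ⟨q, hq, hq0, hq1⟩ := h.Vt_res hb 1
      refine ⟨p * q, by rw [pow_succ]; exact Submodule.mul_mem_mul hp hq, Lau.J_mul0 hp0 hq0, ?_⟩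
      rw [Lau.co_mul0 hp0 hq0, hp1, hq1, ← map_mul, one_smul, smul_mul_assoc, ← map_mul]
    · rw [map_add, smul_add, map_add]
      exact add_mem ha hb

lemma Good.E_res_ge (h : x.Good) :
    A.c.JK (EE Z x.b A.f1).toSubmodule ≤ Lau.Res (EE A.Z' x.b' A.f1').toSubmodule := by
  obtain ⟨n, hn⟩ := exists_EE_le (Z := Z) (b := x.b) (f := A.f1) h.hv
  intro z hz
  obtain ⟨e, he, rfl⟩ := A.c.mem_JK.1 hz
  suffices h : ∀ k : A.c.K, A.c.j (k • e) ∈ Lau.Res (EE A.Z' x.b' A.f1').toSubmodule by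
    simpa only [one_smul] using h 1
  refine A.c.g.x.bc_ind (p := fun e => ∀ k : A.c.K,
    A.c.j (k • e) ∈ Lau.Res (EE A.Z' x.b' A.f1').toSubmodule) ?_ (by simp) ?_ ?_ he
  · intro d hd k
    obtain ⟨p, hp, hp0, hp1⟩ := h.Vt_pow_res (n + 1) (hn hd) k
    exact ⟨p, Vt_pow_le _ _ _ hp, hp0, hp1⟩
  · intro a b ha hb k
    rw [smul_add, map_add]
    exact add_mem (ha k) (hb k)
  · intro k' a ha k
    rw [smul_smul]; exact ha _

lemma Good.finrank_E' (h : x.Good) :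
    A.m * finrank Z (EE Z x.b A.f1) ≤ finrank A.Z' (EE A.Z' x.b' A.f1') := by
  have := (Submodule.finrank_mono h.E_res_ge).trans (Lau.finrank_Res_le _)
  rw [A.c.finrank_JK none] at this
  exact this

lemma Good.δE_res (h : x.Good) : x.l' δE ∈ A.J 0 ∧ ∃ u : A.c.K, u ≠ 0 ∧ (∀ i, A.c.sK i u = u) ∧
    Lau.co 0 (x.l' δE) = A.c.j (u • A.c.hE A.k A.n 0 (subst A.hφ x.b)) := by
  obtain ⟨u, h0, h1, hu⟩ := A.exists_o
  have hn := A.hn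
  refine ⟨x.l'_mem x.β1_δE.1, A.n * u, mul_ne_zero (by simp; omega) h0, fun i => by simp [h1], ?_⟩
  rw [h.l'_res x.β1_δE.1, x.β1_δE.2, hu, ← map_nsmul, A.c.cp0_j, mul_smul,
    Nat.cast_smul_eq_nsmul]

/-- errors lie in the line over `E` -/
lemma Good.F1 (h : x.Good)
    (hE : Lau.Res (EE A.Z' x.b' A.f1').toSubmodule = A.c.JK (EE Z x.b A.f1).toSubmodule)
    {w : List A.S} (hw : w.length = A.n) :
    co (subst A.hφ x.b) w * x.v⁻¹ ∈ EE Z x.b A.f1 := by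
  obtain ⟨h1, u, h0, -, hu⟩ := h.δE_res
  have h2 : Lau.co 0 (x.l' δE * x.v'⁻¹) ∈ Lau.Res (EE A.Z' x.b' A.f1').toSubmodule :=
    ⟨_, Vt_le _ _ (mem_Vt.2 ⟨δE, rfl⟩), Lau.J_mul0 h1 h.v'_inv.1, rfl⟩
  rw [hE, Lau.co_mul0 h1 h.v'_inv.1, hu, h.v'_inv.2, ← map_mul] at h2
  obtain ⟨e, he, he'⟩ := A.c.mem_JK.1 h2
  have h3 := A.c.j_inj he'
  apply T.mem_of_perp_perp (EE Z x.b A.f1).toSubmodule
  intro g hg
  have h4 : A.c.τK (e * A.c.ι g) = 0 := A.c.g.x.τ_zero_of_bc he fun d hd => by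
    rw [← map_mul, A.c.g.x.tr, hg d hd, map_zero]
  rw [h3, smul_mul_assoc, smul_mul_assoc, map_smul, smul_eq_zero, mul_assoc, A.c.g.T'.comm,
    ← map_mul, A.c.τ_hE] at h4
  have h5 := hP_ind1 A.hm _ (A.c.g.emb_inj ((h4.resolve_left h0).trans (map_zero _).symm)) w hw
  rw [← mul_assoc, T.comm, ← mul_assoc]
  exact h5

lemma Good.KL (h : x.Good)
    (hE : Lau.Res (EE A.Z' x.b' A.f1').toSubmodule = A.c.JK (EE Z x.b A.f1).toSubmodule)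
    {e' : A.D'} (he : e' ∈ WW A.T' x.b' A.f1') (he0 : e' ∈ A.J 0) :
    ∃ e0 ∈ A.c.g.x.bcA (EE Z x.b A.f1), Lau.co 0 e' = A.c.j e0 ∧
      (∀ y ∈ Vt Z x.b A.f1, A.c.τK (e0 * A.c.ι y) = 0) ∧
      ∀ y ∈ Vt Z x.b A.f1 ^ 2, ∀ i, A.c.sK i (A.c.τK (e0 * A.c.ι y)) = A.c.τK (e0 * A.c.ι y) := by
  have h1 : Lau.co 0 e' ∈ Lau.Res (EE A.Z' x.b' A.f1').toSubmodule := ⟨_, he.1, he0, rfl⟩
  rw [hE] at h1
  obtain ⟨e0, he1, he2⟩ := A.c.mem_JK.1 h1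
  refine ⟨e0, he1, he2.symm, fun y hy => ?_, ?_⟩
  · apply A.c.tr_zero
    intro κ
    obtain ⟨p, hp, hp0, hp1⟩ := h.Vt_res hy κ
    have := congrArg (fun z : A.Z' => z.coeff 0) (he.2 p hp)
    rw [A.τ'_res hp0 he0, hp1, ← he2, ← map_mul, HahnSeries.coeff_zero, A.c.τ1_eq_zero_iff,
      A.c.cp0_j, smul_mul_assoc, map_smul, A.c.g.T'.comm] at this
    exact this
  have hvL : x.v ∈ LL Z x.a0 := h.hL _
  have hEL := EE_le h.hL A.f1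
  set c' := x.v'⁻¹ * e' with hc'
  have hcL : c' ∈ LL A.Z' x.a1 := mul_mem (sub_inv_mem _ (h.hL' _)) (EE_le h.hL' A.f1' he.1)
  have hc1 : c' * x.a1 = x.a1 * c' := mem_PP.1 (LL_le _ hcL)
  have hc0 : c' ∈ A.J 0 := Lau.J_mul0 h.v'_inv.1 he0
  have hc2 : Lau.co 0 c' = A.c.j (A.c.ι x.v⁻¹ * e0) := by
    rw [hc', Lau.co_mul0 h.v'_inv.1 he0, h.v'_inv.2, ← he2, map_mul]
  have hc3 : ∀ δ, A.T'.τ (c' * x.β1 δ) = 0 := fun δ => by
    rw [x.τ_β1 δ hc1, hc', A.T'.comm, ← mul_assoc]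
    exact he.2 _ (mem_Vt.2 ⟨δ, rfl⟩)
  have hc4 : ∀ f l, A.c.τK (A.c.cp l (Lau.co 1 c') * A.c.ι (lin Z x.b f)) = 0 := by
    intro f l
    apply A.c.perp
    intro κ
    obtain ⟨δ, hδ⟩ := A.exists_dir f κ (-l)
    have h3 := Lau.mem_J.1 (Lau.J_mul hc0 (hδ x.b)) 1 (by omega)
    rw [mul_sub, map_sub, Lau.co_mul_Cst, sub_eq_zero] at h3
    have h4 := congrArg (fun z : A.Z' => z.coeff 1) (hc3 δ)
    simp only [Lau.coeff_tr] at h4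
    rw [β1, h3] at h4
    exact h4
  have hc5 := congrArg (Lau.co 1) (x.comm_bh hc1)
  rw [Lau.co_mul1 hc0 x.bh_mem, Lau.co_mul1 x.bh_mem hc0, hc2, bh_co0,
    (A.bh_est x.hb).2.2] at hc5
  -- commutation of the leading term
  have hc6 : ∀ y ∈ LL Z x.a0, e0 * A.c.ι y = A.c.ι y * e0 := fun y hy =>
    x.comm_L (A.c.g.x.bc_mono (fun d hd => LL_le _ (hEL hd)) he1) hy
  have key : ∀ (i : σ) (r : ℕ), (r = 2 * Arc.idx i + 1 ∨ r = 2 * Arc.idx i + 2) →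
      ∀ y ∈ Vt Z x.b A.f1, A.c.sK r (A.c.τK (e0 * A.c.ι (co x.b [i] * x.v⁻¹ * y))) =
        A.c.τK (e0 * A.c.ι (co x.b [i] * x.v⁻¹ * y)) := by
    classical
    intro i r hr y hy
    obtain ⟨f, rfl⟩ := mem_Vt.1 hy
    have h2 := congrArg (A.c.cp r) hc5
    rw [map_add, map_add, A.c.cp_j_mul, A.c.cp_j_mul, A.c.cp_mul_j, A.c.cp_mul_j,
      (A.cp_Xi x.b i hr).2, A.c.g.sE_smul, A.c.g.sE_ι, map_mul (A.c.sE r), A.c.g.sE_ι,
      mul_smul_comm, smul_mul_assoc,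
      ← x.comm_L (x.cp_mem_P (x.comm_a0 hc1) 1 r) hvL] at h2
    have h3 := congrArg (fun z => A.c.τK (z * A.c.ι (x.v⁻¹ * lin Z x.b f))) h2
    have e1 : A.c.cp r (Lau.co 1 c') * A.c.ι x.v * A.c.ι (x.v⁻¹ * lin Z x.b f) =
        A.c.cp r (Lau.co 1 c') * A.c.ι (lin Z x.b f) := by
      rw [mul_assoc, ← map_mul, mul_inv_cancel_left₀ h.hv]
    simp only [add_mul, map_add, smul_mul_assoc, map_smul, e1, hc4, smul_zero, add_zero,
      zero_add] at h3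
    have hbL : co x.b [i] ∈ LL Z x.a0 := lin_single (Z := Z) x.b i ▸ h.hL _
    have hvi : x.v⁻¹ ∈ LL Z x.a0 := sub_inv_mem _ hvL
    have e2 : x.v⁻¹ * lin Z x.b f = lin Z x.b f * x.v⁻¹ := LL_comm hvi (h.hL f)
    have e3 : x.v⁻¹ * co x.b [i] = co x.b [i] * x.v⁻¹ := LL_comm hvi hbL
    have e4 : A.c.ι x.v⁻¹ * e0 * A.c.ι (co x.b [i]) * A.c.ι (x.v⁻¹ * lin Z x.b f) =
        e0 * A.c.ι (co x.b [i] * x.v⁻¹ * (lin Z x.b f * x.v⁻¹)) := by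
      rw [← hc6 _ hvi, mul_assoc e0, ← map_mul, mul_assoc e0, ← map_mul, e2, e3]
    have e5 : A.c.τK (A.c.ι (co x.b [i]) * (A.c.ι x.v⁻¹ * A.c.sE r e0) *
        A.c.ι (x.v⁻¹ * lin Z x.b f)) =
        A.c.τK (A.c.sE r e0 * A.c.ι (co x.b [i] * x.v⁻¹ * (lin Z x.b f * x.v⁻¹))) := by
      rw [← mul_assoc (A.c.ι _), ← map_mul, mul_assoc, A.c.g.T'.comm, mul_assoc, ← map_mul, e2,
        LL_comm (mul_mem (h.hL f) hvi) (mul_mem hbL hvi)]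
    rw [e4] at h3
    rw [← A.c.g.τ_sE, map_mul (A.c.sE r), A.c.g.sE_ι]
    exact (h3.trans e5).symm
  intro y hy i
  apply A.c.fixed_of_one
  rw [pow_two] at hy
  refine Submodule.mul_induction_on hy (fun a ha b hb => ?_) fun a b ha hb => ?_
  · obtain ⟨f, rfl⟩ := mem_Vt.1 ha
    rw [lin_apply x.b f, Finset.sum_mul, Finset.sum_mul, map_sum, Finset.mul_sum, map_sum, map_sum]
    refine Finset.sum_congr rfl fun i _ => ?_
    have h2 := key i _ (Or.inl rfl) b hb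
    have h3 := key i _ (Or.inr rfl) b hb
    rw [show ((2 * Arc.idx i + 2 : ℕ) : ZMod A.m) = 1 + ((2 * Arc.idx i + 1 : ℕ) : ZMod A.m) by
      push_cast; ring, A.c.g.sK_add, h2] at h3
    rw [smul_mul_assoc, smul_mul_assoc, A.c.g.x.smul, mul_smul_comm, map_smul, smul_eq_mul,
      map_mul, A.c.g.sK_ι]
    congr 1
  · rw [map_add, mul_add, map_add, map_add, ha, hb]

/-- the depth decreases -/
lemma Good.dep (h : x.Good)
    (hE : Lau.Res (EE A.Z' x.b' A.f1').toSubmodule = A.c.JK (EE Z x.b A.f1).toSubmodule) (k : ℕ)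
    (hk : (EE Z x.b A.f1).toSubmodule ≤ Vt Z x.b A.f1 ^ (k + 3)) :
    (EE A.Z' x.b' A.f1').toSubmodule ≤ Vt A.Z' x.b' A.f1' ^ (k + 2) := by
  by_contra hc
  obtain ⟨e, he, he0, he1⟩ := A.T'.exists_perp_of_not_le _ _ (Vt_pow_le _ _ _) hc
  obtain ⟨N, h1, h2⟩ := Lau.exists_norm he0
  set e' := A.t N • e
  have he' : e' ∈ EE A.Z' x.b' A.f1' := Subalgebra.smul_mem _ he _
  have he1' : e' ∈ A.T'.perp (Vt A.Z' x.b' A.f1' ^ (k + 2) : Submodule _ _) :=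
    Submodule.smul_mem _ _ he1
  have h3 : Lau.co 0 e' ∈ Lau.Res (EE A.Z' x.b' A.f1').toSubmodule := ⟨_, he', h1, rfl⟩
  rw [hE] at h3
  obtain ⟨e0, he2, he3⟩ := A.c.mem_JK.1 h3
  have hEL := EE_le h.hL A.f1
  have key : ∀ y ∈ Vt Z x.b A.f1 ^ (k + 1), ∀ z ∈ Vt Z x.b A.f1 ^ 2, ∀ κ : A.c.K,
      A.c.sK 1 (κ * A.c.τK (A.c.ι (z * y) * e0)) = κ * A.c.τK (A.c.ι (z * y) * e0) := by
    intro y hy z hz κ
    obtain ⟨p, hp, hp0, hp1⟩ := h.Vt_pow_res k hy κ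
    have hW : p * e' ∈ WW A.T' x.b' A.f1' := by
      refine ⟨(EE A.Z' x.b' A.f1').mul_mem (Vt_pow_le _ _ _ hp) he', fun q hq => ?_⟩
      rw [← mul_assoc]
      apply he1'
      rw [pow_succ']
      exact Submodule.mul_mem_mul hq hp
    obtain ⟨e1, -, h4, -, h5⟩ := h.KL hE hW (Lau.J_mul0 hp0 h1)
    rw [Lau.co_mul0 hp0 h1, hp1, ← he3, ← map_mul] at h4
    have h6 := h5 z hz 1
    rw [← A.c.j_inj h4, A.c.g.T'.comm, smul_mul_assoc, mul_smul_comm, map_smul, ← mul_assoc,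
      ← map_mul] at h6
    exact h6
  apply h2
  rw [← he3, A.c.g.x.eq_zero_of_perp _ he2, map_zero]
  intro d hd
  have hd' := hk hd
  rw [show k + 3 = 2 + (k + 1) by omega, pow_add] at hd'
  refine Submodule.mul_induction_on hd' (fun z hz y hy => ?_) fun a b ha hb => ?_
  · have h4 := key y hy z hz 1
    have h5 := key y hy z hz A.lam
    rw [one_mul] at h4
    rw [map_mul, h4, A.c.sK_X, zero_add, ← sub_eq_zero, ← sub_mul, mul_eq_zero, sub_eq_zero] at h5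
    refine h5.resolve_left (A.c.X_ne _ fun e => ?_)
    have hσ := A.hσ
    have hn := A.hn
    have hm := A.hm
    have hk0 : A.k ≠ 0 := fun e => NeZero.ne A.m (by rw [hm, e, mul_zero])
    have : 2 ≤ A.m := by rw [hm]; exact hn.trans (Nat.le_mul_of_pos_right _ (by omega))
    have := (A.cast_inj (a := 1) (b := 0) (by omega) (by omega)).1 (by simpa using e)
    omega
  · rw [map_add, add_mul, map_add, ha, hb, add_zero]

lemma Good.res_W (h : x.Good)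
    (hE : Lau.Res (EE A.Z' x.b' A.f1').toSubmodule = A.c.JK (EE Z x.b A.f1).toSubmodule)
    (hk : (EE Z x.b A.f1).toSubmodule ≤ Vt Z x.b A.f1 ^ 2) :
    Lau.Res (WW A.T' x.b' A.f1') ≤ A.c.J0 (WW T x.b A.f1) := by
  rintro _ ⟨e', he, he0, rfl⟩
  obtain ⟨e0, h1, h2, h3, h4⟩ := h.KL hE he he0
  rw [h2]
  apply A.c.mem_J0_of_fixed
  · have : WW T x.b A.f1 = T.perp (T.perp (EE Z x.b A.f1).toSubmodule ∪ Vt Z x.b A.f1) := by
      ext d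
      constructor
      · rintro ⟨hd1, hd2⟩ g (hg | hg)
        · rw [T.comm]; exact hg d hd1
        · exact hd2 g hg
      · intro hd
        exact ⟨T.mem_of_perp_perp _ fun g hg => hd g (Or.inl hg), fun g hg => hd g (Or.inr hg)⟩
    rw [this]
    apply A.c.g.x.mem_bc_perp
    rintro g (hg | hg)
    · rw [A.c.g.T'.comm]
      exact A.c.g.x.τ_zero_of_bc h1 fun d hd => by
        rw [← map_mul, A.c.g.x.tr, hg d hd, map_zero]
    · rw [A.c.g.T'.comm]; exact h3 g hg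
  · intro i
    rw [← sub_eq_zero]
    apply A.c.g.x.eq_zero_of_perp (EE Z x.b A.f1)
    · refine sub_mem ?_ h1
      refine A.c.g.x.bc_ind (p := fun e => A.c.sE i e ∈ A.c.g.x.bcA (EE Z x.b A.f1))
        ?_ (by simp) ?_ ?_ h1
      · intro d hd; rw [A.c.g.sE_ι]; exact A.c.g.x.mem_bc hd
      · intro a b ha hb; rw [map_add]; exact add_mem ha hb
      · intro k a ha; rw [A.c.g.sE_smul]; exact Subalgebra.smul_mem _ ha _
    · intro d hd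
      rw [A.c.g.T'.comm, sub_mul, map_sub, ← h4 d (hk hd) i, ← A.c.g.τ_sE, map_mul (A.c.sE i),
        A.c.g.sE_ι, sub_self]

/-- cyclic vanishing -/
lemma Good.F2 (h : x.Good) (hW : Lau.Res (WW A.T' x.b' A.f1') = A.c.J0 (WW T x.b A.f1))
    {e : D} (he : e ∈ WW T x.b A.f1) {w : List A.S} (hw : w.length = A.n) :
    ∑ s ∈ Finset.range A.n, T.τ (x.v⁻¹ * e * co (subst A.hφ x.b) (w.rotate s)) = 0 := by
  obtain ⟨h1, u, h0, hu0, hu⟩ := h.δE_res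
  have h2 : A.c.jι e ∈ Lau.Res (WW A.T' x.b' A.f1') := by
    rw [hW]; exact Submodule.subset_span ⟨e, he, rfl⟩
  obtain ⟨e', he', he0, he1⟩ := h2
  have h3 := congrArg (fun z : A.Z' => z.coeff 0) (he'.2 _ (mem_Vt.2 ⟨δE, rfl⟩))
  change (A.T'.τ (x.l' δE * x.v'⁻¹ * e')).coeff 0 = 0 at h3
  rw [A.τ'_res (Lau.J_mul0 h1 h.v'_inv.1) he0, Lau.co_mul0 h1 h.v'_inv.1, hu, h.v'_inv.2, he1,
    A.c.jι_apply, ← map_mul, ← map_mul, A.c.τ1_eq_zero_iff, A.c.cp0_j, mul_assoc, ← map_mul,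
    A.c.g.T'.comm, mul_smul_comm, map_smul, smul_eq_mul] at h3
  simp only [map_mul (A.c.sK _), hu0, ← Finset.mul_sum, ← A.c.g.τ_sE, A.c.g.sE_ι,
    map_mul (A.c.sE _), A.c.sE_hE, zero_add] at h3
  simp only [A.c.τ_hE, ← map_sum] at h3
  exact hP_ind2 A.hm _ (A.c.g.emb_inj (((mul_eq_zero.1 h3).resolve_left h0).trans
    (map_zero _).symm)) w hw

end Ctx

end Vale.Agent.P199
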