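import Vale.Agent.P199.An2

namespace Vale.Agent.P199

open Module NPS

namespace Arc
variable {Z D σ : Type} [Field Z] [DivisionRing D] [Algebra Z D] [Fintype σ] {T : Tr Z D}
  (A : Arc T σ)

lemma exists_dir' (f : σ → Z) (k : A.c.K) (l : ZMod A.m) : ∃ δ : A.σ' → A.Z',
    (∀ a, δ a ∈ HGe A.c.Z0 0) ∧ ∀ z : NPS σ D,
    lin A.Z' (A.Ψ z) δ - A.Cst (A.c.jι (lin Z z f) * (A.c.jK k * A.c.y l)) ∈ A.J 2 := by
  obtain ⟨α, hα⟩ := A.c.exists_e none k l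
  refine ⟨A.dirc f α, fun a => ?_, fun z => hα ▸ A.lin_dirc f α z⟩
  rcases a with _ | ⟨i, κ⟩
  · exact zero_mem _
  · exact HGe_single 0 _

lemma quad_mem (z : NPS σ D) {δ δ' : A.σ' → A.Z'} (h : ∀ a, δ a ∈ HGe A.c.Z0 0)
    (h' : ∀ a, δ' a ∈ HGe A.c.Z0 0) : quad A.Z' (A.Ψ z) δ δ' ∈ A.J 0 := by
  rw [quad_apply]
  exact sum_mem fun a _ => sum_mem fun a' _ =>
    Lau.smul_mem (a := 0) (b := 0) (HGe_mul (a := 0) (b := 0) (h a) (h' a')) (A.Ψ_mem _ _)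

noncomputable def Θ (i : σ) : Submodule A.Z' (A.σ' → A.Z') :=
  Submodule.span A.Z' (Set.range fun κ : {l : ZMod A.m // l ≠ 0} × Fin A.m =>
    Pi.basisFun A.Z' A.σ' (some (i, (κ.1.1, κ.2))))

lemma finrank_Θ (i : σ) : finrank A.Z' (A.Θ i) = (A.m - 1) * A.m := by
  classical
  have := (Pi.basisFun A.Z' A.σ').linearIndependent.comp
    (fun κ : {l : ZMod A.m // l ≠ 0} × Fin A.m => (some (i, (κ.1.1, κ.2)) : A.σ'))
    (by
      rintro ⟨⟨a, ha⟩, b⟩ ⟨⟨a', ha'⟩, b'⟩ h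
      simp only [Option.some.injEq, Prod.mk.injEq, true_and] at h
      obtain ⟨rfl, rfl⟩ := h
      rfl)
  have e := finrank_span_eq_card this
  simp only [Fintype.card_prod, Fintype.card_fin, ne_eq, Fintype.card_subtype_compl,
    Fintype.card_unique, ZMod.card] at e
  exact e

lemma mem_Θ {i : σ} {δ : A.σ' → A.Z'} (h : δ ∈ A.Θ i) (a : A.σ')
    (ha : ∀ κ : A.κ, κ.1 ≠ 0 → a ≠ some (i, κ)) : δ a = 0 := by
  classical
  induction h using Submodule.span_induction with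
  | mem x hx =>
    obtain ⟨κ, rfl⟩ := hx
    simp only [Pi.basisFun_apply]
    exact Pi.single_eq_of_ne (ha _ κ.1.2) _
  | zero => rfl
  | add x y _ _ hx hy => simp [hx, hy]
  | smul z x _ hx => simp [hx]

lemma lin_Θ {i : σ} {δ : A.σ' → A.Z'} (h : δ ∈ A.Θ i) (h0 : ∀ a, δ a ∈ HGe A.c.Z0 0)
    (z : NPS σ D) : lin A.Z' (A.Ψ z) δ ∈ A.J 0 ∧ Lau.co 0 (lin A.Z' (A.Ψ z) δ) =
      ∑ κ, (δ (some (i, κ))).coeff 0 • (A.c.jι (co z [i]) * A.e κ) := by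
  rw [lin_apply]
  refine ⟨sum_mem fun a _ => Lau.smul_mem (a := 0) (b := 0) (h0 a) (A.Ψ_mem _ _), ?_⟩
  rw [Fintype.sum_option, A.mem_Θ h none (by simp), zero_smul, zero_add, Fintype.sum_prod_type,
    Finset.sum_eq_single i, map_sum]
  · refine Finset.sum_congr rfl fun κ _ => ?_
    rw [Lau.co_smul0 (h0 _) (A.Ψ_mem _ _),
      (A.res_of_sub (Lau.J_anti (by omega) (A.Ψ_one z i κ))).2]
  · intro b _ hb
    refine Finset.sum_eq_zero fun κ _ => ?_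
    rw [A.mem_Θ h _ (by simp [hb]), zero_smul]
  · simp

end Arc

namespace Ctx
variable {Z D σ : Type} [Field Z] [DivisionRing D] [Algebra Z D] [Fintype σ] {T : Tr Z D}
  {A : Arc T σ} [FiniteDimensional Z D] {x : Ctx A}

lemma Good.g1_est (h : x.Good) {δ : A.σ' → A.Z'} (hδ : x.β1 δ ∈ A.J 0) :
    A.t (2 * A.n - 1) • x.g1 δ ∈ A.J 0 ∧ ∀ l, l ≠ 0 → A.c.cp l (Lau.co 0 (x.β1 δ)) =
      (A.c.X none l - A.lam) • (A.c.cp l (Lau.co 0 (A.t (2 * A.n - 1) • x.g1 δ)) * A.c.ι x.v) := by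
  set u := A.t (2 * A.n - 1) • x.g1 δ with hu
  have h1 : u * A.ι' x.a0 = A.ι' x.a0 * u := by
    rw [hu, smul_mul_assoc, mul_smul_comm, g1_comm]
  have h2 : x.β1 δ = x.l' δ + (u * A.bh x.b - A.bh x.b * u) := by
    rw [β1_eq, a1_eq, mul_add, add_mul, g1_comm, hu, smul_mul_assoc, mul_smul_comm,
      smul_mul_assoc, mul_smul_comm]
    abel
  have h3 : u ∈ A.J 0 := by
    by_contra hc
    obtain ⟨N, hN, h4, h5⟩ := Lau.exists_norm_pos hc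
    have h6 : (A.t N • u) * A.bh x.b - A.bh x.b * (A.t N • u) ∈ A.J 1 := by
      rw [smul_mul_assoc, mul_smul_comm, ← smul_sub]
      refine Lau.tt_smul_mem (b := 0) ?_ (by omega)
      have := sub_mem hδ (x.l'_mem hδ)
      rwa [h2, add_sub_cancel_left] at this
    have h7 := Lau.mem_J.1 h6 0 (by omega)
    rw [map_sub, Lau.co_mul0 h4 x.bh_mem, Lau.co_mul0 x.bh_mem h4, bh_co0, sub_eq_zero] at h7
    have h8 := A.c.eq_j fun l hl => A.c.offdiag_zero none h.hv h7.symm hl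
    have h9 : (A.t N • u) * A.ι' x.a0 = A.ι' x.a0 * (A.t N • u) := by
      rw [smul_mul_assoc, mul_smul_comm, h1]
    have h10 : (Lau.co 0 (A.t N • u))⁻¹ ∈ Lau.Res (PP A.Z' x.a1).toSubmodule := by
      rw [h.hP, h8, ← map_inv₀]
      exact ⟨_, sub_inv_mem _ (x.cp_mem_P h9 0 0), rfl⟩
    obtain ⟨p, hp, hp0, hp1⟩ := h10
    have h11 : A.T'.τ (p * (A.t N • u)) = 0 := by
      rw [hu, mul_smul_comm, mul_smul_comm, map_smul, map_smul, g1,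
        x.bd.perp δ ((mem_PP (Z := A.Z')).1 hp), smul_zero, smul_zero]
    have h12 := congrArg (fun z : A.Z' => z.coeff 0) h11
    rw [A.τ'_res hp0 h4, hp1] at h12
    exact h5 (A.c.T1.eq_zero_of h12)
  refine ⟨h3, fun l hl => ?_⟩
  conv_lhs => rw [h2]
  rw [map_add, map_sub, Lau.co_mul0 h3 x.bh_mem, Lau.co_mul0 x.bh_mem h3, bh_co0, h.l'_res hδ,
    map_add, map_sub, A.c.cp_j0, if_neg hl, zero_add, A.c.cp_j_mul, A.c.cp_mul_j, A.c.g.sE_smul,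
    A.c.g.sE_ι, A.c.sK_X, zero_add, mul_smul_comm, smul_mul_assoc,
    ← x.comm_L (x.cp_mem_P h1 0 l) (y := x.v) (h.hL A.f1), sub_smul]

lemma Good.ND (h : x.Good)
    (hE : Lau.Res (EE A.Z' x.b' A.f1').toSubmodule = A.c.JK (EE Z x.b A.f1).toSubmodule)
    (hk : (EE Z x.b A.f1).toSubmodule ≤ Vt Z x.b A.f1 ^ 2) {e : A.D'}
    (he : e ∈ WW A.T' x.b' A.f1') (he0 : e ≠ 0) :
    ∃ Θ : Submodule A.Z' (A.σ' → A.Z'), (A.m - 1) * A.m ≤ finrank A.Z' Θ ∧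
      ∀ δ' ∈ Θ, δ' ≠ 0 → ∃ δ, A.T'.τ (x.v'⁻¹ * e * quad A.Z' x.b' δ δ') ≠ 0 := by
  classical
  obtain ⟨N, h1, h2⟩ := Lau.exists_norm he0
  set e' := A.t N • e with he'def
  have he' : e' ∈ WW A.T' x.b' A.f1' := Submodule.smul_mem _ _ he
  obtain ⟨e0, h3, h4, -, -⟩ := h.KL hE he' h1
  obtain ⟨i, f, hif⟩ : ∃ i f,
      A.c.τK (e0 * A.c.ι (co x.b [i] * x.v⁻¹ * (lin Z x.b f * x.v⁻¹))) ≠ 0 := by
    by_contra hc
    push Not at hc
    apply h2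
    rw [h4, A.c.g.x.eq_zero_of_perp _ h3, map_zero]
    intro d hd
    have hd' := hk hd
    rw [pow_two] at hd'
    rw [A.c.g.T'.comm]
    refine Submodule.mul_induction_on hd' (fun a ha b hb => ?_) fun a b ha hb => ?_
    · obtain ⟨f', rfl⟩ := mem_Vt.1 ha
      obtain ⟨f, rfl⟩ := mem_Vt.1 hb
      rw [lin_apply x.b f', Finset.sum_mul, Finset.sum_mul, map_sum, Finset.mul_sum, map_sum]
      refine Finset.sum_eq_zero fun i _ => ?_
      rw [smul_mul_assoc, smul_mul_assoc, A.c.g.x.smul, mul_smul_comm, map_smul]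
      exact smul_eq_zero_of_right _ (hc i f)
    · rw [map_add, mul_add, map_add, ha, hb, add_zero]
  refine ⟨A.Θ i, (A.finrank_Θ i).ge, fun δ' hδ' hδ0 => ?_⟩
  by_contra hc
  push Not at hc
  apply hif
  obtain ⟨M, hM, a, ha⟩ := HS_norm_family δ' hδ0
  set δ2 := A.t M • δ' with hδ2
  have hδ2' : δ2 ∈ A.Θ i := Submodule.smul_mem _ _ hδ'
  have hM' : ∀ a, δ2 a ∈ HGe A.c.Z0 0 := hM
  have ha' : (δ2 a).coeff 0 ≠ 0 := ha
  obtain ⟨⟨l, r⟩, hl, rfl⟩ : ∃ κ : A.κ, κ.1 ≠ 0 ∧ a = some (i, κ) := by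
    by_contra hne
    push Not at hne
    rw [A.mem_Θ hδ2' a hne] at ha'
    simp at ha'
  obtain ⟨h5, h6⟩ := A.lin_Θ hδ2' hM' x.b
  obtain ⟨h7, h8⟩ := h.g1_est (δ := δ2) h5
  have h9 := h8 l hl
  rw [β1, h6, A.c.cp_sum_e] at h9
  set u := A.t (2 * A.n - 1) • x.g1 δ2 with hu
  set θ := ∑ r, (δ2 (some (i, l, r))).coeff 0 • A.c.θ none r with hθ
  have hθ0 : θ ≠ 0 := fun e0 =>
    ha' (Fintype.linearIndependent_iff.1 (A.c.θ none).linearIndependent _ e0 r)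
  set c' := x.v'⁻¹ * e' with hc'
  have hcL : c' ∈ LL A.Z' x.a1 := mul_mem (sub_inv_mem _ (h.hL' _)) (EE_le h.hL' A.f1' he'.1)
  have hc1 : c' * x.a1 = x.a1 * c' := mem_PP.1 (LL_le _ hcL)
  have hc0 : c' ∈ A.J 0 := Lau.J_mul0 h.v'_inv.1 h1
  have hc2 : Lau.co 0 c' = A.c.j (A.c.ι x.v⁻¹ * e0) := by
    rw [hc', Lau.co_mul0 h.v'_inv.1 h1, h.v'_inv.2, h4, map_mul]
  have h10 : A.c.τK (A.c.cp l (Lau.co 0 u * Lau.co 0 c') * A.c.ι (lin Z x.b f)) = 0 := by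
    apply A.c.perp
    intro κ
    obtain ⟨δ, hδ0, hδ⟩ := A.exists_dir' f κ (-l)
    have h11 := A.res_of_sub (Lau.J_anti (by omega) (hδ x.b))
    have h12 := x.bd.τ_quad δ δ2 hc1
    have h13 : A.T'.τ (c' * quad A.Z' x.b' δ δ2) = 0 := by
      rw [hc', he'def, hδ2, map_smul, mul_smul_comm, mul_smul_comm, smul_mul_assoc, map_smul,
        map_smul, hc δ, smul_zero, smul_zero]
    have h14 : A.T'.τ (A.t (2 * A.n - 1) • (c' * quad A.Z' (A.Ψ (C x.a0 + x.b)) δ δ2)) +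
        A.T'.τ (c' * (x.β1 δ * u)) = 0 := by
      rw [hu, mul_smul_comm, mul_smul_comm, map_smul A.T'.τ, map_smul A.T'.τ, ← smul_add, ← lin_β,
        g1, ← h12, h13, smul_zero]
    have h15 := congrArg (fun z : A.Z' => z.coeff 0) h14
    have hn := A.hn
    rw [HahnSeries.coeff_add, Lau.coeff_tr, Lau.co_tt_smul,
      Lau.mem_J.1 (Lau.J_mul0 hc0 (A.quad_mem _ hδ0 hM')) _ (by omega), map_zero, zero_add,
      β1, A.τ'_res hc0 (Lau.J_mul0 h11.1 h7), Lau.co_mul0 h11.1 h7, h11.2, ← mul_assoc,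
      A.c.T1.comm, ← mul_assoc] at h15
    exact h15
  have hvL : x.v ∈ LL Z x.a0 := h.hL _
  have hbL : co x.b [i] ∈ LL Z x.a0 := lin_single (Z := Z) x.b i ▸ h.hL _
  have hvi : x.v⁻¹ ∈ LL Z x.a0 := sub_inv_mem _ hvL
  have h11 : (A.c.X none l - A.lam) • A.c.cp l (Lau.co 0 u) = θ • A.c.ι (co x.b [i] * x.v⁻¹) := by
    rw [map_mul, ← smul_mul_assoc, h9, smul_mul_assoc, mul_assoc, ← map_mul, mul_inv_cancel₀ h.hv,
      map_one, mul_one]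
  have h12 := congrArg ((A.c.X none l - A.lam) • ·) h10
  rw [hc2, A.c.cp_mul_j, ← map_smul, ← smul_mul_assoc, ← smul_mul_assoc, h11, smul_mul_assoc,
    smul_mul_assoc, map_smul, smul_zero, smul_eq_zero] at h12
  have h13 := h12.resolve_left hθ0
  rw [← A.c.g.sE_ι l (co x.b [i] * x.v⁻¹), ← A.c.g.sE_ι l (lin Z x.b f), ← map_mul, ← map_mul,
    A.c.g.τ_sE, map_eq_zero, ← mul_assoc, ← map_mul, mul_assoc, A.c.g.T'.comm, mul_assoc,
    ← map_mul] at h13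
  rw [← h13]
  congr 3
  rw [LL_comm (h.hL f) (mul_mem (mul_mem hbL hvi) hvi), mul_assoc _ x.v⁻¹ (lin Z x.b f),
    LL_comm hvi (h.hL f)]

end Ctx

end Vale.Agent.P199
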