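import Vale.Agent.P199.Extremal

namespace Vale.Agent.P199

open Module NPS

section
variable {Z D A : Type} [Field Z] [CharZero Z] [DivisionRing D] [Algebra Z D] [Ring A]
  [IsDomain A] [Algebra Z A] [FiniteDimensional Z A]

lemma inner_of_fd (T : Tr Z D) (c : A →ₐ[Z] D) (d : A →ₗ[Z] D)
    (hd : ∀ a b, d (a * b) = c a * d b + d a * c b) : ∃ h : D, ∀ a, d a = h * c a - c a * h := by
  classical
  let B : LinearMap.BilinForm Z A := T.B.comp c.toLinearMap c.toLinearMap
  have hB : ∀ a b, B a b = T.τ (c a * c b) := fun a b => rfl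
  have hs : B.IsSymm := ⟨fun a b => by rw [hB, hB, T.comm]⟩
  have hn : B.Nondegenerate := by
    refine (LinearMap.IsRefl.nondegenerate_iff_separatingLeft hs.isRefl).2 ?_
    intro a ha
    by_contra h0
    obtain ⟨b, hb⟩ := FiniteDimensional.exists_mul_eq_one Z h0
    have := ha b
    rw [hB, ← map_mul, hb, map_one, T.one] at this
    exact one_ne_zero this
  let e := Module.finBasis Z A
  let e' := B.dualBasis hn e
  have h1 : ∀ x : A, x = ∑ i, B x (e i) • e' i := fun x => by
    conv_lhs => rw [← e'.sum_repr x]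
    exact Finset.sum_congr rfl fun i _ => by
      rw [LinearMap.BilinForm.dualBasis_repr_apply]
  have h2 : ∀ x : A, x = ∑ i, B x (e' i) • e i := fun x => by
    conv_lhs => rw [← e.sum_repr x]
    refine Finset.sum_congr rfl fun i _ => ?_
    congr 1
    conv_rhs => rw [← e.sum_repr x]
    simp only [map_sum, map_smul, LinearMap.sum_apply, LinearMap.smul_apply, e',
      LinearMap.BilinForm.apply_dualBasis_right hn hs]
    simp
  have cas : ∀ (f : A →ₗ[Z] D) (a : A),
      ∑ i, f (a * e i) * c (e' i) = ∑ i, f (e i) * c (e' i) * c a := by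
    intro f a
    have l : ∀ i, f (a * e i) * c (e' i) = ∑ j, B (e' j * a) (e i) • (f (e j) * c (e' i)) := by
      intro i
      conv_lhs => rw [h2 (a * e i)]
      simp only [map_sum, map_smul, Finset.sum_mul, smul_mul_assoc]
      refine Finset.sum_congr rfl fun j _ => ?_
      rw [hB, hB, map_mul c, map_mul c, T.comm, mul_assoc]
    have r : ∀ j, f (e j) * c (e' j) * c a = ∑ i, B (e' j * a) (e i) • (f (e j) * c (e' i)) := by
      intro j
      rw [mul_assoc, ← map_mul]
      conv_lhs => rw [h1 (e' j * a)]
      simp only [map_sum, map_smul, Finset.mul_sum, mul_smul_comm]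
    simp only [l, r]
    exact Finset.sum_comm
  let γ := ∑ i, c (e i) * c (e' i)
  have hγ : ∀ a, c a * γ = γ * c a := fun a => by
    have := cas c.toLinearMap a
    simp only [AlgHom.toLinearMap_apply, map_mul] at this
    simp only [γ, Finset.mul_sum, Finset.sum_mul, ← mul_assoc, this]
  have hγ0 : γ ≠ 0 := by
    intro h0
    have : T.τ γ = finrank Z A := by
      simp only [γ, map_sum, ← hB, e', LinearMap.BilinForm.apply_dualBasis_right hn hs]
      simp
    rw [h0, map_zero] at this
    have h3 : finrank Z A ≠ 0 := Module.finrank_pos.ne'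
    exact h3 (by exact_mod_cast this.symm)
  let h := ∑ i, d (e i) * c (e' i)
  refine ⟨h * γ⁻¹, fun a => ?_⟩
  have h4 : c a * h + d a * γ = h * c a := by
    have := cas d a
    simp only [hd, add_mul, Finset.sum_add_distrib] at this
    simp only [h, γ, Finset.mul_sum, Finset.sum_mul, ← mul_assoc, this]
  apply mul_right_cancel₀ hγ0
  rw [sub_mul, mul_assoc (h * γ⁻¹), hγ, mul_assoc h, inv_mul_cancel_left₀ hγ0, mul_assoc,
    inv_mul_cancel_right₀ hγ0, ← h4, add_sub_cancel_left]

end

theorem St.not_fd (s : St) : ¬ FiniteDimensional s.Z (Algebra.adjoin s.Z {s.X, s.Y}) := by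
  intro hfd
  set A := Algebra.adjoin s.Z {s.X, s.Y}
  haveI : IsDomain s.R := NoZeroDivisors.to_isDomain _
  have hle : LinearMap.range (Phi s.Z s.X s.Y) ≤
      LinearMap.range (inn s.Z (co s.X []) (co s.Y [])) := by
    rintro _ ⟨⟨δ, h'⟩, rfl⟩
    let d : A →ₗ[s.Z] s.D :=
      { toFun := fun a => lin s.Z (a : s.R) δ
        map_add' := fun a b => lin_add _ _ _
        map_smul' := fun z a => by
          simp [lin_apply, Finset.smul_sum, smul_comm z] }
    obtain ⟨h, hh⟩ := inner_of_fd s.T (cstA.comp A.val) d fun a b => lin_mul _ _ _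
    have hX := hh ⟨s.X, Algebra.subset_adjoin (by simp)⟩
    have hY := hh ⟨s.Y, Algebra.subset_adjoin (by simp)⟩
    refine ⟨h + h', ?_⟩
    change lin s.Z s.X δ = h * co s.X [] - co s.X [] * h at hX
    change lin s.Z s.Y δ = h * co s.Y [] - co s.Y [] * h at hY
    rw [Phi_apply, inn_apply, hX, hY]
    congr 1 <;> noncomm_ring
  have h1 := Submodule.finrank_mono hle
  have h2 := LinearMap.finrank_range_le (inn s.Z (co s.X []) (co s.Y []))
  exact absurd s.chi (not_lt.2 (h1.trans h2))

/-- the initial state -/
noncomputable def St.init : St where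
  Z := ℚ
  D := ℚ
  T := ⟨LinearMap.id, fun x y => mul_comm x y, rfl⟩
  σ := Bool
  X := var true 1
  Y := var false 1
  chi := by
    have := card_le_rank (Phi ℚ (var true (1 : ℚ)) (var false 1))
      (q := fun i : Bool => (Pi.single i 1, 0)) (by
        rw [Fintype.linearIndependent_iff]
        intro g hg i
        simp [Phi_apply, lin_single, co_var_one] at hg
        cases i
        · exact hg.2
        · exact hg.1)
    rw [Module.finrank_self]
    exact this

end Vale.Agent.P199
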