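import Vale.Agent.P199.Gal

namespace Vale.Agent.P199

open Module

namespace GalD
variable {Z D : Type} [Field Z] [DivisionRing D] [Algebra Z D] {T : Tr Z D} {m : ℕ} {I : Type}
  (g : GalD T m I)

lemma τ_sE (i : ZMod m) (e : g.E) : g.T'.τ (g.sE i e) = g.sK i (g.T'.τ e) := by
  have : e ∈ g.x.bc ⊤ := by rw [g.x.bc_top]; trivial
  refine g.x.bc_ind (p := fun e => g.T'.τ (g.sE i e) = g.sK i (g.T'.τ e)) ?_ (by simp) ?_ ?_ this
  · intro d _; rw [g.sE_ι, g.x.tr, g.sK_ι]
  · intro a b ha hb; simp only [map_add, ha, hb]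
  · intro k a ha; simp only [g.sE_smul, map_smul, ha, smul_eq_mul, map_mul]

lemma sE_algebraMap (i : ZMod m) (k : g.K) :
    g.sE i (algebraMap g.K g.E k) = algebraMap g.K g.E (g.sK i k) := by
  rw [Algebra.algebraMap_eq_smul_one, g.sE_smul, map_one, Algebra.algebraMap_eq_smul_one]

def Z0 : Subfield g.K where
  carrier := {k | ∀ i, g.sK i k = k}
  mul_mem' ha hb i := by rw [map_mul, ha i, hb i]
  one_mem' i := map_one _
  add_mem' ha hb i := by rw [map_add, ha i, hb i]
  zero_mem' i := map_zero _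
  neg_mem' ha i := by rw [map_neg, ha i]
  inv_mem' x hx i := by rw [map_inv₀, hx i]

@[reducible] def act : MulSemiringAction (Multiplicative (ZMod m)) g.K where
  smul i k := g.sK i.toAdd k
  one_smul k := g.sK_zero k
  mul_smul i j k := g.sK_add _ _ k
  smul_zero i := map_zero (g.sK i.toAdd)
  smul_add i := map_add (g.sK i.toAdd)
  smul_one i := map_one (g.sK i.toAdd)
  smul_mul i := map_mul (g.sK i.toAdd)

lemma Z0_finite [NeZero m] : FiniteDimensional g.Z0 g.K ∧ finrank g.Z0 g.K ≤ m := by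
  letI := g.act
  have e : FixedPoints.subfield (Multiplicative (ZMod m)) g.K = g.Z0 := by
    ext k
    exact ⟨fun h i => h (Multiplicative.ofAdd i), fun h i => h i.toAdd⟩
  rw [← e]
  refine ⟨inferInstance, ?_⟩
  have := FixedPoints.finrank_le_card (Multiplicative (ZMod m)) g.K
  simpa using this

end GalD

/-- cyclic algebra data -/
structure CycD {Z D : Type} [Field Z] [DivisionRing D] [Algebra Z D] (T : Tr Z D)
    (m : ℕ) [NeZero m] (I : Type) where
  g : GalD T m I
  Z0 : Type
  [fZ : Field Z0]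
  [cZ : CharZero Z0]
  [aK : Algebra Z0 g.K]
  [aE : Algebra Z0 g.E]
  [tow : IsScalarTower Z0 g.K g.E]
  [finK : FiniteDimensional Z0 g.K]
  rank_le : finrank Z0 g.K ≤ m
  fixed : ∀ i z, g.sK i (algebraMap Z0 g.K z) = algebraMap Z0 g.K z
  surj : ∀ k, (∀ i, g.sK i k = k) → ∃ z, algebraMap Z0 g.K z = k
  A : Type
  [dA : DivisionRing A]
  [aA : Algebra Z0 A]
  [finA : FiniteDimensional Z0 A]
  T1 : Tr Z0 A
  j : g.E →ₐ[Z0] A
  y : ZMod m → A
  cc : ZMod m → ZMod m → g.K
  cp : ZMod m → A →ₗ[Z0] g.E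
  y_zero : y 0 = 1
  y_j : ∀ i d, y i * j d = j (g.sE i d) * y i
  y_y : ∀ i i', y i * y i' = j (algebraMap g.K g.E (cc i i')) * y (i + i')
  cc_ne : ∀ i i', cc i i' ≠ 0
  cc_fix : ∀ l i i', g.sK l (cc i i') = cc i i'
  cp_j : ∀ l l' d, cp l' (j d * y l) = if l' = l then d else 0
  dec : ∀ x, x = ∑ l, j (cp l x) * y l
  tr1 : ∀ x, algebraMap Z0 g.K (T1.τ x) = (m : g.K)⁻¹ * ∑ i, g.sK i (g.T'.τ (cp 0 x))

attribute [instance] CycD.fZ CycD.cZ CycD.aK CycD.aE CycD.tow CycD.finK CycD.dA CycD.aA CycD.finA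

section Build
variable {Z D : Type} [Field Z] [CharZero Z] [DivisionRing D] [Algebra Z D] [FiniteDimensional Z D]
  {T : Tr Z D} {m : ℕ} [NeZero m] {I : Type}

def carry (i j : ZMod m) : ℕ := (i.val + j.val) / m

lemma carry_spec (i j : ZMod m) : (i + j).val + m * carry i j = i.val + j.val := by
  rw [ZMod.val_add, carry, Nat.mod_add_div]

lemma carry_cocycle (i j k : ZMod m) :
    carry i j + carry (i + j) k = carry j k + carry i (j + k) := by
  have h1 := carry_spec i j
  have h2 := carry_spec (i + j) k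
  have h3 := carry_spec j k
  have h4 := carry_spec i (j + k)
  rw [← add_assoc] at h4
  have : m * (carry i j + carry (i + j) k) = m * (carry j k + carry i (j + k)) := by
    rw [mul_add, mul_add]; omega
  exact Nat.eq_of_mul_eq_mul_left (Nat.pos_of_ne_zero (NeZero.ne m)) this

lemma carry_zero_left (j : ZMod m) : carry 0 j = 0 := by
  simp [carry, Nat.div_eq_of_lt (ZMod.val_lt j)]

lemma carry_zero_right (j : ZMod m) : carry j 0 = 0 := by
  simp [carry, Nat.div_eq_of_lt (ZMod.val_lt j)]

variable (g : GalD T m I)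

/-- the twisted product -/
def Cy : Type := ZMod m → g.lau.E

noncomputable instance : AddCommGroup (Cy g) := inferInstanceAs (AddCommGroup (ZMod m → g.lau.E))
noncomputable instance : Module g.lau.Z0 (Cy g) :=
  inferInstanceAs (Module g.lau.Z0 (ZMod m → g.lau.E))

noncomputable def ccy (i j : ZMod m) : g.lau.K := tt g.K (carry i j)

lemma ccy_fix (l i j : ZMod m) : g.lau.sK l (ccy g i j) = ccy g i j := by
  change HSmap (g.sK l) (tt g.K (carry i j)) = tt g.K (carry i j)
  ext n
  by_cases h : n = carry i j <;> simp [tt, h]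

lemma ccy_cocycle (i j k : ZMod m) :
    ccy g i j * ccy g (i + j) k = ccy g j k * ccy g i (j + k) := by
  change tt g.K _ * tt g.K _ = tt g.K _ * tt g.K _
  rw [tt_mul, tt_mul]
  congr 1
  exact_mod_cast carry_cocycle i j k

variable {g}

noncomputable def Cy.at (l : ZMod m) : Cy g →ₗ[g.lau.Z0] g.lau.E := LinearMap.proj l

noncomputable def Cy.sg (l : ZMod m) : g.lau.E →ₗ[g.lau.Z0] Cy g :=
  LinearMap.single g.lau.Z0 (fun _ => g.lau.E) l

lemma Cy.ext {x y : Cy g} (h : ∀ l, Cy.at l x = Cy.at l y) : x = y := funext h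

lemma Cy.at_sg (l l' : ZMod m) (d : g.lau.E) :
    Cy.at l' (Cy.sg l d : Cy g) = if l' = l then d else 0 := Pi.single_apply l d l'

lemma Cy.dec (x : Cy g) : x = ∑ l, Cy.sg l (Cy.at l x) := by
  apply Cy.ext
  intro l
  simp [map_sum, Cy.at_sg]

lemma Cy.ind {p : Cy g → Prop} (h0 : p 0) (ha : ∀ a b, p a → p b → p (a + b))
    (hs : ∀ l d, p (Cy.sg l d)) (x : Cy g) : p x := by
  rw [Cy.dec x]
  exact Finset.sum_induction _ p ha h0 fun l _ => hs l _

lemma sE_Z0 (i : ZMod m) (z : g.lau.Z0) (e : g.lau.E) :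
    g.lau.sE i (z • e) = z • g.lau.sE i e := by
  change g.lau.sE i ((z : g.lau.K) • e) = (z : g.lau.K) • g.lau.sE i e
  rw [g.lau.sE_smul, z.2 i]

noncomputable def Cy.mul : Cy g →ₗ[g.lau.Z0] Cy g →ₗ[g.lau.Z0] Cy g :=
  LinearMap.mk₂ g.lau.Z0
    (fun x y => ∑ i, ∑ i', Cy.sg (i + i') (ccy g i i' • (Cy.at i x * g.lau.sE i (Cy.at i' y))))
    (fun x x' y => by simp only [map_add, add_mul, smul_add, Finset.sum_add_distrib])
    (fun z x y => by
      simp only [map_smul, smul_mul_assoc, smul_comm (ccy g _ _) z, Finset.smul_sum])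
    (fun x y y' => by simp only [map_add, mul_add, smul_add, Finset.sum_add_distrib])
    (fun z x y => by
      simp only [map_smul, sE_Z0, mul_smul_comm, smul_comm (ccy g _ _) z, Finset.smul_sum])

lemma Cy.mul_apply (x y : Cy g) : Cy.mul x y =
    ∑ i, ∑ i', Cy.sg (i + i') (ccy g i i' • (Cy.at i x * g.lau.sE i (Cy.at i' y))) := rfl

lemma Cy.mul_sg (i i' : ZMod m) (d d' : g.lau.E) : Cy.mul (Cy.sg i d) (Cy.sg i' d') =
    (Cy.sg (i + i') (ccy g i i' • (d * g.lau.sE i d')) : Cy g) := by
  rw [Cy.mul_apply, Finset.sum_eq_single i, Finset.sum_eq_single i']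
  · simp [Cy.at_sg]
  · intro b _ hb; simp [Cy.at_sg, hb]
  · simp
  · intro b _ hb; simp [Cy.at_sg, hb]
  · simp

lemma ccy_zero_left (j : ZMod m) : ccy g 0 j = 1 := by
  simp only [ccy, carry_zero_left]; rfl

lemma ccy_zero_right (j : ZMod m) : ccy g j 0 = 1 := by
  simp only [ccy, carry_zero_right]; rfl

noncomputable instance : Ring (Cy g) :=
  { (inferInstance : AddCommGroup (Cy g)) with
    mul := fun x y => Cy.mul x y
    one := Cy.sg 0 1
    left_distrib := fun x y z => map_add (Cy.mul x) y z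
    right_distrib := fun x y z => LinearMap.map_add₂ Cy.mul x y z
    zero_mul := fun x => LinearMap.map_zero₂ Cy.mul x
    mul_zero := fun x => map_zero (Cy.mul x)
    mul_assoc := fun x y z => by
      change Cy.mul (Cy.mul x y) z = Cy.mul x (Cy.mul y z)
      induction x using Cy.ind with
      | h0 => simp
      | ha a b ha hb => simp only [map_add, LinearMap.add_apply, ha, hb]
      | hs i d =>
      induction y using Cy.ind with
      | h0 => simp
      | ha a b ha hb => simp only [map_add, LinearMap.add_apply, ha, hb]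
      | hs i' d' =>
      induction z using Cy.ind with
      | h0 => simp
      | ha a b ha hb => simp only [map_add, ha, hb]
      | hs i'' d'' =>
      simp only [Cy.mul_sg, add_assoc, smul_mul_assoc, smul_smul, g.lau.sE_smul, ccy_fix,
        mul_smul_comm, map_mul, g.lau.sE_add, mul_assoc]
      rw [mul_comm (ccy g _ _), ccy_cocycle, mul_comm (ccy g _ _)]
    one_mul := fun x => by
      change Cy.mul (Cy.sg 0 1) x = x
      conv_lhs => rw [Cy.dec x]
      conv_rhs => rw [Cy.dec x]
      simp only [map_sum, Cy.mul_sg, zero_add, ccy_zero_left, one_smul, one_mul, g.lau.sE_zero]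
    mul_one := fun x => by
      change Cy.mul x (Cy.sg 0 1) = x
      conv_lhs => rw [Cy.dec x]
      conv_rhs => rw [Cy.dec x]
      simp only [map_sum, LinearMap.sum_apply, Cy.mul_sg, add_zero, ccy_zero_right, one_smul,
        map_one, mul_one]
    neg_add_cancel := neg_add_cancel }

lemma Cy.mul_def (x y : Cy g) : x * y = Cy.mul x y := rfl
lemma Cy.one_def : (1 : Cy g) = Cy.sg 0 1 := rfl

noncomputable instance : Algebra g.lau.Z0 (Cy g) :=
  Algebra.ofModule (fun z x y => LinearMap.map_smul₂ Cy.mul z x y)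
    (fun z x y => map_smul (Cy.mul x) z y)

instance : FiniteDimensional g.lau.Z0 g.lau.K := g.lau.Z0_finite.1

instance : FiniteDimensional g.lau.Z0 g.lau.E := Module.Finite.trans g.lau.K g.lau.E

instance : FiniteDimensional g.lau.Z0 (Cy g) :=
  inferInstanceAs (FiniteDimensional g.lau.Z0 (ZMod m → g.lau.E))

lemma Cy.exists_lead {x : Cy g} (hx : x ≠ 0) : ∃ (l : ZMod m) (a : ℤ),
    Lau.co (Z := g.K) a (Cy.at l x) ≠ 0 ∧
    ∀ (l' : ZMod m) (k : ℤ), m * k + l'.val < m * a + l.val →
      Lau.co (Z := g.K) k (Cy.at l' x) = 0 := by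
  classical
  have hne : (Finset.univ.filter fun l => Cy.at l x ≠ 0).Nonempty := by
    by_contra h
    apply hx
    apply Cy.ext
    intro l
    by_contra hi
    exact h ⟨l, by simpa using hi⟩
  obtain ⟨l, hl, hmin⟩ := Finset.exists_min_image _
    (fun l : ZMod m => (m : ℤ) * (Lau.toHS (Z := g.K) (Cy.at l x)).order + l.val) hne
  refine ⟨l, (Lau.toHS (Z := g.K) (Cy.at l x)).order, fun h => ?_, fun l' k hk => ?_⟩
  · exact (Finset.mem_filter.1 hl).2 (HahnSeries.coeff_order_eq_zero.1 h)
  · by_cases h0 : Cy.at l' x = 0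
    · rw [h0]; rfl
    · have := hmin l' (by simpa using h0)
      apply HahnSeries.coeff_eq_zero_of_lt_order
      have hm : (0 : ℤ) < m := by exact_mod_cast Nat.pos_of_ne_zero (NeZero.ne m)
      have : (m : ℤ) * k < m * (Lau.toHS (Z := g.K) (Cy.at l' x)).order := by omega
      exact lt_of_mul_lt_mul_left this hm.le

instance : IsDomain (Cy g) := by
  have hm : (0 : ℤ) < m := by exact_mod_cast Nat.pos_of_ne_zero (NeZero.ne m)
  have : NoZeroDivisors (Cy g) := by
    refine ⟨fun {x y} hxy => ?_⟩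
    by_contra hc
    push Not at hc
    obtain ⟨l, a, h1, h2⟩ := Cy.exists_lead hc.1
    obtain ⟨l', b, h3, h4⟩ := Cy.exists_lead hc.2
    have key : ∀ i i' : ZMod m, Lau.co (Z := g.K) (a + b + carry l l')
        (Cy.at (l + l') (Cy.sg (i + i') (ccy g i i' • (Cy.at i x * g.lau.sE i (Cy.at i' y))))) =
        if i = l ∧ i' = l' then Lau.co (Z := g.K) a (Cy.at l x) *
          g.sE l (Lau.co (Z := g.K) b (Cy.at l' y)) else 0 := by
      intro i i'
      rw [Cy.at_sg]
      by_cases hs : l + l' = i + i'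
      swap
      · rw [if_neg hs, if_neg (by rintro ⟨rfl, rfl⟩; exact hs rfl)]; rfl
      rw [if_pos hs]
      have e1 := Lau.co_tt_smul (Z := g.K) (A := g.E) (carry i i') (a + b + carry l l')
        (Cy.at i x * g.lau.sE i (Cy.at i' y))
      refine e1.trans ?_
      have c1 := carry_spec l l'
      have c2 := carry_spec i i'
      rw [← hs] at c2
      have hv := ZMod.val_lt
        (n := m)
      have hx : ∀ i : ZMod m, Cy.at i x ∈ Lau.J g.K g.E (if l.val ≤ i.val then a else a + 1) := by
        intro i k hk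
        apply h2
        have := hv i; have := hv l
        split_ifs at hk <;> nlinarith
      have hy : ∀ i i' : ZMod m, g.lau.sE i (Cy.at i' y) ∈
          Lau.J g.K g.E (if l'.val ≤ i'.val then b else b + 1) := by
        intro i i' k hk
        change g.sE i (Lau.co (Z := g.K) k (Cy.at i' y)) = 0
        rw [h4, map_zero]
        have := hv i'; have := hv l'
        split_ifs at hk <;> nlinarith
      by_cases h : i = l ∧ i' = l'
      · obtain ⟨rfl, rfl⟩ := h
        have hx' := hx i
        have hy' := hy i i'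
        simp only [le_refl, if_true] at hx' hy'
        rw [if_pos ⟨rfl, rfl⟩, add_sub_cancel_right]
        exact Lau.co_mul hx' hy'
      · rw [if_neg h]
        apply Lau.mem_J.1 (Lau.J_mul (hx i) (hy i i'))
        have hne : i.val ≠ l.val := by
          intro e
          have := ZMod.val_injective m e
          subst this
          exact h ⟨rfl, (add_left_cancel hs).symm⟩
        have c3 : (m : ℤ) * (carry l l' - carry i i') = (l.val + l'.val) - (i.val + i'.val) := by
          rw [mul_sub]; omega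
        have := hv i; have := hv l; have := hv i'; have := hv l'
        suffices h5 : (carry l l' : ℤ) - carry i i' <
            (if l.val ≤ i.val then 0 else 1) + (if l'.val ≤ i'.val then 0 else 1) by
          split_ifs at h5 ⊢ <;> omega
        apply lt_of_mul_lt_mul_left _ hm.le
        rw [c3]
        split_ifs <;> omega
    have := congrArg (fun z => Lau.co (Z := g.K) (a + b + carry l l') (Cy.at (l + l') z)) hxy
    let φ : g.lau.E →+ g.E := Lau.co (Z := g.K) (a + b + carry l l')
    change φ (Cy.at (l + l') (x * y)) = φ (Cy.at (l + l') 0) at this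
    change ∀ i i', φ _ = _ at key
    simp only [Cy.mul_def, Cy.mul_apply, map_sum, map_zero, key] at this
    rw [Finset.sum_eq_single l, Finset.sum_eq_single l'] at this
    · simp only [and_self, if_true] at this
      exact mul_ne_zero h1 ((map_ne_zero _).2 h3) this
    · intro b _ hb; simp [hb]
    · simp
    · intro b _ hb; simp [hb]
    · simp
  have : Nontrivial (Cy g) := inferInstanceAs (Nontrivial (ZMod m → g.lau.E))
  exact NoZeroDivisors.to_isDomain _

noncomputable instance : DivisionRing (Cy g) := divisionRingOfFiniteDimensional g.lau.Z0 (Cy g)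

noncomputable def Cy.j : g.lau.E →ₐ[g.lau.Z0] Cy g :=
  AlgHom.ofLinearMap (Cy.sg 0) rfl fun d d' => by
    rw [Cy.mul_def, Cy.mul_sg, ccy_zero_left, one_smul, g.lau.sE_zero, add_zero]

lemma Cy.j_apply (d : g.lau.E) : (Cy.j d : Cy g) = Cy.sg 0 d := rfl

noncomputable def Cy.τ : Cy g →ₗ[g.lau.Z0] g.lau.Z0 where
  toFun x := ⟨(m : g.lau.K)⁻¹ * ∑ i, g.lau.sK i (g.lau.T'.τ (Cy.at 0 x)), fun l => by
    simp only [map_mul, map_inv₀, map_natCast, map_sum, ← g.lau.sK_add]
    congr 1
    exact Fintype.sum_equiv (Equiv.addLeft l) _ _ fun i => rfl⟩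
  map_add' x y := by
    apply Subtype.ext
    simp [Finset.sum_add_distrib, mul_add]
  map_smul' z x := by
    apply Subtype.ext
    have : ∀ i, g.lau.sK i (g.lau.T'.τ (Cy.at 0 (z • x))) =
        z * g.lau.sK i (g.lau.T'.τ (Cy.at 0 x)) := fun i => by
      rw [map_smul]
      change g.lau.sK i (g.lau.T'.τ ((z : g.lau.K) • Cy.at 0 x)) = _
      rw [map_smul, smul_eq_mul, map_mul, z.2 i]
    simp only [this, ← Finset.mul_sum]
    change _ = (z : g.lau.K) * (_ * _)
    ring

lemma Cy.τ_val (x : Cy g) : ((Cy.τ x : g.lau.Z0) : g.lau.K) =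
    (m : g.lau.K)⁻¹ * ∑ i, g.lau.sK i (g.lau.T'.τ (Cy.at 0 x)) := rfl

noncomputable def Cy.tr : Tr g.lau.Z0 (Cy g) where
  τ := Cy.τ
  comm x y := by
    induction x using Cy.ind with
    | h0 => simp
    | ha a b ha hb => simp only [add_mul, mul_add, map_add, ha, hb]
    | hs i d =>
    induction y using Cy.ind with
    | h0 => simp
    | ha a b ha hb => simp only [add_mul, mul_add, map_add, ha, hb]
    | hs i' d' =>
    apply Subtype.ext
    simp only [Cy.τ_val, Cy.mul_def, Cy.mul_sg, Cy.at_sg, add_comm i' i]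
    by_cases h : 0 = i + i'
    · simp only [h, if_true, map_smul, smul_eq_mul, map_mul, ccy_fix]
      congr 1
      symm
      refine Fintype.sum_equiv (Equiv.addRight i') _ _ fun r => ?_
      have e : ccy g i' i = ccy g i i' := by rw [ccy, ccy, carry, carry, add_comm]
      rw [e, Equiv.coe_addRight, g.lau.sK_add, ← g.lau.τ_sE i', map_mul (g.lau.sE i'),
        ← g.lau.sE_add, add_comm i' i, ← h, g.lau.sE_zero, g.lau.T'.comm]
    · simp [h]
  one := by
    apply Subtype.ext
    have : (m : g.lau.K) ≠ 0 := by exact_mod_cast NeZero.ne m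
    simp [Cy.τ_val, Cy.one_def, Cy.at_sg, g.lau.T'.one, this]

noncomputable def cycOf (g : GalD T m I) : CycD T m I where
  g := g.lau
  Z0 := g.lau.Z0
  rank_le := g.lau.Z0_finite.2
  fixed i z := z.2 i
  surj k hk := ⟨⟨k, hk⟩, rfl⟩
  A := Cy g
  T1 := Cy.tr
  j := Cy.j
  y l := Cy.sg l 1
  cc := ccy g
  cp := Cy.at
  y_zero := rfl
  y_j i d := by
    simp only [Cy.j_apply, Cy.mul_def, Cy.mul_sg, ccy_zero_left, ccy_zero_right, add_zero, zero_add,
      one_smul, one_mul, map_one, mul_one]
  y_y i i' := by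
    simp only [Cy.j_apply, Cy.mul_def, Cy.mul_sg, ccy_zero_left, zero_add,
      one_smul, map_one, mul_one, Algebra.algebraMap_eq_smul_one]
  cc_ne i i' := tt_ne_zero _
  cc_fix := ccy_fix g
  cp_j l l' d := by
    simp only [Cy.j_apply, Cy.mul_def, Cy.mul_sg, ccy_zero_left, zero_add,
      one_smul, map_one, mul_one, Cy.at_sg]
  dec x := by
    simp only [Cy.j_apply, Cy.mul_def, Cy.mul_sg, ccy_zero_left, zero_add,
      one_smul, map_one, mul_one]
    exact Cy.dec x
  tr1 x := rfl

theorem exists_cycD (T : Tr Z D) (m : ℕ) [NeZero m] (I : Type) : Nonempty (CycD T m I) :=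
  ⟨cycOf (galGen T m I)⟩

end Build

end Vale.Agent.P199
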