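import Vale.Agent.P199.Cyc

namespace Vale.Agent.P199

open Module NPS

section Words
variable {Z σ : Type} [Field Z] [Fintype σ] {m : ℕ}

noncomputable def hP (k : ZMod m) : ℕ → ZMod m → (List σ → Z) → MvPolynomial (Option σ × ZMod m) Z
  | 0, _, α => MvPolynomial.C (α [])
  | r + 1, i, α => ∑ a, MvPolynomial.X (some a, i) * hP k r (i + k) (fun w => α (a :: w))

def wd (c : ℕ → σ) : ℕ → ℕ → List σ
  | 0, _ => []
  | r + 1, s => c s :: wd c r (s + 1)

omit [Fintype σ] in
lemma wd_length (c : ℕ → σ) (r s : ℕ) : (wd c r s).length = r := by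
  induction r generalizing s with
  | zero => rfl
  | succ r ih => simp [wd, ih]

omit [Fintype σ] in
lemma wd_get (c : ℕ → σ) (r s q : ℕ) (h : q < (wd c r s).length) : (wd c r s)[q] = c (s + q) := by
  induction r generalizing s q with
  | zero => simp [wd] at h
  | succ r ih =>
    cases q with
    | zero => simp [wd]
    | succ q =>
      simp only [wd, List.getElem_cons_succ]
      rw [ih]
      congr 1
      omega

lemma hP_spec {n k : ℕ} (hm : m = n * k) [NeZero m] (w : List σ) (hw : w.length = n) :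
    ∃ pt : Option σ × ZMod m → Z,
      (∀ (s : ℕ) α, MvPolynomial.eval pt (hP (k : ZMod m) n ((s * k : ℕ) : ZMod m) α) =
        α (w.rotate s)) ∧
      ∀ (i : ZMod m) α, ¬ k ∣ i.val → MvPolynomial.eval pt (hP (k : ZMod m) n i α) = 0 := by
  classical
  have hn : 0 < n := Nat.pos_of_ne_zero fun h => NeZero.ne m (by simp [hm, h])
  have hk : 0 < k := Nat.pos_of_ne_zero fun h => NeZero.ne m (by simp [hm, h])
  let c : ℕ → σ := fun s => w[s % w.length]'(Nat.mod_lt _ (by omega))
  let pt : Option σ × ZMod m → Z := fun p =>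
    if k ∣ p.2.val ∧ some (c (p.2.val / k)) = p.1 then 1 else 0
  have h1 : ∀ r (s : ℕ) α, MvPolynomial.eval pt (hP (k : ZMod m) r ((s * k : ℕ) : ZMod m) α) =
      α (wd c r s) := by
    intro r
    induction r with
    | zero => intro s α; simp [hP, wd]
    | succ r ih =>
      intro s α
      have e : ((s * k : ℕ) : ZMod m) + k = (((s + 1) * k : ℕ) : ZMod m) := by push_cast; ring
      have hv : ((s * k : ℕ) : ZMod m).val = (s % n) * k := by
        rw [ZMod.val_natCast, hm, Nat.mul_mod_mul_right]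
      have hc : c (s % n) = c s := by simp [c, hw]
      simp only [hP, map_sum, map_mul, MvPolynomial.eval_X, e, ih, pt, hv, wd]
      rw [Finset.sum_eq_single (c s)]
      · simp [Nat.mul_div_cancel _ hk, hc]
      · intro b _ hb
        simp [Nat.mul_div_cancel _ hk, hc, Ne.symm hb]
      · simp
  refine ⟨pt, fun s α => ?_, fun i α hi => ?_⟩
  · rw [h1]
    congr 1
    apply List.ext_getElem
    · simp [wd_length, hw]
    · intro q h1 h2
      rw [wd_get, List.getElem_rotate]
      simp [c, add_comm]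
  · obtain ⟨n, rfl⟩ : ∃ n', n = n' + 1 := ⟨n - 1, by omega⟩
    simp [hP, pt, hi]

lemma hP_ind1 {n k : ℕ} (hm : m = n * k) [NeZero m] (α : List σ → Z)
    (h : hP (k : ZMod m) n 0 α = 0) (w : List σ) (hw : w.length = n) : α w = 0 := by
  obtain ⟨pt, h1, -⟩ := hP_spec (Z := Z) hm w hw
  have := h1 0 α
  simpa [h] using this.symm

lemma hP_ind2 {n k : ℕ} (hm : m = n * k) [NeZero m] (α : List σ → Z)
    (h : ∑ i, hP (k : ZMod m) n i α = 0) (w : List σ) (hw : w.length = n) :
    ∑ s ∈ Finset.range n, α (w.rotate s) = 0 := by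
  obtain ⟨pt, h1, h2⟩ := hP_spec (Z := Z) hm w hw
  have hk : 0 < k := Nat.pos_of_ne_zero fun h => NeZero.ne m (by simp [hm, h])
  have hv : ∀ s, s < n → ((s * k : ℕ) : ZMod m).val = s * k := fun s hs => by
    rw [ZMod.val_natCast, Nat.mod_eq_of_lt]
    rw [hm]; exact Nat.mul_lt_mul_of_pos_right hs hk
  have := congrArg (MvPolynomial.eval pt) h
  rw [map_sum, map_zero] at this
  rw [← this]
  refine Finset.sum_of_injOn (fun s : ℕ => ((s * k : ℕ) : ZMod m)) ?_ (by simp) ?_ ?_
  · intro a ha b hb hab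
    have := congrArg ZMod.val hab
    simp only at this
    rw [hv a (by simpa using ha), hv b (by simpa using hb)] at this
    exact Nat.eq_of_mul_eq_mul_right hk this
  · intro i _ hi
    apply h2
    rintro ⟨s, hs⟩
    apply hi
    refine ⟨s, ?_, ?_⟩
    · have := ZMod.val_lt i
      rw [hs, hm, mul_comm n] at this
      simpa using Nat.lt_of_mul_lt_mul_left this
    · simp only
      rw [mul_comm, ← hs, ZMod.natCast_zmod_val]
  · intro s _
    rw [h1]

end Words

namespace CycD
variable {Z D : Type} [Field Z] [DivisionRing D] [Algebra Z D] {T : Tr Z D} {m : ℕ} [NeZero m]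
  {I : Type} (c : CycD T m I)

abbrev K := c.g.K
abbrev E := c.g.E
abbrev ι := c.g.x.ι
abbrev sK := c.g.sK
abbrev sE := c.g.sE
abbrev τK := c.g.T'.τ

noncomputable def jι : D →+* c.A := (c.j : c.E →+* c.A).comp c.ι

lemma jι_apply (d : D) : c.jι d = c.j (c.ι d) := rfl

noncomputable def jK : c.K →+* c.A := (c.j : c.E →+* c.A).comp (algebraMap c.K c.E)

lemma jK_apply (k : c.K) : c.jK k = c.j (algebraMap c.K c.E k) := rfl

lemma j_smul (k : c.K) (e : c.E) : c.j (k • e) = c.jK k * c.j e := by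
  rw [Algebra.smul_def, map_mul, jK_apply]

lemma jK_comm (k : c.K) (e : c.E) : c.jK k * c.j e = c.j e * c.jK k := by
  rw [jK_apply, ← map_mul, ← map_mul, Algebra.commutes]

noncomputable def ι0 : Z →+* c.Z0 where
  toFun z := (c.surj _ fun i => c.g.sK_ι i z).choose
  map_one' := (algebraMap c.Z0 c.K).injective (by
    rw [(c.surj _ fun i => c.g.sK_ι i 1).choose_spec, map_one, map_one])
  map_zero' := (algebraMap c.Z0 c.K).injective (by
    rw [(c.surj _ fun i => c.g.sK_ι i 0).choose_spec, map_zero, map_zero])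
  map_add' a b := (algebraMap c.Z0 c.K).injective (by
    rw [map_add (algebraMap c.Z0 c.K), (c.surj _ fun i => c.g.sK_ι i a).choose_spec,
      (c.surj _ fun i => c.g.sK_ι i b).choose_spec,
      (c.surj _ fun i => c.g.sK_ι i (a + b)).choose_spec, map_add])
  map_mul' a b := (algebraMap c.Z0 c.K).injective (by
    rw [map_mul (algebraMap c.Z0 c.K), (c.surj _ fun i => c.g.sK_ι i a).choose_spec,
      (c.surj _ fun i => c.g.sK_ι i b).choose_spec,
      (c.surj _ fun i => c.g.sK_ι i (a * b)).choose_spec, map_mul])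

lemma alg_ι0 (z : Z) : algebraMap c.Z0 c.K (c.ι0 z) = c.g.x.ιZ z :=
  (c.surj _ fun i => c.g.sK_ι i z).choose_spec

lemma jι_smul (z : Z) (d : D) : c.jι (z • d) = c.ι0 z • c.jι d := by
  rw [jι_apply, c.g.x.smul, ← alg_ι0, algebraMap_smul, map_smul, jι_apply]

lemma jι_algebraMap (z : Z) : c.jι (algebraMap Z D z) = algebraMap c.Z0 c.A (c.ι0 z) := by
  rw [Algebra.algebraMap_eq_smul_one, jι_smul, map_one, Algebra.algebraMap_eq_smul_one]

lemma cp_j0 (l : ZMod m) (d : c.E) : c.cp l (c.j d) = if l = 0 then d else 0 := by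
  simpa [c.y_zero] using c.cp_j 0 l d

@[simp] lemma cp0_j (d : c.E) : c.cp 0 (c.j d) = d := by simp [cp_j0]

lemma j_inj : Function.Injective c.j := fun a b h => by simpa using congrArg (c.cp 0) h

lemma cp_j_mul (l : ZMod m) (d : c.E) (x : c.A) : c.cp l (c.j d * x) = d * c.cp l x := by
  conv_lhs => rw [c.dec x]
  simp only [Finset.mul_sum, ← mul_assoc, ← map_mul, map_sum, c.cp_j]
  simp

lemma cp_mul_j (l : ZMod m) (d : c.E) (x : c.A) : c.cp l (x * c.j d) = c.cp l x * c.sE l d := by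
  conv_lhs => rw [c.dec x]
  simp only [Finset.sum_mul, mul_assoc, c.y_j]
  simp only [← mul_assoc, ← map_mul, map_sum, c.cp_j]
  simp

lemma cp_mul_jι (l : ZMod m) (d : D) (x : c.A) : c.cp l (x * c.jι d) = c.cp l x * c.ι d := by
  rw [jι_apply, cp_mul_j, c.g.sE_ι]

lemma cp_jι_mul (l : ZMod m) (d : D) (x : c.A) : c.cp l (c.jι d * x) = c.ι d * c.cp l x := by
  rw [jι_apply, cp_j_mul]

lemma cp_ext {x y : c.A} (h : ∀ l, c.cp l x = c.cp l y) : x = y := by
  rw [c.dec x, c.dec y]; simp [h]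

lemma eq_j {x : c.A} (h : ∀ l, l ≠ 0 → c.cp l x = 0) : x = c.j (c.cp 0 x) := by
  apply c.cp_ext
  intro l
  rw [cp_j0]
  split_ifs with hl
  · rw [hl]
  · exact h l hl

lemma comm_jι_iff (d : D) (x : c.A) :
    c.jι d * x = x * c.jι d ↔ ∀ l, c.ι d * c.cp l x = c.cp l x * c.ι d := by
  constructor
  · intro h l
    rw [← cp_jι_mul, h, cp_mul_jι]
  · intro h
    apply c.cp_ext
    intro l
    rw [cp_jι_mul, cp_mul_jι, h]

lemma cp0_mul_y (l : ZMod m) (x : c.A) : c.cp 0 (x * c.y (-l)) = c.cc l (-l) • c.cp l x := by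
  conv_lhs => rw [c.dec x]
  simp only [Finset.sum_mul, mul_assoc, c.y_y]
  simp only [← mul_assoc, ← map_mul, map_sum, c.cp_j]
  rw [Finset.sum_eq_single l]
  · simp [Algebra.smul_def, Algebra.commutes]
  · intro b _ hb
    rw [if_neg]
    intro h
    exact hb (by rw [← sub_eq_add_neg, eq_comm, sub_eq_zero] at h; exact h)
  · simp

lemma y_jι (l : ZMod m) (d : D) : c.jι d * c.y l = c.y l * c.jι d := by
  rw [jι_apply, c.y_j, c.g.sE_ι]

lemma jK_jι (k : c.K) (d : D) : c.jι d * c.jK k = c.jK k * c.jι d := (c.jK_comm k _).symm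

lemma m_ne : (m : c.K) ≠ 0 := by exact_mod_cast NeZero.ne m

lemma τ1_eq_zero_iff (x : c.A) : c.T1.τ x = 0 ↔ ∑ i, c.sK i (c.τK (c.cp 0 x)) = 0 := by
  rw [← (algebraMap c.Z0 c.K).injective.eq_iff, c.tr1, map_zero, mul_eq_zero]
  simp [c.m_ne]

lemma tr_zero {s : c.K} (h : ∀ κ, ∑ i, c.sK i (κ * s) = 0) : s = 0 := by
  by_contra hs
  have := h s⁻¹
  simp [inv_mul_cancel₀ hs, NeZero.ne m] at this

lemma perp {x : c.A} {v : D} (l : ZMod m)
    (h : ∀ κ, c.T1.τ (x * (c.jι v * (c.jK κ * c.y (-l)))) = 0) :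
    c.τK (c.cp l x * c.ι v) = 0 := by
  apply c.tr_zero
  intro κ
  have := h (c.sK (-l) (κ / c.cc l (-l)))
  rw [τ1_eq_zero_iff, ← mul_assoc, ← mul_assoc, cp0_mul_y, jK_apply, cp_mul_j, cp_mul_jι,
    c.g.sE_algebraMap, ← c.g.sK_add, add_neg_cancel, c.g.sK_zero, ← Algebra.commutes,
    ← Algebra.smul_def, smul_smul, mul_div_cancel₀ _ (c.cc_ne _ _), map_smul] at this
  exact this

lemma fixed_of_one {k : c.K} (h : c.sK 1 k = k) (i : ZMod m) : c.sK i k = k := by
  rw [← ZMod.natCast_zmod_val i]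
  induction i.val with
  | zero => simp [c.g.sK_zero]
  | succ n ih => rw [Nat.cast_succ, c.g.sK_add, h, ih]

lemma sK_inj (i : ZMod m) : Function.Injective (c.sK i) := (c.sK i).injective

noncomputable def X (a : I) (i : ZMod m) : c.K := c.g.emb (MvPolynomial.X (a, i))

lemma sK_X (l : ZMod m) (a : I) (i : ZMod m) : c.sK l (c.X a i) = c.X a (i + l) := c.g.emb_X _ _ _

lemma X_pow_ne (a : I) {i i' : ZMod m} (h : i ≠ i') {n : ℕ} (hn : n ≠ 0) :
    c.X a i ^ n ≠ c.X a i' ^ n := by
  classical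
  intro e
  rw [X, X, ← map_pow, ← map_pow] at e
  have := congrArg (MvPolynomial.eval fun p => if p = (a, i) then (1 : Z) else 0) (c.g.emb_inj e)
  simp [h.symm, hn] at this

lemma X_ne (a : I) {i i' : ZMod m} (h : i ≠ i') : c.X a i ≠ c.X a i' := by
  simpa using c.X_pow_ne a h one_ne_zero

lemma X_ne_zero (a : I) (i : ZMod m) : c.X a i ≠ 0 := by
  rw [X, ← map_zero c.g.emb]
  exact fun h => MvPolynomial.X_ne_zero _ (c.g.emb_inj h)

lemma li_pow (a : I) : LinearIndependent c.Z0 fun k : Fin m => c.X a 0 ^ (k : ℕ) := by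
  rw [Fintype.linearIndependent_iff]
  intro z hz
  have h1 : Function.Injective fun i : Fin m => c.X a ((i : ℕ) : ZMod m) := by
    intro i i' h
    by_contra h'
    refine c.X_ne a (fun e => h' ?_) h
    have := congrArg ZMod.val e
    rw [ZMod.val_cast_of_lt i.2, ZMod.val_cast_of_lt i'.2] at this
    exact Fin.ext this
  have h2 := Matrix.eq_zero_of_forall_index_sum_pow_mul_eq_zero h1
    (v := fun k => algebraMap c.Z0 c.K (z k)) fun i => by
      have := congrArg (c.sK ((i : ℕ) : ZMod m)) hz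
      simp only [map_sum, Algebra.smul_def, map_mul, c.fixed, map_pow, sK_X, zero_add,
        map_zero] at this
      simpa only [mul_comm] using this
  intro k
  simpa using congrFun h2 k

lemma finrank_K (a : I) : finrank c.Z0 c.K = m :=
  le_antisymm c.rank_le (by simpa using (c.li_pow a).fintype_card_le_finrank)

instance : FiniteDimensional c.Z0 c.E := Module.Finite.trans c.K c.E

/-- the image of a base change -/
noncomputable def JK (N : Submodule Z D) : Submodule c.Z0 c.A :=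
  ((c.g.x.bc N).restrictScalars c.Z0).map c.j.toLinearMap

lemma mem_JK {N : Submodule Z D} {x : c.A} : x ∈ c.JK N ↔ ∃ e ∈ c.g.x.bc N, c.j e = x := Iff.rfl

def J0 (N : Submodule Z D) : Submodule c.Z0 c.A := Submodule.span c.Z0 (c.jι '' N)

lemma mem_J0_of_fixed {N : Submodule Z D} {e : c.E} (he : e ∈ c.g.x.bc N)
    (h : ∀ i, c.sE i e = e) : c.j e ∈ c.J0 N := by
  have key : c.j (∑ i, c.sE i e) ∈ c.J0 N := by
    suffices h : ∀ k : c.K, c.j (∑ i, c.sE i (k • e)) ∈ c.J0 N by simpa only [one_smul] using h 1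
    refine c.g.x.bc_ind (p := fun e => ∀ k : c.K, c.j (∑ i, c.sE i (k • e)) ∈ c.J0 N)
      ?_ (by simp) ?_ ?_ he
    · intro d hd k
      simp only [c.g.sE_smul, c.g.sE_ι, ← Finset.sum_smul]
      obtain ⟨z, hz⟩ := c.surj (∑ i, c.sK i k) fun l => by
        simp only [map_sum, ← c.g.sK_add]
        exact Fintype.sum_equiv (Equiv.addLeft l) _ _ fun i => rfl
      rw [← hz, algebraMap_smul, map_smul]
      exact Submodule.smul_mem _ _ (Submodule.subset_span ⟨d, hd, rfl⟩)
    · intro a b ha hb k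
      simp only [smul_add, map_add, Finset.sum_add_distrib]
      exact Submodule.add_mem _ (ha k) (hb k)
    · intro k' a ha k
      rw [smul_smul]; exact ha _
  simp only [h, Finset.sum_const, Finset.card_univ, ZMod.card] at key
  have hm : (m : c.Z0) ≠ 0 := by exact_mod_cast NeZero.ne m
  have := Submodule.smul_mem _ (m : c.Z0)⁻¹ key
  rwa [map_nsmul, ← Nat.cast_smul_eq_nsmul c.Z0, smul_smul, inv_mul_cancel₀ hm, one_smul] at this

variable [FiniteDimensional Z D]

lemma finrank_J0 (N : Submodule Z D) : finrank c.Z0 (c.J0 N) ≤ finrank Z N := by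
  let b := Module.finBasis Z N
  have : c.J0 N ≤ Submodule.span c.Z0 (Set.range fun i => c.jι (b i)) := by
    apply Submodule.span_le.2
    rintro _ ⟨d, hd, rfl⟩
    have e := congrArg (fun x : N => c.jι x) (b.sum_repr ⟨d, hd⟩)
    simp only [Submodule.coe_sum, Submodule.coe_smul, map_sum, jι_smul] at e
    rw [← e]
    exact Submodule.sum_mem _ fun i _ => Submodule.smul_mem _ _ (Submodule.subset_span ⟨i, rfl⟩)
  refine (Submodule.finrank_mono this).trans ?_
  have := finrank_range_le_card (R := c.Z0) fun i => c.jι (b i)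
  rw [Fintype.card_fin] at this
  exact this

lemma finrank_JK (a : I) (N : Submodule Z D) : finrank c.Z0 (c.JK N) = m * finrank Z N := by
  rw [JK, ← LinearEquiv.finrank_eq (Submodule.equivMapOfInjective _ c.j_inj _),
    ← c.g.x.finrank_bc N]
  have := Module.finrank_mul_finrank c.Z0 c.K (c.g.x.bc N)
  rw [c.finrank_K a] at this
  exact this.symm

lemma finrank_A (a : I) : finrank c.Z0 c.A ≤ m * (m * finrank Z D) := by
  have := LinearMap.finrank_le_finrank_of_injective (f := LinearMap.pi c.cp)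
    fun x y h => c.cp_ext fun l => congrFun h l
  rw [Module.finrank_pi_fintype] at this
  simp only [Finset.sum_const, Finset.card_univ, ZMod.card, smul_eq_mul] at this
  rwa [← Module.finrank_mul_finrank c.Z0 c.K c.E, c.finrank_K a, c.g.x.finrank_eq] at this

lemma gal_li {α : Type} [Fintype α] {θ : α → c.K} (hθ : LinearIndependent c.Z0 θ) {u : α → c.E}
    (hu : ∀ i a, c.sE i (u a) = u a) (h : ∑ a, θ a • u a = 0) (a : α) : u a = 0 := by
  apply c.g.x.eq_zero_of_perp ⊤
  · rw [Ext.mem_bcA, Algebra.top_toSubmodule, Ext.bc_top]; trivial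
  intro d _
  have h1 : ∀ a, ∃ z, algebraMap c.Z0 c.K z = c.τK (c.ι d * u a) := fun a =>
    c.surj _ fun i => by rw [← c.g.τ_sE, map_mul, c.g.sE_ι, hu]
  choose z hz using h1
  rw [Fintype.linearIndependent_iff] at hθ
  rw [← hz, hθ z _ a, map_zero]
  have := congrArg (fun e => c.τK (c.ι d * e)) h
  simp only [Finset.mul_sum, mul_smul_comm, map_sum, map_smul, ← hz, mul_zero, map_zero] at this
  simpa [Algebra.smul_def, mul_comm] using this

/-- an element commuting with a twisted element is diagonal -/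
lemma offdiag_zero (a : I) {v : D} (hv : v ≠ 0) {x : c.A}
    (h : c.j (c.X a 0 • c.ι v) * x = x * c.j (c.X a 0 • c.ι v)) {l : ZMod m} (hl : l ≠ 0) :
    c.cp l x = 0 := by
  by_contra h0
  have h1 := congrArg (c.cp l) h
  simp only [cp_j_mul, cp_mul_j, c.g.sE_smul, c.g.sE_ι, sK_X, zero_add, smul_mul_assoc,
    mul_smul_comm] at h1
  set u := c.cp l x
  have h2 : ∀ n : ℕ, c.X a 0 ^ n • (c.ι v ^ n * u) = c.X a l ^ n • (u * c.ι v ^ n) := by
    intro n
    induction n with
    | zero => simp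
    | succ n ih =>
      rw [pow_succ, mul_smul, pow_succ, mul_assoc, ← mul_smul_comm, h1, mul_smul_comm,
        smul_comm, ← mul_assoc, ← smul_mul_assoc, ih, smul_mul_assoc, smul_smul, pow_succ',
        mul_assoc]
  have h3 : ∀ n : ℕ, T.τ (v * v ^ n) = 0 := by
    intro n
    have := congrArg (fun e => c.τK (e * u⁻¹)) (h2 (n + 1))
    simp only [smul_mul_assoc, map_smul, mul_assoc, mul_inv_cancel₀ h0, mul_one] at this
    rw [c.g.T'.comm u, mul_assoc, inv_mul_cancel₀ h0, mul_one, ← sub_eq_zero, ← sub_smul,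
      smul_eq_zero, sub_eq_zero, ← map_pow, c.g.x.tr, map_eq_zero] at this
    rw [← pow_succ']
    exact this.resolve_left (c.X_pow_ne a hl.symm (by omega))
  obtain ⟨p, hp⟩ := exists_inv_poly (Z := Z) v hv
  have := T.one
  rw [← hp, Polynomial.aeval_eq_sum_range, Finset.mul_sum, map_sum] at this
  simp [h3] at this

/-- basis of the commutant -/
noncomputable def θ (a : I) : Basis (Fin m) c.Z0 c.K := Module.finBasisOfFinrankEq _ _ (c.finrank_K a)

noncomputable def e (a : I) (κ : ZMod m × Fin m) : c.A := c.jK (c.θ a κ.2) * c.y κ.1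

omit [FiniteDimensional Z D] in
lemma e_comm (a : I) (κ : ZMod m × Fin m) (d : D) : c.jι d * c.e a κ = c.e a κ * c.jι d := by
  rw [e, ← mul_assoc, jK_jι, mul_assoc, y_jι, mul_assoc]

omit [FiniteDimensional Z D] in
lemma jK_alg (z : c.Z0) (k : c.K) : c.jK (z • k) = z • c.jK k := by
  rw [jK_apply, jK_apply, ← map_smul, Algebra.algebraMap_eq_smul_one,
    Algebra.algebraMap_eq_smul_one, smul_assoc]

omit [FiniteDimensional Z D] in
lemma exists_e (a : I) (k : c.K) (l : ZMod m) :
    ∃ α : ZMod m × Fin m → c.Z0, ∑ κ, α κ • c.e a κ = c.jK k * c.y l := by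
  refine ⟨fun κ => if κ.1 = l then (c.θ a).repr k κ.2 else 0, ?_⟩
  rw [Fintype.sum_prod_type, Finset.sum_eq_single l]
  · conv_rhs => rw [← (c.θ a).sum_repr k]
    simp only [e, map_sum, jK_alg, Finset.sum_mul, if_true, smul_mul_assoc]
  · intro b _ hb; simp [hb]
  · simp

omit [FiniteDimensional Z D] in
lemma cp_sum_e (a : I) (α : ZMod m × Fin m → c.Z0) (d : D) (l : ZMod m) :
    c.cp l (∑ κ, α κ • (c.jι d * c.e a κ)) = (∑ r, α (l, r) • c.θ a r) • c.ι d := by
  have : ∀ κ : ZMod m × Fin m, c.cp l (c.jι d * c.e a κ) =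
      if l = κ.1 then c.θ a κ.2 • c.ι d else 0 := fun κ => by
    rw [e, ← mul_assoc, jK_jι, jι_apply, ← j_smul, c.cp_j]
  simp only [map_sum, map_smul, this, Fintype.sum_prod_type]
  rw [Finset.sum_eq_single l]
  · simp [Finset.sum_smul]
  · intro b _ hb; simp [Ne.symm hb]
  · simp

lemma li_e (a : I) {α : Type} [Fintype α] {v : α → D × D} (hv : LinearIndependent Z v) :
    LinearIndependent c.Z0 fun p : α × (ZMod m × Fin m) =>
      (c.jι (v p.1).1 * c.e a p.2, c.jι (v p.1).2 * c.e a p.2) := by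
  have h1 := c.g.x.li2 hv
  have h2 := (c.θ a).linearIndependent
  rw [Fintype.linearIndependent_iff] at h1 h2 ⊢
  rintro z hz ⟨i, l, r⟩
  refine h2 (fun r => z (i, l, r)) (h1 (fun i => ∑ r, z (i, l, r) • c.θ a r) ?_ i) r
  have h3 := congrArg (fun y => c.cp l y.1) hz
  have h4 := congrArg (fun y => c.cp l y.2) hz
  simp only [Prod.fst_sum, Prod.snd_sum, Prod.smul_fst, Prod.smul_snd, Prod.fst_zero,
    Prod.snd_zero, map_zero] at h3 h4
  rw [Fintype.sum_prod_type, map_sum] at h3 h4
  simp only [cp_sum_e] at h3 h4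
  ext
  · simpa [Prod.fst_sum] using h3
  · simpa [Prod.snd_sum] using h4

end CycD

namespace CycD
variable {Z D : Type} [Field Z] [DivisionRing D] [Algebra Z D] {T : Tr Z D} {m : ℕ} [NeZero m]
  {σ : Type} [Fintype σ] (c : CycD T m (Option σ))

noncomputable def hE (k : ZMod m) : ℕ → ZMod m → NPS σ D → c.E
  | 0, _, f => c.ι (co f [])
  | r + 1, i, f => ∑ a, c.X (some a) i • hE k r (i + k) (NPS.D a f)

lemma sE_hE (k l : ZMod m) (r : ℕ) (i : ZMod m) (f : NPS σ D) :
    c.sE l (c.hE k r i f) = c.hE k r (i + l) f := by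
  induction r generalizing i f with
  | zero => simp [hE, c.g.sE_ι]
  | succ r ih => simp only [hE, map_sum, c.g.sE_smul, sK_X, ih, add_right_comm]

lemma τ_hE (k : ZMod m) (d : D) (r : ℕ) (i : ZMod m) (f : NPS σ D) :
    c.τK (c.ι d * c.hE k r i f) = c.g.emb (hP k r i fun w => T.τ (d * co f w)) := by
  induction r generalizing i f with
  | zero => simp only [hE, hP, ← map_mul, c.g.x.tr, c.g.emb_C]
  | succ r ih =>
    simp only [hE, hP, Finset.mul_sum, mul_smul_comm, map_sum, map_smul, ih, map_mul, smul_eq_mul]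
    rfl

noncomputable def U (k : ZMod m) (a : σ) : c.A := c.jK (c.X (some a) 0) * c.y k

omit [Fintype σ] in
lemma U_comm (k : ZMod m) (a : σ) (d : D) : c.jι d * c.U k a = c.U k a * c.jι d := by
  rw [U, ← mul_assoc, jK_jι, mul_assoc, y_jι, mul_assoc]

lemma hom_U (k : ZMod m) (r : ℕ) : ∃ u : c.K, u ≠ 0 ∧ (∀ i, c.sK i u = u) ∧
    ∀ f, hom c.jι (c.U k) r f = c.j (u • c.hE k r 0 f) * c.y (r * k) := by
  induction r with
  | zero => exact ⟨1, one_ne_zero, fun i => map_one _, fun f => by simp [hom, hE, c.y_zero, jι_apply]⟩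
  | succ r ih =>
    obtain ⟨u, h0, h1, h2⟩ := ih
    refine ⟨u * c.cc k (r * k), mul_ne_zero h0 (c.cc_ne _ _),
      fun i => by rw [map_mul, h1, c.cc_fix], fun f => ?_⟩
    simp only [hom, h2, hE, Finset.smul_sum, map_sum, Finset.sum_mul]
    refine Finset.sum_congr rfl fun a _ => ?_
    rw [U, mul_assoc, ← mul_assoc (c.y k), c.y_j, mul_assoc, c.y_y, ← mul_assoc, ← mul_assoc,
      ← j_smul, ← map_mul, c.g.sE_smul, h1, sE_hE, ← Algebra.commutes, ← Algebra.smul_def]
    congr 2
    · simp only [smul_smul]; congr 1; ring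
    · push_cast; ring

end CycD

end Vale.Agent.P199
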