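import Vale.Agent.P199.NPS

namespace Vale.Agent.P199

open NPS

/-- complete separated multiplicative filtrations -/
structure Filt (B : Type) [Ring B] where
  I : ℕ → AddSubgroup B
  anti : ∀ {n k : ℕ}, n ≤ k → ∀ {x : B}, x ∈ I k → x ∈ I n
  mul_mem : ∀ {n k : ℕ} {x y : B}, x ∈ I n → y ∈ I k → x * y ∈ I (n + k)
  one_mem : (1 : B) ∈ I 0
  sep : ∀ x : B, (∀ n, x ∈ I n) → x = 0
  complete : ∀ x : ℕ → B, (∀ n, x (n + 1) - x n ∈ I n) → ∃ y, ∀ n, y - x n ∈ I n

namespace Filt
variable {B : Type} [Ring B]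

lemma mul_mem' (F : Filt B) {n k l : ℕ} {x y : B} (hx : x ∈ F.I n) (hy : y ∈ F.I k)
    (h : l ≤ n + k) : x * y ∈ F.I l := F.anti h (F.mul_mem hx hy)

lemma eq_of (F : Filt B) {x y : B} (h : ∀ n, x - y ∈ F.I n) : x = y :=
  sub_eq_zero.1 (F.sep _ h)

/-- trivial filtration -/
def triv (B : Type) [Ring B] : Filt B where
  I n := if n = 0 then ⊤ else ⊥
  anti {n k} h x hx := by
    by_cases hn : n = 0
    · simp [hn]
    · have hk : k ≠ 0 := by omega
      simpa [hn, hk] using hx
  mul_mem {n k x y} hx hy := by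
    by_cases hn : n = 0
    · by_cases hk : k = 0
      · simp [hn, hk]
      · simp only [hk, if_false, AddSubgroup.mem_bot] at hy
        simp [hy]
    · simp only [hn, if_false, AddSubgroup.mem_bot] at hx
      simp [hx]
  one_mem := by simp
  sep x h := by simpa using h 1
  complete x h := by
    refine ⟨x 1, fun n => ?_⟩
    rcases n with _ | n
    · simp
    · simp only [Nat.add_eq_zero_iff, one_ne_zero, and_false, if_false, AddSubgroup.mem_bot]
      induction n with
      | zero => simp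
      | succ n ih =>
        have := h (n + 1)
        simp only [Nat.add_eq_zero_iff, one_ne_zero, and_false, if_false,
          AddSubgroup.mem_bot] at this
        rw [sub_eq_zero] at this ih ⊢
        rw [this, ih]

lemma mem_triv {n : ℕ} {x : B} : x ∈ (triv B).I n ↔ n = 0 ∨ x = 0 := by
  by_cases h : n = 0 <;> simp [triv, h]

lemma telescope (F : Filt B) (x : ℕ → B) (h : ∀ n, x (n + 1) - x n ∈ F.I n) (n k : ℕ)
    (hk : n ≤ k) : x k - x n ∈ F.I n := by
  induction k, hk using Nat.le_induction with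
  | base => simp
  | succ k hk ih =>
    have := (F.I n).add_mem (F.anti hk (h k)) ih
    simpa using this

/-- induced filtration on power series -/
def nps (F : Filt B) (σ : Type) : Filt (NPS σ B) where
  I n :=
    { carrier := {f | ∀ w, co f w ∈ F.I (n - w.length)}
      add_mem' := fun hf hg w => (F.I _).add_mem (hf w) (hg w)
      zero_mem' := fun w => (F.I _).zero_mem
      neg_mem' := fun hf w => (F.I _).neg_mem (hf w) }
  anti h _ hx w := F.anti (by omega) (hx w)
  mul_mem {n k f g} hf hg w := by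
    change ∀ w, co f w ∈ F.I (n - w.length) at hf
    change ∀ w, co g w ∈ F.I (k - w.length) at hg
    induction w generalizing f n with
    | nil => simpa [co_mul_nil] using F.mul_mem (hf []) (hg [])
    | cons a w ih =>
      rw [co_mul_cons]
      refine (F.I _).add_mem (F.mul_mem' (hf []) (hg (a :: w)) (by simp; omega)) ?_
      refine F.anti ?_ (ih (n := n - 1) (f := D a f) fun u => ?_)
      · simp; omega
      · have := hf (a :: u)
        simp only [List.length_cons] at this
        exact F.anti (by omega) this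
  one_mem w := by
    cases w with
    | nil => simpa using F.one_mem
    | cons a w => simp
  sep f h := by
    ext w
    apply F.sep
    intro n
    have := h (n + w.length) w
    simpa using this
  complete x h := by
    have key : ∀ w : List σ, ∃ y, ∀ n, y - co (x (n + w.length)) w ∈ F.I n := by
      intro w
      apply F.complete (fun n => co (x (n + w.length)) w)
      intro n
      have := h (n + w.length) w
      rw [show n + 1 + w.length = n + w.length + 1 by omega]
      simpa using this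
    choose y hy using key
    refine ⟨NPS.mk y, fun n w => ?_⟩
    have h1 := F.anti (show n - w.length ≤ n by omega) (hy w n)
    have h2 : ∀ k, co (x (n + k)) w - co (x n) w ∈ F.I (n - w.length) := by
      intro k
      induction k with
      | zero => simp
      | succ k ih =>
        have := F.anti (show n - w.length ≤ n + k - w.length by omega) (h (n + k) w)
        have := (F.I _).add_mem this ih
        simpa [add_assoc] using this
    have := (F.I _).add_mem h1 (h2 w.length)
    simpa using this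

lemma mem_nps (F : Filt B) {σ : Type} {n : ℕ} {f : NPS σ B} :
    f ∈ (F.nps σ).I n ↔ ∀ w, co f w ∈ F.I (n - w.length) := Iff.rfl

/-- order filtration -/
def ord (σ B : Type) [Ring B] : Filt (NPS σ B) := (triv B).nps σ

lemma mem_ord {σ : Type} {n : ℕ} {f : NPS σ B} :
    f ∈ (ord σ B).I n ↔ ∀ w : List σ, w.length < n → co f w = 0 := by
  simp only [ord, mem_nps, mem_triv]
  refine forall_congr' fun w => ?_
  constructor
  · intro h hw
    exact h.resolve_left (by omega)
  · intro h
    by_cases hw : w.length < n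
    · exact Or.inr (h hw)
    · exact Or.inl (by omega)

lemma mem_ord_zero {σ : Type} (f : NPS σ B) : f ∈ (ord σ B).I 0 := by
  simp [mem_ord]

/-- induced filtration on dual numbers -/
def dual (F : Filt B) : Filt (DualNumber B) where
  I n :=
    { carrier := {x | x.fst ∈ F.I n ∧ x.snd ∈ F.I n}
      add_mem' := fun hf hg => ⟨(F.I _).add_mem hf.1 hg.1, (F.I _).add_mem hf.2 hg.2⟩
      zero_mem' := ⟨(F.I _).zero_mem, (F.I _).zero_mem⟩
      neg_mem' := fun hf => ⟨(F.I _).neg_mem hf.1, (F.I _).neg_mem hf.2⟩ }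
  anti h _ hx := ⟨F.anti h hx.1, F.anti h hx.2⟩
  mul_mem {n k x y} hx hy := by
    refine ⟨F.mul_mem hx.1 hy.1, ?_⟩
    rw [DualNumber.snd_mul]
    exact (F.I _).add_mem (F.mul_mem hx.1 hy.2) (F.mul_mem hx.2 hy.1)
  one_mem := ⟨F.one_mem, (F.I _).zero_mem⟩
  sep x h := TrivSqZeroExt.ext (F.sep _ fun n => (h n).1) (F.sep _ fun n => (h n).2)
  complete x h := by
    obtain ⟨y1, h1⟩ := F.complete (fun n => (x n).fst) fun n => (h n).1
    obtain ⟨y2, h2⟩ := F.complete (fun n => (x n).snd) fun n => (h n).2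
    exact ⟨(y1, y2), fun n => ⟨h1 n, h2 n⟩⟩

lemma mem_dual (F : Filt B) {n : ℕ} {x : DualNumber B} :
    x ∈ F.dual.I n ↔ x.fst ∈ F.I n ∧ x.snd ∈ F.I n := Iff.rfl

lemma pow_mem (F : Filt B) {x : B} (hx : x ∈ F.I 1) (n : ℕ) : x ^ n ∈ F.I n := by
  induction n with
  | zero => simpa using F.one_mem
  | succ n ih => rw [pow_succ]; exact F.mul_mem ih hx

lemma isUnit_one_sub (F : Filt B) {x : B} (hx : x ∈ F.I 1) : IsUnit (1 - x) := by
  obtain ⟨y, hy⟩ := F.complete (fun n => ∑ i ∈ Finset.range n, x ^ i) fun n => by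
    simpa [Finset.sum_range_succ] using F.pow_mem hx n
  have h0 : 1 - x ∈ F.I 0 := (F.I 0).sub_mem F.one_mem (F.anti (by omega) hx)
  have h1 : (1 - x) * y = 1 := by
    apply F.eq_of
    intro n
    have e : (1 - x) * y - 1 = (1 - x) * (y - ∑ i ∈ Finset.range n, x ^ i) - x ^ n := by
      rw [mul_sub, mul_neg_geom_sum]; abel
    rw [e]
    exact (F.I n).sub_mem (F.mul_mem' h0 (hy n) (by omega)) (F.pow_mem hx n)
  have h2 : y * (1 - x) = 1 := by
    apply F.eq_of
    intro n
    have e : y * (1 - x) - 1 = (y - ∑ i ∈ Finset.range n, x ^ i) * (1 - x) - x ^ n := by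
      rw [sub_mul, geom_sum_mul_neg]; abel
    rw [e]
    exact (F.I n).sub_mem (F.mul_mem' (hy n) h0 (by omega)) (F.pow_mem hx n)
  exact ⟨⟨1 - x, y, h1, h2⟩, rfl⟩

end Filt

section Ev
variable {σ R B : Type} [Ring R] [Ring B] [Fintype σ]

/-- hypotheses for evaluation -/
structure EvOK (F : Filt B) (ι : R →+* B) (s : σ → B) : Prop where
  hι : ∀ r, ι r ∈ F.I 0
  hs : ∀ a, s a ∈ F.I 1
  comm : ∀ r a, ι r * s a = s a * ι r

def apx (ι : R →+* B) (s : σ → B) : ℕ → NPS σ R → B
  | 0, _ => 0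
  | N + 1, f => ι (co f []) + ∑ a, s a * apx ι s N (D a f)

variable {F : Filt B} {ι : R →+* B} {s : σ → B}

lemma apx_step (h : EvOK F ι s) (N : ℕ) (f : NPS σ R) :
    apx ι s (N + 1) f - apx ι s N f ∈ F.I N := by
  induction N generalizing f with
  | zero => simpa [apx] using h.hι _
  | succ N ih =>
    have e : apx ι s (N + 1 + 1) f - apx ι s (N + 1) f =
        ∑ a, s a * (apx ι s (N + 1) (D a f) - apx ι s N (D a f)) := by
      rw [apx, apx.eq_2 ι s f N]
      simp only [mul_sub, Finset.sum_sub_distrib]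
      abel
    rw [e]
    exact sum_mem fun a _ => F.mul_mem' (h.hs a) (ih _) (by omega)

noncomputable def ev0 (h : EvOK F ι s) (f : NPS σ R) : B :=
  (F.complete (fun N => apx ι s N f) fun N => apx_step h N f).choose

lemma ev0_spec (h : EvOK F ι s) (f : NPS σ R) (N : ℕ) : ev0 h f - apx ι s N f ∈ F.I N :=
  (F.complete (fun N => apx ι s N f) fun N => apx_step h N f).choose_spec N

lemma ev0_mem (h : EvOK F ι s) (f : NPS σ R) : ev0 h f ∈ F.I 0 := by
  simpa [apx] using ev0_spec h f 0

lemma ev0_rec (h : EvOK F ι s) (f : NPS σ R) :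
    ev0 h f = ι (co f []) + ∑ a, s a * ev0 h (D a f) := by
  apply F.eq_of
  intro n
  have e : ev0 h f - (ι (co f []) + ∑ a, s a * ev0 h (D a f)) =
      (ev0 h f - apx ι s (n + 1) f) - ∑ a, s a * (ev0 h (D a f) - apx ι s n (D a f)) := by
    rw [apx]
    simp only [mul_sub, Finset.sum_sub_distrib]
    abel
  rw [e]
  exact (F.I n).sub_mem (F.anti (by omega) (ev0_spec h f (n + 1)))
    (sum_mem fun a _ => F.mul_mem' (h.hs a) (ev0_spec h _ n) (by omega))

/-- vanishing principle -/
lemma rec_zero {X : Type} (hs : ∀ a, s a ∈ F.I 1) (Φ : X → B) (d : σ → X → X)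
    (h0 : ∀ x, Φ x ∈ F.I 0) (hr : ∀ x, Φ x = ∑ a, s a * Φ (d a x)) (x : X) : Φ x = 0 := by
  apply F.sep
  intro n
  induction n generalizing x with
  | zero => exact h0 x
  | succ n ih =>
    rw [hr]
    exact sum_mem fun a _ => F.mul_mem' (hs a) (ih _) (by omega)

lemma ev0_add (h : EvOK F ι s) (f g : NPS σ R) : ev0 h (f + g) = ev0 h f + ev0 h g := by
  have := rec_zero h.hs (fun p : NPS σ R × NPS σ R => ev0 h (p.1 + p.2) - (ev0 h p.1 + ev0 h p.2))
    (fun a p => (D a p.1, D a p.2))
    (fun p => (F.I 0).sub_mem (ev0_mem h _) ((F.I 0).add_mem (ev0_mem h _) (ev0_mem h _)))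
    (fun p => by
      rw [ev0_rec h (p.1 + p.2), ev0_rec h p.1, ev0_rec h p.2]
      simp only [co_add, map_add, D_add, mul_sub, mul_add, Finset.sum_sub_distrib,
        Finset.sum_add_distrib]
      abel) (f, g)
  exact sub_eq_zero.1 this

lemma ev0_zero (h : EvOK F ι s) : ev0 h (0 : NPS σ R) = 0 := by
  have := ev0_add h 0 0
  simpa using this

lemma ev0_C (h : EvOK F ι s) (r : R) : ev0 h (C r : NPS σ R) = ι r := by
  rw [ev0_rec]; simp [ev0_zero]

lemma ev0_C_mul (h : EvOK F ι s) (r : R) (g : NPS σ R) : ev0 h (C r * g) = ι r * ev0 h g := by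
  have := rec_zero h.hs (fun g : NPS σ R => ev0 h (C r * g) - ι r * ev0 h g)
    (fun a g => D a g)
    (fun p => (F.I 0).sub_mem (ev0_mem h _) (F.mul_mem (h.hι r) (ev0_mem h _)))
    (fun g => by
      rw [ev0_rec h (C r * g), ev0_rec h g]
      simp only [D_mul, D_C, zero_mul, add_zero, co_C_nil, co_C_mul, map_mul, mul_add,
        Finset.mul_sum, mul_sub, Finset.sum_sub_distrib, ← mul_assoc, h.comm]
      abel) g
  exact sub_eq_zero.1 this

lemma ev0_mul (h : EvOK F ι s) (f g : NPS σ R) : ev0 h (f * g) = ev0 h f * ev0 h g := by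
  have := rec_zero h.hs (fun f : NPS σ R => ev0 h (f * g) - ev0 h f * ev0 h g)
    (fun a f => D a f)
    (fun p => (F.I 0).sub_mem (ev0_mem h _) (F.mul_mem (ev0_mem h _) (ev0_mem h _)))
    (fun f => by
      have e1 : ι (co f []) * ev0 h g =
          ι (co f []) * ι (co g []) + ∑ a, s a * (ι (co f []) * ev0 h (D a g)) := by
        conv_lhs => rw [ev0_rec h g]
        simp only [mul_add, Finset.mul_sum, ← mul_assoc, h.comm]
      rw [ev0_rec h (f * g)]
      conv_lhs => rw [ev0_rec h f]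
      simp only [D_mul, ev0_add, ev0_C_mul, co_mul_nil, map_mul, add_mul, e1, mul_add,
        Finset.sum_add_distrib, Finset.sum_mul, mul_sub, Finset.sum_sub_distrib, mul_assoc]
      abel) f
  exact sub_eq_zero.1 this

/-- evaluation homomorphism -/
noncomputable def ev (h : EvOK F ι s) : NPS σ R →+* B where
  toFun := ev0 h
  map_one' := (ev0_C h 1).trans ι.map_one
  map_mul' := ev0_mul h
  map_zero' := ev0_zero h
  map_add' := ev0_add h

lemma ev_mem (h : EvOK F ι s) (f : NPS σ R) : ev h f ∈ F.I 0 := ev0_mem h f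

lemma ev_rec (h : EvOK F ι s) (f : NPS σ R) :
    ev h f = ι (co f []) + ∑ a, s a * ev h (D a f) := ev0_rec h f

@[simp] lemma ev_C (h : EvOK F ι s) (r : R) : ev h (C r : NPS σ R) = ι r := ev0_C h r

lemma ev_unique (h : EvOK F ι s) (Φ : NPS σ R → B) (h0 : ∀ f, Φ f ∈ F.I 0)
    (hr : ∀ f, Φ f = ι (co f []) + ∑ a, s a * Φ (D a f)) (f : NPS σ R) : Φ f = ev h f := by
  have := rec_zero h.hs (fun f : NPS σ R => Φ f - ev h f) (fun a f => D a f)
    (fun p => (F.I 0).sub_mem (h0 _) (ev_mem h _))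
    (fun f => by
      rw [hr f, ev_rec h f]
      simp only [mul_sub, Finset.sum_sub_distrib]
      abel) f
  exact sub_eq_zero.1 this

/-- functoriality -/
lemma ev_comp {B' : Type} [Ring B'] {F' : Filt B'} {ι' : R →+* B'} {s' : σ → B'}
    (h : EvOK F ι s) (h' : EvOK F' ι' s') (G : B →+* B') (hG0 : ∀ f, G (ev h f) ∈ F'.I 0)
    (hGι : ∀ r, G (ι r) = ι' r) (hGs : ∀ a, G (s a) = s' a) (f : NPS σ R) :
    G (ev h f) = ev h' f := by
  apply ev_unique h' (fun f => G (ev h f)) hG0
  intro f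
  conv_lhs => rw [ev_rec h f]
  simp [map_sum, hGι, hGs]

lemma ev_sub_const (h : EvOK F ι s) {e : ℕ} (he : ∀ a, s a ∈ F.I e) (f : NPS σ R) :
    ev h f - ι (co f []) ∈ F.I e := by
  rw [ev_rec h f, add_sub_cancel_left]
  exact sum_mem fun a _ => F.mul_mem' (he a) (ev_mem h _) (by omega)

/-- homogeneous part -/
def hom (ι : R →+* B) (s : σ → B) : ℕ → NPS σ R → B
  | 0, f => ι (co f [])
  | n + 1, f => ∑ a, s a * hom ι s n (D a f)

lemma ev_sub_hom (h : EvOK F ι s) {e : ℕ} (he : ∀ a, s a ∈ F.I e) (n : ℕ) (f : NPS σ R)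
    (hf : f ∈ (Filt.ord σ R).I n) : ev h f - hom ι s n f ∈ F.I (e * (n + 1)) := by
  induction n generalizing f with
  | zero => simpa [hom] using ev_sub_const h he f
  | succ n ih =>
    rw [Filt.mem_ord] at hf
    rw [ev_rec h f, hf [] (by simp), hom, map_zero, zero_add, ← Finset.sum_sub_distrib]
    refine sum_mem fun a _ => ?_
    rw [← mul_sub]
    refine F.mul_mem' (he a) (ih _ ?_) (by ring_nf; omega)
    rw [Filt.mem_ord]
    intro w hw
    exact hf _ (by simp; omega)

section Lip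
variable {η ζ : σ → B}

lemma lip_rec (h : EvOK F ι η) (h' : EvOK F ι (η + ζ)) (f : NPS σ R) :
    ev h' f - ev h f = ∑ a, (ζ a * ev h' (D a f) + η a * (ev h' (D a f) - ev h (D a f))) := by
  rw [ev_rec h' f, ev_rec h f]
  simp only [Pi.add_apply, add_mul, mul_sub, Finset.sum_add_distrib, Finset.sum_sub_distrib]
  abel

lemma lip1 (h : EvOK F ι η) (h' : EvOK F ι (η + ζ)) {e : ℕ} (he : ∀ a, ζ a ∈ F.I e)
    (f : NPS σ R) : ev h' f - ev h f ∈ F.I e := by
  have key : ∀ N, N ≤ e → ∀ f, ev h' f - ev h f ∈ F.I N := by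
    intro N
    induction N with
    | zero => intro _ f; exact (F.I 0).sub_mem (ev_mem _ _) (ev_mem _ _)
    | succ N ih =>
      intro hN f
      rw [lip_rec]
      exact sum_mem fun a _ => (F.I _).add_mem (F.mul_mem' (he a) (ev_mem _ _) (by omega))
        (F.mul_mem' (h.hs a) (ih (by omega) _) (by omega))
  exact key e le_rfl f

lemma lip2 (h : EvOK F ι η) (h' : EvOK F ι (η + ζ)) {e c : ℕ} (he : ∀ a, ζ a ∈ F.I e)
    (hc : ∀ a, η a ∈ F.I c) (hce : c ≤ e) (f : NPS σ R) :
    ev h' f - ev h f - ∑ a, ζ a * ι (co f [a]) ∈ F.I (e + c) := by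
  rw [lip_rec, ← Finset.sum_sub_distrib]
  refine sum_mem fun a _ => ?_
  have e1 : ζ a * ev h' (D a f) + η a * (ev h' (D a f) - ev h (D a f)) - ζ a * ι (co f [a]) =
      ζ a * (ev h' (D a f) - ι (co (D a f) [])) + η a * (ev h' (D a f) - ev h (D a f)) := by
    simp only [co_D, mul_sub]; abel
  rw [e1]
  refine (F.I _).add_mem (F.mul_mem (he a) (ev_sub_const h' (fun b => ?_) _))
    (F.mul_mem' (hc a) (lip1 h h' he _) (by omega))
  exact (F.I _).add_mem (hc b) (F.anti hce (he b))

lemma ev_sub_lin (h : EvOK F ι η) {c : ℕ} (hc : ∀ a, η a ∈ F.I c) (f : NPS σ R) :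
    ev h f - ι (co f []) - ∑ a, η a * ι (co f [a]) ∈ F.I (c + c) := by
  rw [ev_rec h f, add_sub_cancel_left, ← Finset.sum_sub_distrib]
  refine sum_mem fun a _ => ?_
  rw [← mul_sub]
  exact F.mul_mem (hc a) (ev_sub_const h hc (D a f))

lemma ev_sub_quad (h : EvOK F ι η) {c : ℕ} (hc : ∀ a, η a ∈ F.I c) (f : NPS σ R) :
    ev h f - ι (co f []) - ∑ a, η a * ι (co f [a]) - ∑ a, ∑ b, η a * η b * ι (co f [a, b])
      ∈ F.I (c + (c + c)) := by
  rw [ev_rec h f, add_sub_cancel_left, ← Finset.sum_sub_distrib, ← Finset.sum_sub_distrib]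
  refine sum_mem fun a _ => ?_
  simp only [mul_assoc]
  rw [← Finset.mul_sum, ← mul_sub, ← mul_sub]
  exact F.mul_mem (hc a) (ev_sub_lin h hc (D a f))

lemma lip3 (h : EvOK F ι η) (h' : EvOK F ι (η + ζ)) {e c : ℕ} (he : ∀ a, ζ a ∈ F.I e)
    (hc : ∀ a, η a ∈ F.I c) (hce : c ≤ e) (f : NPS σ R) :
    ev h' f - ev h f - ∑ a, ζ a * ι (co f [a]) -
      ∑ a, ∑ b, (ζ a * (η b + ζ b) + η a * ζ b) * ι (co f [a, b]) ∈ F.I (e + (c + c)) := by
  rw [lip_rec, ← Finset.sum_sub_distrib, ← Finset.sum_sub_distrib]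
  refine sum_mem fun a _ => ?_
  have e1 : ζ a * ev h' (D a f) + η a * (ev h' (D a f) - ev h (D a f)) - ζ a * ι (co f [a]) -
      ∑ b, (ζ a * (η b + ζ b) + η a * ζ b) * ι (co f [a, b]) =
      ζ a * (ev h' (D a f) - ι (co (D a f) []) - ∑ b, (η + ζ) b * ι (co (D a f) [b])) +
      η a * (ev h' (D a f) - ev h (D a f) - ∑ b, ζ b * ι (co (D a f) [b])) := by
    simp only [co_D, mul_sub, Finset.mul_sum, add_mul, mul_add, Finset.sum_add_distrib, mul_assoc,
      Pi.add_apply]
    abel
  rw [e1]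
  refine (F.I _).add_mem (F.mul_mem (he a) (ev_sub_lin h' (fun b => ?_) _))
    (F.mul_mem' (hc a) (lip2 h h' he hc hce _) (by omega))
  exact (F.I _).add_mem (hc b) (F.anti hce (he b))

end Lip

end Ev

section Subst
variable {σ σ' R : Type} [Ring R] [Fintype σ]

/-- admissible substitution -/
structure SubOK (φ : σ → NPS σ' R) : Prop where
  nil : ∀ a, co (φ a) [] = 0
  comm : ∀ r a, C r * φ a = φ a * C r

lemma SubOK.ev {φ : σ → NPS σ' R} (h : SubOK φ) : EvOK (Filt.ord σ' R) C φ where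
  hι _ := Filt.mem_ord_zero _
  hs a := by
    rw [Filt.mem_ord]
    intro w hw
    obtain rfl : w = [] := List.length_eq_zero_iff.1 (by omega)
    exact h.nil a
  comm := h.comm

noncomputable def subst {φ : σ → NPS σ' R} (h : SubOK φ) : NPS σ R →+* NPS σ' R := ev h.ev

lemma subOK_var : SubOK (fun a : σ => (var a 1 : NPS σ R)) where
  nil a := by simp
  comm r a := by
    rw [comm_C_iff]
    intro w
    rw [co_var]
    split_ifs <;> simp

lemma subst_var (f : NPS σ R) : subst subOK_var f = f := by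
  symm
  apply ev_unique subOK_var.ev (fun f => f) (fun f => Filt.mem_ord_zero _)
  intro f
  classical
  ext w
  cases w with
  | nil => simp [co_mul_nil]
  | cons b w =>
    simp only [co_add, co_C_cons, co_sum, co_mul_cons, co_var_nil, zero_mul, zero_add, D_var]
    rw [Finset.sum_eq_single b]
    · simp
    · intro a _ ha
      simp [Ne.symm ha]
    · simp

end Subst

lemma isUnit_of_co_nil {σ R : Type} [Ring R] (g : NPS σ R) (hg : co g [] = 1) : IsUnit g := by
  have := (Filt.ord σ R).isUnit_one_sub (x := 1 - g) (by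
    rw [Filt.mem_ord]
    intro w hw
    obtain rfl : w = [] := List.length_eq_zero_iff.1 (by omega)
    simp [hg])
  simpa using this

end Vale.Agent.P199
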