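import Vale.Agent.P199.Newton
import Vale.Agent.P199.An3

namespace Vale.Agent.P199

open Module NPS

/-- a deformation state -/
structure St where
  Z : Type
  [fZ : Field Z]
  [cZ : CharZero Z]
  D : Type
  [dD : DivisionRing D]
  [aD : Algebra Z D]
  [fin : FiniteDimensional Z D]
  T : Tr Z D
  σ : Type
  [fσ : Fintype σ]
  X : NPS σ D
  Y : NPS σ D
  chi : finrank Z D < rk Z X Y

attribute [instance] St.fZ St.cZ St.dD St.aD St.fin St.fσ

abbrev St.R (s : St) : Type := NPS s.σ s.D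

structure Mor (s s' : St) where
  Ψ : s.R →+* s'.R
  ι : s.Z →+* s'.Z
  hX : Ψ s.X = s'.X
  hY : Ψ s.Y = s'.Y
  halg : ∀ z, Ψ (algebraMap s.Z s.R z) = algebraMap s'.Z s'.R (ι z)

def Mor.refl (s : St) : Mor s s := ⟨RingHom.id _, RingHom.id _, rfl, rfl, fun _ => rfl⟩

def Mor.trans {s s' s'' : St} (M : Mor s s') (M' : Mor s' s'') : Mor s s'' where
  Ψ := M'.Ψ.comp M.Ψ
  ι := M'.ι.comp M.ι
  hX := by rw [RingHom.comp_apply, M.hX, M'.hX]
  hY := by rw [RingHom.comp_apply, M.hY, M'.hY]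
  halg z := by rw [RingHom.comp_apply, M.halg, M'.halg, RingHom.comp_apply]

lemma Mor.mem_adjoin {s s' : St} (M : Mor s s') {a : s.R}
    (ha : a ∈ Algebra.adjoin s.Z {s.X, s.Y}) : M.Ψ a ∈ Algebra.adjoin s'.Z {s'.X, s'.Y} := by
  induction ha using Algebra.adjoin_induction with
  | mem x hx =>
    apply Algebra.subset_adjoin
    rcases hx with rfl | rfl
    · rw [M.hX]; simp
    · rw [M.hY]; simp
  | algebraMap r => rw [M.halg]; exact Subalgebra.algebraMap_mem _ _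
  | add x y _ _ hx hy => rw [map_add]; exact add_mem hx hy
  | mul x y _ _ hx hy => rw [map_mul]; exact mul_mem hx hy

/-- a state with a distinguished element in block form -/
structure PSt where
  s : St
  a : s.R
  ha : a ∈ Algebra.adjoin s.Z {s.X, s.Y}
  a0 : s.D
  b : s.R
  hb0 : co b [] = 0
  hbc : ∀ w, co b w * a0 = a0 * co b w
  G : s.R
  hG : IsUnit G
  link : a * G = G * (C a0 + b)

def Desc (p p' : PSt) : Prop := ∃ M : Mor p.s p'.s, M.Ψ p.a = p'.a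

lemma Desc.refl (p : PSt) : Desc p p := ⟨Mor.refl _, rfl⟩

lemma Desc.trans {p p' p'' : PSt} (h : Desc p p') (h' : Desc p' p'') : Desc p p'' := by
  obtain ⟨M, hM⟩ := h
  obtain ⟨M', hM'⟩ := h'
  exact ⟨M.trans M', by rw [← hM', ← hM]; rfl⟩

lemma link_aux {R R' : Type} [Ring R] [Ring R'] (Ψ : R →+* R') {a G z : R} {g z' : R'}
    (h : a * G = G * z) (h' : Ψ z * g = g * z') : Ψ a * (Ψ G * g) = (Ψ G * g) * z' := by
  rw [← mul_assoc, ← map_mul, h, map_mul, mul_assoc, h', mul_assoc]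

lemma arith1 {m d r N : ℕ} (h : N ≤ m * (m * d)) (h' : d < r) : N + (m - 1) * m ≤ m * (m * r) := by
  have h1 : m * (m * (d + 1)) ≤ m * (m * r) := by gcongr; omega
  have h2 : (m - 1) * m ≤ m * m := by gcongr; omega
  nlinarith

lemma arith2 {m d E W : ℕ} (h : E ≤ m * d) (h' : W ≤ d) (hm : 2 * d * d + 6 * d + 4 < m) :
    2 * E + (m * d + 1) * W + (m * d + 1 + 1) * (W + 1) < (m - 1) * m := by
  obtain ⟨M, rfl⟩ : ∃ M, m = M + 1 := ⟨m - 1, by omega⟩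
  calc _ ≤ 2 * ((M + 1) * d) + ((M + 1) * d + 1) * d + ((M + 1) * d + 1 + 1) * (d + 1) := by gcongr
    _ < (2 * d * d + 6 * d + 4) * (M + 1) := by nlinarith
    _ ≤ _ := by gcongr; omega

namespace PSt
variable (p : PSt)

noncomputable def mu : ℕ := finrank p.s.Z (PP p.s.Z p.a0) / finrank p.s.Z (LL p.s.Z p.a0)
noncomputable def nu (f : p.s.σ → p.s.Z) : ℕ :=
  finrank p.s.Z (LL p.s.Z p.a0) / finrank p.s.Z (EE p.s.Z p.b f)
noncomputable def dep (f : p.s.σ → p.s.Z) : ℕ :=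
  sInf {k | (EE p.s.Z p.b f).toSubmodule ≤ Vt p.s.Z p.b f ^ (k + 2)}
noncomputable def ww (f : p.s.σ → p.s.Z) : ℕ := finrank p.s.Z (WW p.s.T p.b f)

def M1 : Prop := ∀ p' f', Desc p p' → lin p'.s.Z p'.b f' ≠ 0 → p.mu ≤ p'.mu

def IsMin (f : p.s.σ → p.s.Z) : Prop := lin p.s.Z p.b f ≠ 0 ∧
  ∀ p' f', Desc p p' → lin p'.s.Z p'.b f' ≠ 0 → p.mu ≤ p'.mu ∧ (p'.mu ≤ p.mu →
    p.nu f ≤ p'.nu f' ∧ (p'.nu f' ≤ p.nu f → p.dep f ≤ p'.dep f' ∧
      (p'.dep f' ≤ p.dep f → p.ww f ≤ p'.ww f')))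

variable (A : Arc p.s.T p.s.σ) (hb : subst A.hφ p.b ∈ (Filt.ord A.S p.s.D).I A.n)

noncomputable def ctx : Ctx A where
  a0 := p.a0
  b := p.b
  hbc := p.hbc
  hb := hb
  g := (exists_BD A.T' (A.Ψ (C p.a0 + p.b))).choose
  b' := (exists_BD A.T' (A.Ψ (C p.a0 + p.b))).choose_spec.choose
  bd := (exists_BD A.T' (A.Ψ (C p.a0 + p.b))).choose_spec.choose_spec

noncomputable def arcS : St where
  Z := A.Z'
  D := A.D'
  T := A.T'
  σ := A.σ'
  X := A.Ψ p.s.X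
  Y := A.Ψ p.s.Y
  chi := by
    have h1 := A.finrank_D'
    have h2 := A.rk_le p.s.X p.s.Y
    have hm := Nat.pos_of_ne_zero (NeZero.ne A.m)
    exact h1.trans_lt ((Nat.mul_lt_mul_of_pos_left
      (Nat.mul_lt_mul_of_pos_left p.s.chi hm) hm).trans_le h2)

noncomputable def arcM : Mor p.s (p.arcS A) := ⟨A.Ψ, A.ιZ', rfl, rfl, A.Ψ_algebraMap⟩

noncomputable def arc : PSt where
  s := p.arcS A
  a := A.Ψ p.a
  ha := (p.arcM A).mem_adjoin p.ha
  a0 := (p.ctx A hb).a1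
  b := (p.ctx A hb).b'
  hb0 := (p.ctx A hb).bd.b_nil
  hbc := (p.ctx A hb).bd.b_comm
  G := A.Ψ p.G * (p.ctx A hb).g
  hG := (p.hG.map A.Ψ).mul (isUnit_of_co_nil _ (p.ctx A hb).bd.g_nil)
  link := link_aux A.Ψ p.link (p.ctx A hb).bd.eq

lemma desc_arc : Desc p (p.arc A hb) := ⟨p.arcM A, rfl⟩

end PSt

section
variable {Z D σ : Type} [Field Z] [CharZero Z] [DivisionRing D] [Algebra Z D] [Fintype σ]
  [FiniteDimensional Z D]

noncomputable def mkArc (T : Tr Z D) (S : Type) [Fintype S] (φ : σ → NPS S D) (hφ : SubOK φ)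
    (n k : ℕ) (hn : 2 ≤ n) (hk : Fintype.card σ < k) (f : σ → Z) : Arc T σ :=
  haveI : NeZero (n * k) := ⟨Nat.mul_ne_zero (by omega) (by omega)⟩
  { S := S
    n := n
    k := k
    m := n * k
    hm := rfl
    hn := hn
    hσ := by nlinarith
    c := Classical.choice (exists_cycD T (n * k) (Option S))
    φ := φ
    hφ := hφ
    f1 := f }

noncomputable def mkArc0 (T : Tr Z D) (k : ℕ) (hk : Fintype.card σ < k) (f : σ → Z) : Arc T σ :=
  mkArc T Unit (sb D (0 : List Unit → σ → Z)) (sb_ok rfl) 2 k le_rfl hk f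

lemma mkArc0_hb (T : Tr Z D) (k : ℕ) (hk : Fintype.card σ < k) (f : σ → Z) {b : NPS σ D}
    (hb : co b [] = 0) : subst (mkArc0 T k hk f).hφ b ∈
      (Filt.ord (mkArc0 T k hk f).S D).I (mkArc0 T k hk f).n :=
  subst_sb_mem2 (c := (0 : List Unit → σ → Z)) rfl hb fun _ => map_zero _

omit [CharZero Z] [Fintype σ] in
lemma sub_pos' (S : Subalgebra Z D) : 0 < finrank Z S := Module.finrank_pos

omit [CharZero Z] [Fintype σ] in
lemma div_mul_of_le {A B : Subalgebra Z D} (h : A ≤ B) :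
    finrank Z B / finrank Z A * finrank Z A = finrank Z B :=
  Nat.div_mul_cancel (finrank_dvd_of_le h)

omit [CharZero Z] [Fintype σ] [FiniteDimensional Z D] in
lemma cent_le (a v : D) : Subalgebra.centralizer Z {a, v} ≤ PP Z a :=
  Subalgebra.centralizer_le _ _ _ (by simp)

omit [CharZero Z] [FiniteDimensional Z D] in
lemma subst_algebraMap {σ' : Type} {φ : σ → NPS σ' D} (h : SubOK φ) (z : Z) :
    subst h (algebraMap Z _ z) = algebraMap Z _ z := by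
  rw [NPS.algebraMap_eq, NPS.algebraMap_eq]
  exact ev_C _ _

lemma subst_link {D σ σ' : Type} [Ring D] [Fintype σ] {φ : σ → NPS σ' D} (h : SubOK φ)
    {a G b : NPS σ D} {a0 : D} (hl : a * G = G * (C a0 + b)) (hb : subst h b = 0) :
    subst h a * subst h G = subst h G * (C a0 + 0) := by
  have := congrArg (subst h) hl
  rw [map_mul, map_mul, map_add, hb] at this
  rw [this]
  congr 2
  exact ev_C _ _

end

namespace PSt
variable {p : PSt}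

lemma mu_arc (A : Arc p.s.T p.s.σ) (hb : subst A.hφ p.b ∈ (Filt.ord A.S p.s.D).I A.n)
    (hv : lin p.s.Z p.b A.f1 ≠ 0) :
    (p.arc A hb).mu * finrank p.s.Z (LL p.s.Z p.a0) ≤
      finrank p.s.Z (Subalgebra.centralizer p.s.Z {p.a0, lin p.s.Z p.b A.f1}) := by
  have h1 := (p.ctx A hb).finrank_P' hv
  have h2 := (p.ctx A hb).finrank_L' hv
  have h3 := div_mul_of_le (LL_le (Z := A.Z') (p.ctx A hb).a1)
  have hm := Nat.pos_of_ne_zero (NeZero.ne A.m)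
  apply Nat.le_of_mul_le_mul_left _ hm
  refine le_trans ?_ (h3.le.trans h1)
  rw [mul_left_comm]
  exact Nat.mul_le_mul_left _ h2

lemma M1.mem_L (h : p.M1) (δ : p.s.σ → p.s.Z) : lin p.s.Z p.b δ ∈ LL p.s.Z p.a0 := by
  by_cases hv : lin p.s.Z p.b δ = 0
  · rw [hv]; exact zero_mem _
  let A := mkArc0 p.s.T _ (Nat.lt_succ_self _) δ
  have hb := mkArc0_hb p.s.T _ (Nat.lt_succ_self _) δ p.hb0
  obtain ⟨δ', hδ'⟩ := (p.ctx A hb).l'_ne hv
  have h1 := h _ δ' (p.desc_arc A hb) hδ'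
  have h2 := mu_arc A hb hv
  have h3 := div_mul_of_le (LL_le (Z := p.s.Z) p.a0)
  have h4 : finrank p.s.Z (PP p.s.Z p.a0) ≤
      finrank p.s.Z (Subalgebra.centralizer p.s.Z {p.a0, lin p.s.Z p.b δ}) :=
    h3.ge.trans ((Nat.mul_le_mul_right _ h1).trans h2)
  have h5 := Subalgebra.eq_of_le_of_finrank_le (cent_le p.a0 (lin p.s.Z p.b δ)) h4
  rw [mem_LL]
  intro q hq
  have : q ∈ Subalgebra.centralizer p.s.Z {p.a0, lin p.s.Z p.b δ} := by
    rw [h5]; exact mem_PP.2 hq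
  exact (this _ (by simp)).symm

lemma IsMin.arc (A : Arc p.s.T p.s.σ) (hb : subst A.hφ p.b ∈ (Filt.ord A.S p.s.D).I A.n)
    (h : p.IsMin A.f1) :
    (p.ctx A hb).Good ∧
    Lau.Res (EE A.Z' (p.ctx A hb).b' A.f1').toSubmodule =
      A.c.JK (EE p.s.Z p.b A.f1).toSubmodule ∧
    (EE p.s.Z p.b A.f1).toSubmodule ≤ Vt p.s.Z p.b A.f1 ^ 2 ∧
    Lau.Res (WW A.T' (p.ctx A hb).b' A.f1') = A.c.J0 (WW p.s.T p.b A.f1) ∧
    (p.arc A hb).IsMin A.f1' ∧
    finrank A.Z' (PP A.Z' (p.ctx A hb).a1) ≤ A.m * finrank p.s.Z (PP p.s.Z p.a0) ∧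
    finrank A.Z' (EE A.Z' (p.ctx A hb).b' A.f1') ≤ A.m * finrank p.s.Z (EE p.s.Z p.b A.f1) ∧
    finrank A.Z' (WW A.T' (p.ctx A hb).b' A.f1') ≤ finrank p.s.Z (WW p.s.T p.b A.f1) := by
  set x := p.ctx A hb with hx
  have hv : x.v ≠ 0 := h.1
  have hm := Nat.pos_of_ne_zero (NeZero.ne A.m)
  have hM1 : p.M1 := fun p' f' h1 h2 => (h.2 p' f' h1 h2).1
  have hL := hM1.mem_L
  obtain ⟨δ', hδ'⟩ := x.l'_ne hv
  have hd := p.desc_arc A hb
  have hPL := div_mul_of_le (LL_le (Z := p.s.Z) p.a0)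
  have hPL' := div_mul_of_le (LL_le (Z := A.Z') x.a1)
  have hcP : finrank p.s.Z (Subalgebra.centralizer p.s.Z {p.a0, lin p.s.Z p.b A.f1}) ≤
      finrank p.s.Z (PP p.s.Z p.a0) :=
    Submodule.finrank_mono (t := (PP p.s.Z p.a0).toSubmodule)
      (s := (Subalgebra.centralizer p.s.Z {p.a0, lin p.s.Z p.b A.f1}).toSubmodule)
      (cent_le (Z := p.s.Z) _ _)
  have hmu1 : p.mu ≤ (p.arc A hb).mu := hM1 _ δ' hd hδ'
  have hmu2 : (p.arc A hb).mu ≤ p.mu :=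
    Nat.le_of_mul_le_mul_right ((mu_arc A hb hv).trans (hcP.trans hPL.ge)) (sub_pos' _)
  have hM1' : (p.arc A hb).M1 := fun p' f' h1 h2 => hmu2.trans (hM1 p' f' (hd.trans h1) h2)
  have hP'le : finrank A.Z' (PP A.Z' x.a1) ≤ A.m * finrank p.s.Z (PP p.s.Z p.a0) :=
    (x.finrank_P' hv).trans (Nat.mul_le_mul_left _ hcP)
  have hL'ge : A.m * finrank p.s.Z (LL p.s.Z p.a0) ≤ finrank A.Z' (LL A.Z' x.a1) := x.finrank_L' hv
  change p.mu * _ = _ at hPL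
  change (p.arc A hb).mu * _ = _ at hPL'
  have hmu : (p.arc A hb).mu = p.mu := le_antisymm hmu2 hmu1
  have hP'ge : A.m * finrank p.s.Z (PP p.s.Z p.a0) ≤ finrank A.Z' (PP A.Z' x.a1) := by
    rw [← hPL, ← hPL', hmu, mul_left_comm]
    exact Nat.mul_le_mul_left _ hL'ge
  have hmu0 : 0 < p.mu := Nat.pos_of_ne_zero fun e => by
    have := sub_pos' (PP p.s.Z p.a0)
    rw [← hPL, e] at this
    omega
  have hL'le : finrank A.Z' (LL A.Z' x.a1) ≤ A.m * finrank p.s.Z (LL p.s.Z p.a0) := by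
    apply Nat.le_of_mul_le_mul_left _ hmu0
    rw [mul_left_comm, hPL, ← hmu, hPL']
    exact hP'le
  have G : x.Good := ⟨hv, hL, Lau.Res_eq_of A.c.T1 ((x.res_P hv).trans
      (Submodule.map_mono (Submodule.restrictScalars_mono _
        (A.c.g.x.bc_mono (cent_le (Z := p.s.Z) _ _)))))
      (by rw [A.c.finrank_JK none]; exact hP'ge), hM1'.mem_L⟩
  have hv' : lin A.Z' x.b' A.f1' ≠ 0 := G.v'_ne
  obtain ⟨hnu1, h2⟩ := (h.2 _ A.f1' hd hv').2 hmu2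
  have hLE := div_mul_of_le (EE_le hL A.f1)
  have hLE' := div_mul_of_le (EE_le G.hL' A.f1')
  change p.nu A.f1 * _ = _ at hLE
  change (p.arc A hb).nu A.f1' * _ = _ at hLE'
  have hE'ge : A.m * finrank p.s.Z (EE p.s.Z p.b A.f1) ≤ finrank A.Z' (EE A.Z' x.b' A.f1') :=
    G.finrank_E'
  have hnu2 : (p.arc A hb).nu A.f1' ≤ p.nu A.f1 := by
    apply Nat.le_of_mul_le_mul_right _ (Nat.mul_pos hm (sub_pos' (EE p.s.Z p.b A.f1)))
    refine (Nat.mul_le_mul_left _ hE'ge).trans ?_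
    rw [hLE', mul_left_comm, hLE]
    exact hL'le
  have hnu : (p.arc A hb).nu A.f1' = p.nu A.f1 := le_antisymm hnu2 hnu1
  have hnu0 : 0 < p.nu A.f1 := Nat.pos_of_ne_zero fun e => by
    have := sub_pos' (LL p.s.Z p.a0)
    rw [← hLE, e] at this
    omega
  have hE'le : finrank A.Z' (EE A.Z' x.b' A.f1') ≤ A.m * finrank p.s.Z (EE p.s.Z p.b A.f1) := by
    apply Nat.le_of_mul_le_mul_left _ hnu0
    rw [mul_left_comm, hLE, ← hnu, hLE']
    exact hL'le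
  have hE : Lau.Res (EE A.Z' x.b' A.f1').toSubmodule = A.c.JK (EE p.s.Z p.b A.f1).toSubmodule :=
    Lau.Res_eq_of' G.E_res_ge (by rw [A.c.finrank_JK none]; exact hE'le)
  obtain ⟨hdep1, h3⟩ := h2 hnu2
  have hdk : (EE p.s.Z p.b A.f1).toSubmodule ≤ Vt p.s.Z p.b A.f1 ^ (p.dep A.f1 + 2) :=
    Nat.sInf_mem (s := {k | (EE p.s.Z p.b A.f1).toSubmodule ≤ Vt p.s.Z p.b A.f1 ^ (k + 2)})
      (exists_EE_le h.1)
  have hdep0 : p.dep A.f1 = 0 := by
    by_contra h0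
    obtain ⟨k, hk⟩ : ∃ k, p.dep A.f1 = k + 1 := ⟨p.dep A.f1 - 1, by omega⟩
    rw [hk] at hdk
    have : (p.arc A hb).dep A.f1' ≤ k := Nat.sInf_le (G.dep hE k hdk)
    omega
  rw [hdep0] at hdk
  have hdep2 : (p.arc A hb).dep A.f1' ≤ 0 :=
    Nat.sInf_le (G.dep hE 0 (hdk.trans (Vt_pow_mono h.1 (by omega))))
  have hw1 := h3 (by omega)
  have hW := G.res_W hE hdk
  have hw2 : finrank A.Z' (WW A.T' x.b' A.f1') ≤ finrank p.s.Z (WW p.s.T p.b A.f1) :=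
    (Lau.finrank_le_of_Res_le A.c.T1 hW).trans (A.c.finrank_J0 _)
  refine ⟨G, hE, hdk, Lau.Res_eq_of A.c.T1 hW ((A.c.finrank_J0 _).trans hw1), ⟨hv', ?_⟩, hP'le,
    hE'le, hw2⟩
  intro p' f' h4 h5
  have h6 := h.2 p' f' (hd.trans h4) h5
  have hw : (p.arc A hb).ww A.f1' = p.ww A.f1 := le_antisymm hw2 hw1
  rw [hmu, hnu, hw, show (p.arc A hb).dep A.f1' = p.dep A.f1 by omega]
  exact h6

lemma IsMin.HF {f : p.s.σ → p.s.Z} (h : p.IsMin f) : HF1 p.b f ∧ HF2 p.s.T p.b f := by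
  constructor
  · intro S _ φ hφ n hn hb w hw
    obtain ⟨G, hE, -⟩ := IsMin.arc (mkArc p.s.T S φ hφ n _ hn (Nat.lt_succ_self _) f) hb h
    exact G.F1 hE hw
  · intro S _ φ hφ n hn hb e he w hw
    obtain ⟨G, -, -, hW, -⟩ := IsMin.arc (mkArc p.s.T S φ hφ n _ hn (Nat.lt_succ_self _) f) hb h
    exact G.F2 hW he hw

lemma finrank_inn (p : PSt) : finrank p.s.Z p.s.D ≤
    finrank p.s.Z (LinearMap.range (inn p.s.Z (co p.s.X []) (co p.s.Y []))) +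
      finrank p.s.Z (PP p.s.Z p.a0) := by
  rw [← (inn p.s.Z (co p.s.X []) (co p.s.Y [])).finrank_range_add_finrank_ker]
  apply Nat.add_le_add_left
  have hG : co p.G [] ≠ 0 := (p.hG.map cst).ne_zero
  have hl := congrArg (fun z => co z []) p.link
  simp only [co_mul_nil, co_add, co_C_nil, p.hb0, add_zero] at hl
  let c : p.s.D →ₗ[p.s.Z] p.s.D :=
    (LinearMap.mulLeft p.s.Z (co p.G [])⁻¹).comp (LinearMap.mulRight p.s.Z (co p.G []))
  have hc : Function.Injective c := fun a b h =>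
    mul_right_cancel₀ hG (mul_left_cancel₀ (inv_ne_zero hG) h)
  rw [LinearEquiv.finrank_eq (Submodule.equivMapOfInjective c hc _)]
  apply Submodule.finrank_mono (t := (PP p.s.Z p.a0).toSubmodule)
  rintro _ ⟨h, hh, rfl⟩
  have hh' : inn p.s.Z (co p.s.X []) (co p.s.Y []) h = 0 := hh
  rw [inn_apply, Prod.mk_eq_zero, sub_eq_zero, sub_eq_zero] at hh'
  have h1 : ∀ a ∈ Algebra.adjoin p.s.Z {p.s.X, p.s.Y}, h * co a [] = co a [] * h := by
    intro a ha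
    induction ha using Algebra.adjoin_induction with
    | mem x hx =>
      rcases hx with rfl | rfl
      · exact hh'.1
      · exact hh'.2
    | algebraMap r => rw [NPS.algebraMap_eq, co_C_nil, Algebra.commutes]
    | add x y _ _ hx hy => rw [co_add, mul_add, add_mul, hx, hy]
    | mul x y _ _ hx hy => rw [co_mul_nil, ← mul_assoc, hx, mul_assoc, hy, mul_assoc]
  apply (mem_PP (Z := p.s.Z)).2
  change (co p.G [])⁻¹ * (h * co p.G []) * p.a0 = p.a0 * ((co p.G [])⁻¹ * (h * co p.G []))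
  apply mul_left_cancel₀ hG
  rw [mul_assoc, mul_inv_cancel_left₀ hG, mul_assoc, ← hl, ← mul_assoc, h1 _ p.ha, ← mul_assoc,
    ← hl, mul_assoc, mul_assoc, mul_inv_cancel_left₀ hG]

lemma IsMin.exists_zero {f : p.s.σ → p.s.Z} (h : p.IsMin f) : ∃ p', Desc p p' ∧ p'.b = 0 := by
  set d := finrank p.s.Z p.s.D with hd
  let k := Fintype.card p.s.σ + 1 + (2 * d * d + 6 * d + 4)
  let A := mkArc0 p.s.T k (by omega) f
  have hb := mkArc0_hb p.s.T k (by omega) f p.hb0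
  obtain ⟨G, hE, hk, -, hmin, h1, h2, h3⟩ := IsMin.arc A hb h
  have hm : A.m = 2 * k := rfl
  have hP : finrank p.s.Z (PP p.s.Z p.a0) ≤ d := (PP p.s.Z p.a0).toSubmodule.finrank_le
  have hE' : finrank p.s.Z (EE p.s.Z p.b A.f1) ≤ d := (EE p.s.Z p.b A.f1).toSubmodule.finrank_le
  have hW : finrank p.s.Z (WW p.s.T p.b A.f1) ≤ d := Submodule.finrank_le _
  have h4 := A.finrank_D'
  have h5 := A.rk_le p.s.X p.s.Y
  have h6 := p.s.chi
  obtain ⟨φ, hφ, h7, h8⟩ := newton A.T' (A.Ψ p.s.X) (A.Ψ p.s.Y) (p.ctx A hb).b' A.f1' hmin.1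
    (p.ctx A hb).bd.b_nil hmin.HF.1 hmin.HF.2 (A.m * d + 1) ((A.m - 1) * A.m)
    (fun e he he0 => G.ND hE hk he he0)
    ((arith1 h4 h6).trans h5)
    (arith2 (h2.trans (Nat.mul_le_mul_left _ hE')) (h3.trans hW) (by omega))
  let p1 := p.arc A hb
  have h9 := p1.finrank_inn
  let s2 : St :=
    { Z := A.Z'
      D := A.D'
      T := A.T'
      σ := Fin (A.m * d + 1)
      X := subst hφ (A.Ψ p.s.X)
      Y := subst hφ (A.Ψ p.s.Y)
      chi := by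
        refine lt_of_lt_of_le ?_ h8
        refine lt_of_le_of_lt h9 (Nat.add_lt_add_left ?_ _)
        exact Nat.lt_succ_of_le (h1.trans (Nat.mul_le_mul_left _ hP)) }
  let M : Mor p1.s s2 := ⟨subst hφ, RingHom.id _, rfl, rfl, 
    fun z => subst_algebraMap (Z := A.Z') hφ z⟩
  exact ⟨⟨s2, M.Ψ p1.a, M.mem_adjoin p1.ha, p1.a0, 0, rfl,
    fun _ => (zero_mul _).trans (mul_zero _).symm, M.Ψ p1.G,
    p1.hG.map _, subst_link hφ p1.link h7⟩, (p.desc_arc A hb).trans ⟨M, rfl⟩, rfl⟩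

lemma exists_min_on {α : Type 1} (S : Set α) (hS : S.Nonempty) (f : α → ℕ) :
    ∃ q ∈ S, ∀ q' ∈ S, f q ≤ f q' :=
  ⟨Function.argminOn f S hS, Function.argminOn_mem f S hS,
    fun _ h => Function.argminOn_le f S h⟩

lemma exists_isMin (p : PSt) (h : ∃ p' f', Desc p p' ∧ lin p'.s.Z p'.b f' ≠ 0) :
    ∃ p' f', Desc p p' ∧ PSt.IsMin p' f' := by
  let S : Set (Σ p : PSt, p.s.σ → p.s.Z) := {q | Desc p q.1 ∧ lin q.1.s.Z q.1.b q.2 ≠ 0}
  obtain ⟨p0, f0, h0⟩ := h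
  obtain ⟨q1, h1, m1⟩ := exists_min_on S ⟨⟨p0, f0⟩, h0⟩ fun q => q.1.mu
  obtain ⟨q2, h2, m2⟩ := exists_min_on {q ∈ S | q.1.mu ≤ q1.1.mu} ⟨q1, h1, le_rfl⟩
    fun q => q.1.nu q.2
  obtain ⟨q3, h3, m3⟩ := exists_min_on {q ∈ S | q.1.mu ≤ q1.1.mu ∧ q.1.nu q.2 ≤ q2.1.nu q2.2}
    ⟨q2, h2.1, h2.2, le_rfl⟩ fun q => q.1.dep q.2
  obtain ⟨q4, h4, m4⟩ := exists_min_on {q ∈ S | q.1.mu ≤ q1.1.mu ∧ q.1.nu q.2 ≤ q2.1.nu q2.2 ∧
    q.1.dep q.2 ≤ q3.1.dep q3.2} ⟨q3, h3.1, h3.2.1, h3.2.2, le_rfl⟩ fun q => q.1.ww q.2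
  refine ⟨q4.1, q4.2, h4.1.1, h4.1.2, fun p' f' hd hv => ?_⟩
  have hS : (⟨p', f'⟩ : Σ p : PSt, p.s.σ → p.s.Z) ∈ S := ⟨h4.1.1.trans hd, hv⟩
  refine ⟨h4.2.1.trans (m1 _ hS), fun e1 => ?_⟩
  have e1' := e1.trans h4.2.1
  refine ⟨h4.2.2.1.trans (m2 _ ⟨hS, e1'⟩), fun e2 => ?_⟩
  have e2' := e2.trans h4.2.2.1
  refine ⟨h4.2.2.2.trans (m3 _ ⟨hS, e1', e2'⟩), fun e3 => ?_⟩
  exact m4 _ ⟨hS, e1', e2', e3.trans h4.2.2.2⟩

lemma exists_lin_ne (p : PSt) (hb : p.b ≠ 0) : ∃ p' f', Desc p p' ∧ lin p'.s.Z p'.b f' ≠ 0 := by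
  classical
  by_cases hl : ∀ i, co p.b [i] = 0
  swap
  · push Not at hl
    obtain ⟨i, hi⟩ := hl
    exact ⟨p, Pi.single i 1, Desc.refl p, by rwa [lin_single]⟩
  obtain ⟨w, hw, hw'⟩ := exists_min p.b hb
  have hn : 2 ≤ w.length := by
    rcases w with _ | ⟨a, _ | ⟨a', w⟩⟩
    · exact absurd p.hb0 hw
    · exact absurd (hl a) hw
    · simp
  let A := mkArc p.s.T p.s.σ _ subOK_var w.length _ hn (Nat.lt_succ_self _) 0
  have e : subst A.hφ p.b = p.b := subst_var _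
  have hb : subst A.hφ p.b ∈ (Filt.ord A.S p.s.D).I A.n := by
    rw [e]; exact Filt.mem_ord.2 hw'
  obtain ⟨δ, hδ⟩ := (p.ctx A hb).l'_ne0 hl (w := w) rfl (by
    change co (subst A.hφ p.b) w ≠ 0
    rw [e]; exact hw)
  exact ⟨p.arc A hb, δ, p.desc_arc A hb, hδ⟩

lemma exists_zero (p : PSt) : ∃ p', Desc p p' ∧ p'.b = 0 := by
  by_cases hb : p.b = 0
  · exact ⟨p, Desc.refl p, hb⟩
  obtain ⟨p1, f1, h1, h2⟩ := p.exists_isMin (p.exists_lin_ne hb)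
  obtain ⟨p2, h3, h4⟩ := h2.exists_zero
  exact ⟨p2, h1.trans h3, h4⟩

end PSt

theorem main_step (s : St) (a : s.R) (ha : a ∈ Algebra.adjoin s.Z {s.X, s.Y}) :
    ∃ (s' : St) (M : Mor s s') (q : Polynomial s'.Z),
      M.Ψ a = 0 ∨ M.Ψ a * Polynomial.aeval (M.Ψ a) q = 1 := by
  obtain ⟨g, b, bd⟩ := exists_BD s.T a
  obtain ⟨p, ⟨M, hM⟩, hb⟩ := PSt.exists_zero
    ⟨s, a, ha, co a [], b, bd.b_nil, bd.b_comm, g, isUnit_of_co_nil _ bd.g_nil, bd.eq⟩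
  have hl := p.link
  rw [hb, add_zero] at hl
  obtain ⟨u, hu⟩ := p.hG
  rw [← hu] at hl
  change M.Ψ a = p.a at hM
  by_cases h0 : p.a0 = 0
  · refine ⟨p.s, M, 0, Or.inl ?_⟩
    rw [h0, map_zero, mul_zero, Units.mul_left_eq_zero] at hl
    rw [hM, hl]
  obtain ⟨q, hq⟩ := exists_inv_poly (Z := p.s.Z) p.a0 h0
  refine ⟨p.s, M, q, Or.inr ?_⟩
  have h1 : ∀ q : Polynomial p.s.Z, Polynomial.aeval p.a q * (u : p.s.R) =
      (u : p.s.R) * C (Polynomial.aeval p.a0 q) := by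
    intro q
    induction q using Polynomial.induction_on with
    | C r => rw [Polynomial.aeval_C, Polynomial.aeval_C, ← NPS.algebraMap_eq, Algebra.commutes]
    | add q q' h1 h2 => simp only [map_add, add_mul, mul_add, h1, h2]
    | monomial n r h =>
      rw [pow_succ, ← mul_assoc, map_mul, map_mul (Polynomial.aeval p.a0), Polynomial.aeval_X,
        Polynomial.aeval_X, map_mul C, mul_assoc, hl, ← mul_assoc, h, mul_assoc]
  rw [hM, ← Units.mul_left_inj u, mul_assoc, h1, ← mul_assoc, hl, mul_assoc, ← map_mul, hq]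
  simp

end Vale.Agent.P199
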