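import Vale.Agent.P199.Lau

namespace Vale.Agent.P199

open Module TensorProduct

noncomputable def Lau.map {Z A : Type} [Field Z] [Ring A] [Algebra Z A] (f : A →+* A) :
    Lau Z A →+* Lau Z A := HSmap f

lemma Lau.co_map {Z A : Type} [Field Z] [Ring A] [Algebra Z A] (f : A →+* A) (x : Lau Z A)
    (k : ℤ) : Lau.co k (Lau.map f x) = f (Lau.co k x) := rfl

/-- generic cyclic Galois data -/
structure GalD {Z D : Type} [Field Z] [DivisionRing D] [Algebra Z D] (T : Tr Z D)
    (m : ℕ) (I : Type) where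
  K : Type
  [fK : Field K]
  [cK : CharZero K]
  E : Type
  [dE : DivisionRing E]
  [aE : Algebra K E]
  [fin : FiniteDimensional K E]
  T' : Tr K E
  x : Ext T T'
  sK : ZMod m → K →+* K
  sE : ZMod m → E →+* E
  sK_zero : ∀ k, sK 0 k = k
  sK_add : ∀ i j k, sK (i + j) k = sK i (sK j k)
  sE_zero : ∀ k, sE 0 k = k
  sE_add : ∀ i j k, sE (i + j) k = sE i (sE j k)
  sE_smul : ∀ i (k : K) e, sE i (k • e) = sK i k • sE i e
  sE_ι : ∀ i d, sE i (x.ι d) = x.ι d
  sK_ι : ∀ i z, sK i (x.ιZ z) = x.ιZ z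
  emb : MvPolynomial (I × ZMod m) Z →+* K
  emb_inj : Function.Injective emb
  emb_C : ∀ z, emb (MvPolynomial.C z) = x.ιZ z
  emb_X : ∀ i a j, sK i (emb (MvPolynomial.X (a, j))) = emb (MvPolynomial.X (a, j + i))

attribute [instance] GalD.fK GalD.cK GalD.dE GalD.aE GalD.fin

section Gen
variable (Z D : Type) [Field Z] [DivisionRing D] [Algebra Z D] [FiniteDimensional Z D] (J : Type)

abbrev GK : Type := FractionRing (MvPolynomial J Z)

def GE : Type := GK Z J ⊗[Z] D

noncomputable instance : Ring (GE Z D J) := inferInstanceAs (Ring (GK Z J ⊗[Z] D))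
noncomputable instance : Algebra (GK Z J) (GE Z D J) :=
  inferInstanceAs (Algebra (GK Z J) (GK Z J ⊗[Z] D))
instance : FiniteDimensional (GK Z J) (GE Z D J) :=
  inferInstanceAs (Module.Finite (GK Z J) (GK Z J ⊗[Z] D))

noncomputable def GEι : D →+* GE Z D J :=
  (Algebra.TensorProduct.includeRight : D →ₐ[Z] GK Z J ⊗[Z] D).toRingHom

variable {Z D J}

noncomputable def GElift (ρ : D →ₗ[Z] Z) : GE Z D J →ₗ[GK Z J] GK Z J :=
  (TensorProduct.AlgebraTensorModule.rid Z (GK Z J) (GK Z J)).toLinearMap.comp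
    (ρ.baseChange (GK Z J))

omit [FiniteDimensional Z D] in
lemma GElift_ι (ρ : D →ₗ[Z] Z) (d : D) :
    GElift ρ (GEι Z D J d) = algebraMap Z (GK Z J) (ρ d) := by
  change (TensorProduct.AlgebraTensorModule.rid Z (GK Z J) (GK Z J))
    (ρ.baseChange (GK Z J) (1 ⊗ₜ d)) = _
  simp [Algebra.algebraMap_eq_smul_one]

omit [FiniteDimensional Z D] in
lemma GEι_smul (z : Z) (d : D) :
    GEι Z D J (z • d) = algebraMap Z (GK Z J) z • GEι Z D J d := by
  change (1 : GK Z J) ⊗ₜ[Z] (z • d) = algebraMap Z (GK Z J) z • ((1 : GK Z J) ⊗ₜ[Z] d)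
  rw [tmul_smul, algebraMap_smul]

omit [FiniteDimensional Z D] in
lemma GE_span : Submodule.span (GK Z J) (Set.range (GEι Z D J)) = ⊤ := by
  rw [eq_top_iff]
  intro u hu
  clear hu
  induction u using TensorProduct.induction_on with
  | zero => exact Submodule.zero_mem _
  | add a b ha hb => exact Submodule.add_mem _ ha hb
  | tmul k d =>
    have : k ⊗ₜ[Z] d = k • ((1 : GK Z J) ⊗ₜ[Z] d) := by simp [smul_tmul']
    rw [this]
    exact Submodule.smul_mem _ _ (Submodule.subset_span ⟨d, rfl⟩)

lemma GE_repr (u : GE Z D J) :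
    u = ∑ i, GElift ((finBasis Z D).coord i) u • GEι Z D J (finBasis Z D i) := by
  have : (LinearMap.id : GE Z D J →ₗ[GK Z J] GE Z D J) =
      ∑ i, (GElift ((finBasis Z D).coord i)).smulRight (GEι Z D J (finBasis Z D i)) := by
    apply LinearMap.ext_on_range GE_span
    intro d
    simp only [LinearMap.id_apply, LinearMap.sum_apply, LinearMap.smulRight_apply, GElift_ι,
      ← GEι_smul, ← map_sum]
    simp
  simpa using LinearMap.congr_fun this u

lemma GE_clear (u : GE Z D J) (hu : u ≠ 0) : ∃ (q : GK Z J) (p : Fin (finrank Z D) → MvPolynomial J Z),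
    (∃ i, p i ≠ 0) ∧
    q • u = ∑ i, algebraMap _ (GK Z J) (p i) • GEι Z D J (finBasis Z D i) := by
  obtain ⟨q, hq⟩ := IsLocalization.exist_integer_multiples_of_finite
    (nonZeroDivisors (MvPolynomial J Z)) (fun i => GElift ((finBasis Z D).coord i) u)
  choose p hp using hq
  have hq0 : algebraMap (MvPolynomial J Z) (GK Z J) q ≠ 0 :=
    IsFractionRing.to_map_ne_zero_of_mem_nonZeroDivisors q.2
  have e : algebraMap (MvPolynomial J Z) (GK Z J) q • u =
      ∑ i, algebraMap _ (GK Z J) (p i) • GEι Z D J (finBasis Z D i) := by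
    conv_lhs => rw [GE_repr u]
    simp only [Finset.smul_sum, smul_smul, hp, Algebra.smul_def (q : MvPolynomial J Z)]
  refine ⟨algebraMap _ _ (q : MvPolynomial J Z), p, ?_, e⟩
  by_contra h
  push Not at h
  simp [h, hq0, hu] at e

instance [CharZero Z] : IsDomain (GE Z D J) := by
  have : NoZeroDivisors (GE Z D J) := by
    refine ⟨fun {u v} huv => ?_⟩
    by_contra hc
    push Not at hc
    obtain ⟨q, p, ⟨i, hi⟩, hp⟩ := GE_clear u hc.1
    obtain ⟨q', p', ⟨i', hi'⟩, hp'⟩ := GE_clear v hc.2
    have h0 : (q • u) * (q' • v) = 0 := by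
      rw [smul_mul_smul_comm, huv, smul_zero]
    rw [hp, hp'] at h0
    obtain ⟨pt, hpt⟩ : ∃ pt : J → Z, MvPolynomial.eval pt (p i * p' i') ≠ 0 := by
      by_contra h
      push Not at h
      exact mul_ne_zero hi hi' (MvPolynomial.funext (by simpa using h))
    rw [map_mul] at hpt
    let b := finBasis Z D
    have h1 : (∑ k, MvPolynomial.eval pt (p k) • b k) *
        (∑ k, MvPolynomial.eval pt (p' k) • b k) = 0 := by
      apply b.ext_elem
      intro r
      have h2 := congrArg (GElift (b.coord r)) h0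
      simp only [Finset.sum_mul_sum, smul_mul_smul_comm, ← map_mul, map_sum, map_smul, GElift_ι,
        smul_eq_mul, map_zero] at h2
      have h3 : ∑ k, ∑ l, p k * p' l * MvPolynomial.C (b.coord r (b k * b l)) = 0 := by
        apply IsFractionRing.injective (MvPolynomial J Z) (GK Z J)
        rw [map_zero, ← h2]
        simp only [map_sum, map_mul]
        rfl
      have h4 := congrArg (MvPolynomial.eval pt) h3
      simp only [map_sum, map_mul, MvPolynomial.eval_C, map_zero] at h4
      simp only [Finset.sum_mul_sum, smul_mul_smul_comm, map_sum, map_smul, map_zero]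
      simpa using h4
    rcases mul_eq_zero.1 h1 with h | h
    · have := congrArg (b.coord i) h
      simp [Finsupp.single_apply] at this
      simp [this] at hpt
    · have := congrArg (b.coord i') h
      simp [Finsupp.single_apply] at this
      simp [this] at hpt
  have : Nontrivial (GE Z D J) := inferInstanceAs (Nontrivial (GK Z J ⊗[Z] D))
  exact NoZeroDivisors.to_isDomain _

noncomputable instance [CharZero Z] : DivisionRing (GE Z D J) :=
  divisionRingOfFiniteDimensional (GK Z J) (GE Z D J)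

noncomputable def GEtr (T : Tr Z D) : Tr (GK Z J) (GE Z D J) where
  τ := GElift T.τ
  comm := tr_comm_of_span _ _ GE_span fun a b => by
    rw [← map_mul, ← map_mul, GElift_ι, GElift_ι, T.comm]
  one := by rw [← map_one (GEι Z D J), GElift_ι, T.one, map_one]

noncomputable def GKa (e : J ≃ J) : GK Z J →ₐ[Z] GK Z J :=
  IsFractionRing.algEquivOfAlgEquiv (K := GK Z J) (L := GK Z J) (MvPolynomial.renameEquiv Z e)

noncomputable def GKs (e : J ≃ J) : GK Z J →+* GK Z J := (GKa e).toRingHom

lemma GKs_alg (e : J ≃ J) (p : MvPolynomial J Z) :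
    GKs e (algebraMap _ (GK Z J) p) = algebraMap _ (GK Z J) (MvPolynomial.rename e p) := by
  simp [GKs, GKa]

lemma GKs_Z (e : J ≃ J) (z : Z) : GKs e (algebraMap Z (GK Z J) z) = algebraMap Z (GK Z J) z :=
  (GKa e).commutes z

noncomputable def GEs (e : J ≃ J) : GE Z D J →+* GE Z D J :=
  (Algebra.TensorProduct.map (GKa e) (AlgHom.id Z D)).toRingHom

omit [FiniteDimensional Z D] in
lemma GEs_smul_ι (e : J ≃ J) (k : GK Z J) (d : D) :
    GEs e (k • GEι Z D J d) = GKs e k • GEι Z D J d := by
  change Algebra.TensorProduct.map (GKa e) (AlgHom.id Z D) (k • ((1 : GK Z J) ⊗ₜ[Z] d)) =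
    GKa e k • ((1 : GK Z J) ⊗ₜ[Z] d)
  simp [smul_tmul']

lemma GEs_repr (e : J ≃ J) (k : GK Z J) (u : GE Z D J) : GEs e (k • u) =
    ∑ i, GKs e (k * GElift ((finBasis Z D).coord i) u) • GEι Z D J (finBasis Z D i) := by
  conv_lhs => rw [GE_repr u]
  simp only [Finset.smul_sum, smul_smul, map_sum, GEs_smul_ι]

end Gen

section Build
variable {Z D : Type} [Field Z] [CharZero Z] [DivisionRing D] [Algebra Z D] [FiniteDimensional Z D]

def shiftE (I : Type) {m : ℕ} (i : ZMod m) : I × ZMod m ≃ I × ZMod m :=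
  Equiv.prodCongr (Equiv.refl I) (Equiv.addRight i)

omit [CharZero Z] in
lemma GKs_zero (I : Type) (m : ℕ) (k : GK Z (I × ZMod m)) : GKs (shiftE I 0) k = k := by
  have : (GKs (shiftE I 0) : GK Z (I × ZMod m) →+* _) = RingHom.id _ := by
    apply IsFractionRing.ringHom_ext (A := MvPolynomial (I × ZMod m) Z)
    intro p
    have : (shiftE I (0 : ZMod m) : I × ZMod m → I × ZMod m) = id := by
      funext x; simp [shiftE]
    simp [GKs_alg, this]
  exact RingHom.congr_fun this k

omit [CharZero Z] in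
lemma GKs_add (I : Type) (m : ℕ) (i j : ZMod m) (k : GK Z (I × ZMod m)) :
    GKs (shiftE I (i + j)) k = GKs (shiftE I i) (GKs (shiftE I j) k) := by
  have : (GKs (shiftE I (i + j)) : GK Z (I × ZMod m) →+* _) =
      (GKs (shiftE I i) : GK Z (I × ZMod m) →+* _).comp (GKs (shiftE I j)) := by
    apply IsFractionRing.ringHom_ext (A := MvPolynomial (I × ZMod m) Z)
    intro p
    have : (shiftE I (i + j) : I × ZMod m → I × ZMod m) = shiftE I i ∘ shiftE I j := by
      funext ⟨a, b⟩; simp [shiftE, add_comm, add_left_comm]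
    simp [GKs_alg, this, MvPolynomial.rename_rename]
  exact RingHom.congr_fun this k

noncomputable def galGen (T : Tr Z D) (m : ℕ) (I : Type) : GalD T m I where
  K := GK Z (I × ZMod m)
  E := GE Z D (I × ZMod m)
  T' := GEtr T
  x :=
    { ιZ := algebraMap Z _
      ι := GEι Z D _
      smul := GEι_smul
      tr := GElift_ι _
      top := GE_span }
  sK i := GKs (shiftE I i)
  sE i := GEs (shiftE I i)
  sK_zero := GKs_zero I m
  sK_add := GKs_add I m
  sE_zero u := by
    have := GEs_repr (shiftE I (0 : ZMod m)) 1 u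
    simp only [one_smul, one_mul, GKs_zero] at this
    rw [this, ← GE_repr]
  sE_add i j u := by
    have h1 := GEs_repr (shiftE I (i + j)) 1 u
    have h2 := GEs_repr (shiftE I j) 1 u
    simp only [one_smul, one_mul] at h1 h2
    rw [h1, h2]
    simp only [map_sum, GEs_smul_ι, GKs_add]
  sE_smul i k u := by
    have h2 := GEs_repr (shiftE I i) 1 u
    simp only [one_smul, one_mul] at h2
    rw [GEs_repr, h2]
    simp [Finset.smul_sum, smul_smul]
  sE_ι i d := by simpa using GEs_smul_ι (shiftE I i) 1 d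
  sK_ι i z := GKs_Z _ z
  emb := algebraMap _ _
  emb_inj := IsFractionRing.injective _ _
  emb_C _ := rfl
  emb_X i a j := by
    rw [GKs_alg]
    simp [shiftE]

/-- Laurent extension of Galois data -/
noncomputable def GalD.lau {T : Tr Z D} {m : ℕ} {I : Type} (g : GalD T m I) : GalD T m I where
  K := HS g.K
  E := Lau g.K g.E
  T' := Lau.tr g.T'
  x :=
    { ιZ := (HahnSeries.C : g.K →+* HS g.K).comp g.x.ιZ
      ι := Lau.Cst.comp g.x.ι
      smul := fun z d => by simp only [RingHom.comp_apply, g.x.smul, Lau.Cst_smul]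
      tr := fun d => by
        simp only [RingHom.comp_apply]
        rw [← g.x.tr]
        exact Lau.liftF_Cst _ _
      top := by
        rw [eq_top_iff, ← Lau.span_Cst, Submodule.span_le]
        rintro _ ⟨e, rfl⟩
        have : e ∈ g.x.bc ⊤ := by rw [g.x.bc_top]; trivial
        refine g.x.bc_ind (p := fun e => Lau.Cst e ∈ Submodule.span (HS g.K)
          (Set.range ((Lau.Cst : g.E →+* Lau g.K g.E).comp g.x.ι))) ?_ (by simp) ?_ ?_ this
        · intro d _; exact Submodule.subset_span ⟨d, rfl⟩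
        · intro a b ha hb; rw [map_add]; exact Submodule.add_mem _ ha hb
        · intro k a ha; rw [Lau.Cst_smul]; exact Submodule.smul_mem _ _ ha }
  sK i := HSmap (g.sK i)
  sE i := Lau.map (g.sE i)
  sK_zero k := by ext n; simp [g.sK_zero]
  sK_add i j k := by ext n; simp [g.sK_add]
  sE_zero k := Lau.ext fun n => g.sE_zero _
  sE_add i j k := Lau.ext fun n => g.sE_add _ _ _
  sE_smul i k e := by
    rw [Algebra.smul_def, Algebra.smul_def, map_mul]
    congr 1
    refine Lau.ext fun n => ?_
    change g.sE i (algebraMap _ _ (k.coeff n)) = algebraMap _ _ (g.sK i (k.coeff n))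
    rw [Algebra.algebraMap_eq_smul_one, g.sE_smul, map_one, Algebra.algebraMap_eq_smul_one]
  sE_ι i d := by
    refine Lau.ext fun n => ?_
    change Lau.co n (Lau.map (g.sE i) (Lau.Cst (g.x.ι d))) = Lau.co n (Lau.Cst (g.x.ι d))
    rw [Lau.co_map, Lau.co_Cst]
    split_ifs <;> simp [g.sE_ι]
  sK_ι i z := by
    change HahnSeries.map (HahnSeries.C _) _ = _
    rw [HahnSeries.map_C, g.sK_ι]; rfl
  emb := (HahnSeries.C : g.K →+* HS g.K).comp g.emb
  emb_inj := HahnSeries.C_injective.comp g.emb_inj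
  emb_C z := by simp only [RingHom.comp_apply, g.emb_C]
  emb_X i a j := by
    change HahnSeries.map (HahnSeries.C _) _ = _
    rw [HahnSeries.map_C, g.emb_X]; rfl

end Build

end Vale.Agent.P199
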