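import Vale.Agent.P199.An1

namespace Vale.Agent.P199

open Module

section
variable {Z : Type} [Field Z]

lemma finrank_map_add_inf {M N : Type} [AddCommGroup M] [Module Z M] [AddCommGroup N] [Module Z N]
    [FiniteDimensional Z M] (f : M →ₗ[Z] N) (S : Submodule Z M) :
    finrank Z (S.map f) + finrank Z (S ⊓ LinearMap.ker f : Submodule Z M) = finrank Z S := by
  have e := (f.domRestrict S).finrank_range_add_finrank_ker
  rw [LinearMap.range_domRestrict, ← Submodule.finrank_map_subtype_eq, LinearMap.ker_domRestrict,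
    Submodule.map_comap_subtype] at e
  exact e

lemma exists_eps [Infinite Z] {V B : Type} [AddCommGroup V] [Module Z V] [AddCommGroup B]
    [Module Z B] [FiniteDimensional Z V] (f0 f1 : V →ₗ[Z] B) (h : Function.Injective f0) :
    ∃ ε : Z, ε ≠ 0 ∧ Function.Injective (f0 + ε • f1) := by
  obtain ⟨g, hg⟩ := f0.exists_leftInverse_of_injective (LinearMap.ker_eq_bot.2 h)
  have hfin := (Module.End.finite_hasEigenvalue (g.comp f1)).insert 0
  obtain ⟨μ, hμ⟩ := hfin.infinite_compl.nonempty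
  simp only [Set.mem_compl_iff, Set.mem_insert_iff, not_or] at hμ
  refine ⟨-μ⁻¹, by simpa using hμ.1, ?_⟩
  rw [injective_iff_map_eq_zero]
  intro x hx
  by_contra hx0
  apply hμ.2
  apply Module.End.hasEigenvalue_of_hasEigenvector (x := x)
  refine ⟨Module.End.mem_eigenspace_iff.2 ?_, hx0⟩
  have h1 := congrArg g hx
  have h2 : g (f0 x) = x := LinearMap.congr_fun hg x
  simp only [LinearMap.add_apply, LinearMap.smul_apply, map_add, map_smul, h2, map_zero] at h1
  rw [neg_smul, ← sub_eq_add_neg, sub_eq_zero] at h1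
  conv_rhs => rw [h1]
  rw [smul_smul, mul_inv_cancel₀ hμ.1, one_smul]
  rfl

lemma exists_inj [Infinite Z] {Q A B : Type} [AddCommGroup Q] [Module Z Q] [AddCommGroup A]
    [Module Z A] [AddCommGroup B] [Module Z B] [FiniteDimensional Z A] (M : Q →ₗ[Z] A →ₗ[Z] B)
    (h : ∀ a, a ≠ 0 → ∀ q0, ∃ q, M q a ∉ LinearMap.range (M q0)) :
    ∃ q, Function.Injective (M q) := by
  classical
  have hex : ∃ n, ∃ q, finrank Z (LinearMap.ker (M q)) = n := ⟨_, 0, rfl⟩
  obtain ⟨q0, hq0⟩ := Nat.find_spec hex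
  refine ⟨q0, ?_⟩
  by_contra hc
  rw [← LinearMap.ker_eq_bot] at hc
  obtain ⟨a0, ha0, ha0'⟩ := Submodule.exists_mem_ne_zero_of_ne_bot hc
  obtain ⟨q, hq⟩ := h a0 ha0' q0
  obtain ⟨U, hU⟩ := (LinearMap.ker (M q0)).exists_isCompl
  let f0 : (U × Z) →ₗ[Z] B := ((M q0).comp U.subtype).coprod (LinearMap.toSpanSingleton Z B (M q a0))
  let f1 : (U × Z) →ₗ[Z] B := ((M q).comp U.subtype).coprod 0
  have h0 : Function.Injective f0 := by
    rw [injective_iff_map_eq_zero]
    rintro ⟨u, c⟩ huc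
    change M q0 u + c • M q a0 = 0 at huc
    have hc0 : c = 0 := by
      by_contra hc0
      apply hq
      refine ⟨-(c⁻¹ • (u : A)), ?_⟩
      rw [map_neg, map_smul, eq_neg_of_add_eq_zero_left huc, smul_neg, neg_neg, smul_smul,
        inv_mul_cancel₀ hc0, one_smul]
    rw [hc0, zero_smul, add_zero] at huc
    have : (u : A) = 0 := Submodule.disjoint_def.1 hU.disjoint _ huc u.2
    ext <;> simp [this, hc0]
  obtain ⟨ε, hε, hinj⟩ := exists_eps f0 f1 h0
  have h1 : LinearMap.range (f0 + ε • f1) ≤ LinearMap.range (M (q0 + ε • q)) := by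
    rintro _ ⟨⟨u, c⟩, rfl⟩
    refine ⟨u + (c / ε) • a0, ?_⟩
    change _ = (M q0 u + c • M q a0) + ε • (M q u + 0)
    have : M q0 a0 = 0 := ha0
    simp only [map_add, map_smul, LinearMap.add_apply, LinearMap.smul_apply, this, smul_smul,
      zero_add, div_mul_cancel₀ c hε, add_zero]
    abel
  have h2 := Submodule.finrank_mono h1
  rw [LinearMap.finrank_range_of_inj hinj, finrank_prod, finrank_self] at h2
  have h3 := (M (q0 + ε • q)).finrank_range_add_finrank_ker
  have h4 := Submodule.finrank_add_eq_of_isCompl hU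
  have h5 := Nat.find_min' hex ⟨q0 + ε • q, rfl⟩
  omega

lemma greedy [CharZero Z] {V A B Cc : Type} [AddCommGroup V] [Module Z V] [AddCommGroup A]
    [Module Z A] [AddCommGroup B] [Module Z B] [AddCommGroup Cc] [Module Z Cc]
    [FiniteDimensional Z V] [FiniteDimensional Z A] [FiniteDimensional Z B]
    [FiniteDimensional Z Cc] (M : V →ₗ[Z] A →ₗ[Z] B) (Cs : V →ₗ[Z] V →ₗ[Z] Cc) (V0 : Submodule Z V)
    (anti : ∀ p ∈ V0, ∀ q ∈ V0, Cs p q + Cs q p = 0) (g : ℕ)
    (big : ∀ a, a ≠ 0 → ∀ Q : Submodule Z V, finrank Z V0 ≤ finrank Z Q + g * finrank Z Cc →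
      ∀ I : Submodule Z B, finrank Z I ≤ (g + 1) * finrank Z A → ∃ q ∈ Q, M q a ∉ I)
    (j : ℕ) (hj : j ≤ g) : ∃ p : Fin j → V, (∀ a, p a ∈ V0) ∧ (∀ a b, Cs (p a) (p b) = 0) ∧
      ∀ x : Fin j → A, ∑ a, M (p a) (x a) = 0 → x = 0 := by
  induction j with
  | zero => exact ⟨Fin.elim0, by simp, by simp, fun x _ => Subsingleton.elim _ _⟩
  | succ j ih =>
    obtain ⟨p, h1, h2, h3⟩ := ih (by omega)
    let G : V →ₗ[Z] (Fin j → Cc) := LinearMap.pi fun a => Cs (p a)
    let Q := V0 ⊓ LinearMap.ker G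
    have hQ : finrank Z V0 ≤ finrank Z Q + g * finrank Z Cc := by
      have e := finrank_map_add_inf G V0
      have e2 := (V0.map G).finrank_le
      rw [Module.finrank_pi_fintype] at e2
      simp only [Finset.sum_const, Finset.card_univ, Fintype.card_fin, smul_eq_mul] at e2
      have : j * finrank Z Cc ≤ g * finrank Z Cc := Nat.mul_le_mul_right _ (by omega)
      change finrank Z V0 ≤ finrank Z (V0 ⊓ LinearMap.ker G : Submodule Z V) + _
      omega
    let H : (Fin j → A) →ₗ[Z] B := ∑ a, (M (p a)).comp (LinearMap.proj a)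
    have hH : ∀ x, H x = ∑ a, M (p a) (x a) := fun x => by simp [H]
    let F := LinearMap.range H
    have hF : finrank Z F ≤ j * finrank Z A := by
      have e2 := H.finrank_range_le
      rw [Module.finrank_pi_fintype] at e2
      simpa using e2
    obtain ⟨q, hq⟩ := exists_inj ((M.domRestrict Q).compr₂ F.mkQ) fun a ha q0 => by
      obtain ⟨q, hq, hq'⟩ := big a ha Q hQ (F ⊔ LinearMap.range (M q0)) (by
        have e1 := Submodule.finrank_add_le_finrank_add_finrank F (LinearMap.range (M q0))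
        have e2 := (M q0).finrank_range_le
        have : j * finrank Z A ≤ g * finrank Z A := Nat.mul_le_mul_right _ (by omega)
        rw [add_mul]
        omega)
      refine ⟨⟨q, hq⟩, ?_⟩
      rintro ⟨a', ha'⟩
      apply hq'
      change F.mkQ (M q0 a') = F.mkQ (M q a) at ha'
      rw [Submodule.mkQ_apply, Submodule.mkQ_apply, eq_comm, Submodule.Quotient.eq] at ha'
      have := Submodule.add_mem_sup ha' (LinearMap.mem_range_self (M q0) a')
      simpa using this
    have hq0 : (q : V) ∈ V0 := q.2.1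
    have hq1 : ∀ a, Cs (p a) q = 0 := fun a => congrFun (show G q = 0 from q.2.2) a
    refine ⟨Fin.cons q p, fun a => Fin.cases hq0 h1 a, fun a b => ?_, fun x hx => ?_⟩
    · refine Fin.cases ?_ (fun a => ?_) a <;> refine Fin.cases ?_ (fun b => ?_) b
      · have := anti q hq0 q hq0
        rw [← two_smul Z, smul_eq_zero] at this
        exact this.resolve_left two_ne_zero
      · have := anti q hq0 (p b) (h1 b)
        rwa [hq1, add_zero] at this
      · exact hq1 a
      · exact h2 a b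
    · rw [Fin.sum_univ_succ] at hx
      simp only [Fin.cons_zero, Fin.cons_succ] at hx
      have h0 : x 0 = 0 := by
        apply (injective_iff_map_eq_zero _).1 hq
        change F.mkQ (M q (x 0)) = 0
        rw [Submodule.mkQ_apply, Submodule.Quotient.mk_eq_zero, eq_neg_of_add_eq_zero_left hx]
        exact neg_mem ⟨fun a => x a.succ, hH _⟩
      rw [h0, map_zero, zero_add] at hx
      have := h3 _ hx
      funext a
      exact Fin.cases h0 (fun a => congrFun this a) a

lemma greedy2 [CharZero Z] {V W H : Type} [AddCommGroup V] [Module Z V] [AddCommGroup W]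
    [Module Z W] [AddCommGroup H] [Module Z H] [FiniteDimensional Z V] [FiniteDimensional Z W]
    [FiniteDimensional Z H] (ω : V →ₗ[Z] V →ₗ[Z] W →ₗ[Z] Z) (lam : V →ₗ[Z] H) (V0 : Submodule Z V)
    (anti : ∀ p ∈ V0, ∀ q ∈ V0, ω p q + ω q p = 0) (g N R : ℕ)
    (hR : finrank Z V ≤ finrank Z V0 + R) (hlam : N ≤ finrank Z (LinearMap.range lam))
    (nd : ∀ e, e ≠ 0 → ∃ Θ : Submodule Z V, N ≤ finrank Z Θ ∧
      ∀ q ∈ Θ, q ≠ 0 → ∃ δ, ω δ q e ≠ 0)
    (hN : 2 * R + g * finrank Z W + (g + 1) * (finrank Z W + 1) < N) :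
    ∃ p : Fin g → V, (∀ a, p a ∈ V0) ∧ (∀ a b, ω (p a) (p b) = 0) ∧
      (∀ ψ : Fin g → W →ₗ[Z] Z, ∃ κ ∈ V0, ∀ a, ω κ (p a) = ψ a) ∧
      LinearIndependent Z fun a => lam (p a) := by
  let M : V →ₗ[Z] (W × Z) →ₗ[Z] (V0 →ₗ[Z] Z) × H := LinearMap.mk₂ Z
    (fun q a => (((ω.flip q).flip a.1).comp V0.subtype, a.2 • lam q))
    (fun q q' a => by ext <;> simp) (fun z q a => by ext <;> simp [smul_comm z])
    (fun q a a' => by ext <;> simp [add_smul]) (fun z q a => by ext <;> simp [mul_smul])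
  have hM1 : ∀ q a (κ : V0), (M q a).1 κ = ω κ q a.1 := fun _ _ _ => rfl
  have hM2 : ∀ q a, (M q a).2 = a.2 • lam q := fun _ _ => rfl
  obtain ⟨p, h1, h2, h3⟩ := greedy M ω V0 anti g (fun a ha Q hQ I hI => by
    rw [Subspace.dual_finrank_eq] at hQ
    rw [finrank_prod, finrank_self] at hI
    by_contra hc
    push Not at hc
    by_cases he : a.1 = 0
    · have hα : a.2 ≠ 0 := fun h => ha (Prod.ext he h)
      have e1 := finrank_map_add_inf lam Q
      have e2 := lam.finrank_range_add_finrank_ker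
      have e3 : finrank Z (Q ⊓ LinearMap.ker lam : Submodule Z V) ≤ finrank Z (LinearMap.ker lam) :=
        Submodule.finrank_mono inf_le_right
      have e4 : Q.map lam ≤ I.map (LinearMap.snd Z _ _) := by
        rintro _ ⟨q, hq, rfl⟩
        refine ⟨a.2⁻¹ • M q a, I.smul_mem _ (hc q hq), ?_⟩
        rw [map_smul, LinearMap.snd_apply, hM2, smul_smul, inv_mul_cancel₀ hα, one_smul]
      have e5 := (Submodule.finrank_mono e4).trans (Submodule.finrank_map_le _ _)
      omega
    · obtain ⟨Θ, hΘ, hΘ'⟩ := nd a.1 he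
      let G : V →ₗ[Z] V0 →ₗ[Z] Z := (LinearMap.fst Z _ _).comp (M.flip a)
      let G' : V →ₗ[Z] V →ₗ[Z] Z := (ω.compr₂ (LinearMap.applyₗ a.1)).flip
      have e1 := finrank_map_add_inf G (Q ⊓ Θ)
      have e2 := Submodule.finrank_sup_add_finrank_inf_eq Q Θ
      have e3 := (Q ⊔ Θ).finrank_le
      have e4 : (Q ⊓ Θ).map G ≤ I.map (LinearMap.fst Z _ _) := by
        rintro _ ⟨q, hq, rfl⟩
        exact ⟨M q a, hc q hq.1, rfl⟩
      have e5 := (Submodule.finrank_mono e4).trans (Submodule.finrank_map_le _ _)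
      have e6 := finrank_map_add_inf G' (Q ⊓ Θ ⊓ LinearMap.ker G)
      have e7 : Q ⊓ Θ ⊓ LinearMap.ker G ⊓ LinearMap.ker G' = ⊥ := by
        rw [eq_bot_iff]
        intro q hq
        by_contra h0
        obtain ⟨δ, hδ⟩ := hΘ' q hq.1.1.2 h0
        exact hδ (LinearMap.congr_fun hq.2 δ)
      have e8 : (Q ⊓ Θ ⊓ LinearMap.ker G).map G' ≤ V0.dualAnnihilator := by
        rintro _ ⟨q, hq, rfl⟩
        rw [Submodule.mem_dualAnnihilator]
        intro κ hκ
        exact LinearMap.congr_fun hq.2 ⟨κ, hκ⟩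
      have e9 := (Nat.add_le_add_left (Submodule.finrank_mono e8) _).trans_eq
        (Subspace.finrank_add_finrank_dualAnnihilator_eq V0)
      rw [e7, finrank_bot] at e6
      omega) g le_rfl
  refine ⟨p, h1, h2, fun ψ => ?_, ?_⟩
  · let Bf : (Fin g → W) →ₗ[Z] V0 →ₗ[Z] Z :=
      ∑ a, ((ω.flip (p a)).flip.compl₂ V0.subtype).comp (LinearMap.proj a)
    have hBf : ∀ x κ, Bf x κ = ∑ a, ω κ (p a) (x a) := fun x κ => by simp [Bf]
    have hinj : Function.Injective Bf := by
      rw [injective_iff_map_eq_zero]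
      intro x hx
      have := h3 (fun a => (x a, 0)) (by
        ext κ
        · rw [Prod.fst_sum, LinearMap.sum_apply]
          exact (hBf x κ).symm.trans (by rw [hx]; rfl)
        · simp [Prod.snd_sum, hM2])
      funext a
      exact congrArg Prod.fst (congrFun this a)
    obtain ⟨κ, hκ⟩ := LinearMap.flip_surjective_iff₁.2 hinj (∑ a, (ψ a).comp (LinearMap.proj a))
    refine ⟨κ, κ.2, fun a => ?_⟩
    ext e
    have := LinearMap.congr_fun hκ (Pi.single a e)
    rw [LinearMap.flip_apply, hBf, LinearMap.sum_apply, Finset.sum_eq_single a,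
      Finset.sum_eq_single a] at this
    · simpa using this
    · intro b _ hb; simp [hb]
    · simp
    · intro b _ hb; simp [hb]
    · simp
  · rw [Fintype.linearIndependent_iff]
    intro α hα a
    have := h3 (fun a => (0, α a)) (by
      ext κ
      · simp [Prod.fst_sum, hM1]
      · simpa [Prod.snd_sum, hM2] using hα)
    exact congrArg Prod.snd (congrFun this a)

end

end Vale.Agent.P199
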