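import Vale.Agent.P199.Tr

namespace Vale.Agent.P199

open Module

abbrev HS (R : Type) [Zero R] : Type := HahnSeries ℤ R

section HS
variable {R S : Type} [Ring R] [Ring S]

/-- series of order at least `n` -/
def HGe (R : Type) [Ring R] (n : ℤ) : AddSubgroup (HS R) where
  carrier := {x | ∀ k < n, x.coeff k = 0}
  add_mem' ha hb k hk := by simp [ha k hk, hb k hk]
  zero_mem' k _ := by simp
  neg_mem' ha k hk := by simp [ha k hk]

lemma mem_HGe {n : ℤ} {x : HS R} : x ∈ HGe R n ↔ ∀ k < n, x.coeff k = 0 := Iff.rfl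

lemma HGe_anti {n k : ℤ} (h : n ≤ k) {x : HS R} (hx : x ∈ HGe R k) : x ∈ HGe R n :=
  fun j hj => hx j (by omega)

lemma HGe_mul {a b : ℤ} {x y : HS R} (hx : x ∈ HGe R a) (hy : y ∈ HGe R b) :
    x * y ∈ HGe R (a + b) := by
  intro k hk
  rw [HahnSeries.coeff_mul]
  apply Finset.sum_eq_zero
  rintro ⟨i, j⟩ hij
  rw [Finset.mem_antidiagonal] at hij
  by_cases hi : i < a
  · simp [hx i hi]
  · have := hij.2.2
    simp only at this
    simp [hy j (by omega)]

lemma HGe_coeff_mul {a b : ℤ} {x y : HS R} (hx : x ∈ HGe R a) (hy : y ∈ HGe R b) :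
    (x * y).coeff (a + b) = x.coeff a * y.coeff b := by
  rw [HahnSeries.coeff_mul, Finset.sum_eq_single (a, b)]
  · rintro ⟨i, j⟩ hij hne
    rw [Finset.mem_antidiagonal] at hij
    have := hij.2.2
    simp only at this
    by_cases hi : i < a
    · simp [hx i hi]
    · have : j < b := by
        by_contra hj
        apply hne
        ext <;> simp <;> omega
      simp [hy j this]
  · intro h
    rw [Finset.mem_antidiagonal] at h
    simp only [HahnSeries.mem_support, and_true, not_and, ne_eq, not_not] at h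
    by_cases hx0 : x.coeff a = 0
    · simp [hx0]
    · simp [h hx0]

lemma HGe_single (n : ℤ) (r : R) : HahnSeries.single n r ∈ HGe R n := fun k hk =>
  HahnSeries.coeff_single_of_ne (by omega)

lemma HGe_coeff_mul_one {x y : HS R} (hx : x ∈ HGe R 0) (hy : y ∈ HGe R 0) :
    (x * y).coeff 1 = x.coeff 0 * y.coeff 1 + x.coeff 1 * y.coeff 0 := by
  have h1 : x - HahnSeries.single 0 (x.coeff 0) ∈ HGe R 1 := by
    intro k hk
    by_cases h0 : k = 0
    · simp [h0]
    · simp [HahnSeries.coeff_single_of_ne h0, hx k (by omega)]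
  have h2 := HGe_coeff_mul h1 hy
  rw [sub_mul, add_zero, HahnSeries.coeff_sub, HahnSeries.coeff_single_zero_mul] at h2
  rw [sub_eq_iff_eq_add] at h2
  rw [h2]
  simp [add_comm]

lemma HS_comm {x y : HS R} (h : ∀ i j, x.coeff i * y.coeff j = y.coeff j * x.coeff i) :
    x * y = y * x := by
  ext
  simp_rw [HahnSeries.coeff_mul, h]
  exact Finset.sum_equiv (Equiv.prodComm _ _) (fun _ ↦ Finset.swap_mem_antidiagonal.symm) <| by simp

lemma HS_exists_lead {x : HS R} (hx : x ≠ 0) : ∃ n, x ∈ HGe R n ∧ x.coeff n ≠ 0 :=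
  ⟨x.order, fun _ hk => HahnSeries.coeff_eq_zero_of_lt_order hk,
    fun h => hx (HahnSeries.coeff_order_eq_zero.1 h)⟩

lemma HS_exists_ge (x : HS R) : ∃ n, x ∈ HGe R n :=
  ⟨x.order, fun _ hk => HahnSeries.coeff_eq_zero_of_lt_order hk⟩

/-- coefficientwise ring homomorphism -/
noncomputable def HSmap (f : R →+* S) : HS R →+* HS S where
  toFun x := x.map f
  map_one' := HahnSeries.map_one f.toMonoidWithZeroHom
  map_mul' _ _ := HahnSeries.map_mul f.toNonUnitalRingHom
  map_zero' := by ext; simp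
  map_add' x y := by ext; simp

@[simp] lemma HSmap_coeff (f : R →+* S) (x : HS R) (k : ℤ) :
    (HSmap f x).coeff k = f (x.coeff k) := rfl

/-- the order filtration -/
noncomputable def HSF (R : Type) [Ring R] : Filt (HS R) where
  I n := HGe R n
  anti h _ hx := HGe_anti (by exact_mod_cast h) hx
  mul_mem hx hy := by push_cast; exact HGe_mul hx hy
  one_mem := HGe_single 0 1
  sep x h := by
    ext k
    exact h (k.toNat + 1) k (by omega)
  complete x h := by
    have tel : ∀ n k : ℕ, n ≤ k → x k - x n ∈ HGe R n := by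
      intro n k hk
      induction k, hk using Nat.le_induction with
      | base => simp
      | succ k hk ih =>
        have := (HGe R n).add_mem (HGe_anti (by exact_mod_cast hk) (h k)) ih
        simpa using this
    obtain ⟨N, hN⟩ := HS_exists_ge (x 0)
    refine ⟨HahnSeries.ofSuppBddBelow (fun k => (x (k.toNat + 1)).coeff k)
      (HahnSeries.forallLTEqZero_supp_BddBelow _ (min N 0) fun k hk => ?_), fun n k hk => ?_⟩
    · have := tel 0 (k.toNat + 1) (by omega) k (by omega)
      rw [HahnSeries.coeff_sub, hN k (by omega), sub_zero] at this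
      exact this
    · rw [HahnSeries.coeff_sub, HahnSeries.coeff_ofSuppBddBelow]
      by_cases hle : k.toNat + 1 ≤ n
      · have := tel _ _ hle k (by omega)
        rw [HahnSeries.coeff_sub, sub_eq_zero] at this
        simp [this]
      · have := tel n (k.toNat + 1) (by omega) k hk
        rwa [HahnSeries.coeff_sub] at this

/-- powers of the uniformiser -/
noncomputable def tt (R : Type) [Ring R] (n : ℤ) : HS R := HahnSeries.single n 1

lemma tt_mul (a b : ℤ) : tt R a * tt R b = tt R (a + b) := by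
  simp [tt, HahnSeries.single_mul_single]

@[simp] lemma tt_zero : tt R 0 = 1 := rfl

lemma tt_ne_zero [Nontrivial R] (a : ℤ) : tt R a ≠ 0 := HahnSeries.single_ne_zero one_ne_zero

lemma coeff_tt_mul (a k : ℤ) (x : HS R) : (tt R a * x).coeff k = x.coeff (k - a) := by
  rw [tt, HahnSeries.coeff_single_mul, one_mul]

lemma HS_norm_family {α : Type} [Fintype α] (z : α → HS R) (hz : z ≠ 0) :
    ∃ n, (∀ i, tt R n * z i ∈ HGe R 0) ∧ ∃ i, (tt R n * z i).coeff 0 ≠ 0 := by
  classical
  have hne : (Finset.univ.filter fun i => z i ≠ 0).Nonempty := by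
    by_contra h
    apply hz
    funext i
    by_contra hi
    exact h ⟨i, by simpa using hi⟩
  obtain ⟨i, hi, hmin⟩ := Finset.exists_min_image _ (fun i => (z i).order) hne
  refine ⟨-(z i).order, fun j k hk => ?_, i, ?_⟩
  · rw [coeff_tt_mul]
    by_cases hj : z j = 0
    · simp [hj]
    · have := hmin j (by simpa using hj)
      exact HahnSeries.coeff_eq_zero_of_lt_order (by omega)
  · rw [coeff_tt_mul]
    simpa using (Finset.mem_filter.1 hi).2

instance {Z : Type} [Field Z] [CharZero Z] : CharZero (HS Z) :=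
  (RingHom.charZero_iff (ϕ := (HahnSeries.C : Z →+* HS Z)) HahnSeries.C_injective).1 inferInstance

end HS

lemma tr_comm_of_span {K E D : Type} [Field K] [Ring E] [Algebra K E] (τ : E →ₗ[K] K) (ι : D → E)
    (top : Submodule.span K (Set.range ι) = ⊤) (h : ∀ a b, τ (ι a * ι b) = τ (ι b * ι a))
    (x y : E) : τ (x * y) = τ (y * x) := by
  have e : (LinearMap.mul K E).compr₂ τ = (LinearMap.mul K E).flip.compr₂ τ := by
    apply LinearMap.ext_on_range top
    intro a
    apply LinearMap.ext_on_range top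
    intro b
    simpa using h a b
  simpa using LinearMap.congr_fun₂ e x y

/-- Laurent series with coefficients in an algebra -/
def Lau (Z A : Type) [Field Z] [Ring A] [Algebra Z A] : Type := HS A

namespace Lau
section R
variable {Z A : Type} [Field Z] [Ring A] [Algebra Z A]

noncomputable instance : Ring (Lau Z A) := inferInstanceAs (Ring (HS A))

noncomputable instance : Algebra (HS Z) (Lau Z A) :=
  RingHom.toAlgebra' (show HS Z →+* Lau Z A from HSmap (algebraMap Z A)) fun z x =>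
    HS_comm (R := A) fun _ _ => Algebra.commutes _ _

instance [IsDomain A] : IsDomain (Lau Z A) := inferInstanceAs (IsDomain (HS A))

def toHS (x : Lau Z A) : HS A := x

def co (k : ℤ) : Lau Z A →+ A where
  toFun x := HahnSeries.coeff (toHS x) k
  map_zero' := rfl
  map_add' _ _ := rfl

@[ext] lemma ext {x y : Lau Z A} (h : ∀ k, co k x = co k y) : x = y :=
  HahnSeries.ext (funext h)

def J (Z A : Type) [Field Z] [Ring A] [Algebra Z A] (n : ℤ) : AddSubgroup (Lau Z A) := HGe A n

lemma mem_J {n : ℤ} {x : Lau Z A} : x ∈ J Z A n ↔ ∀ k < n, co k x = 0 := Iff.rfl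

lemma J_anti {n k : ℤ} (h : n ≤ k) {x : Lau Z A} (hx : x ∈ J Z A k) : x ∈ J Z A n :=
  HGe_anti h hx

lemma J_mul {a b : ℤ} {x y : Lau Z A} (hx : x ∈ J Z A a) (hy : y ∈ J Z A b) :
    x * y ∈ J Z A (a + b) := HGe_mul hx hy

lemma J_mul0 {x y : Lau Z A} (hx : x ∈ J Z A 0) (hy : y ∈ J Z A 0) : x * y ∈ J Z A 0 :=
  J_mul hx hy

lemma co_mul {a b : ℤ} {x y : Lau Z A} (hx : x ∈ J Z A a) (hy : y ∈ J Z A b) :
    co (a + b) (x * y) = co a x * co b y := HGe_coeff_mul hx hy

lemma co_mul0 {x y : Lau Z A} (hx : x ∈ J Z A 0) (hy : y ∈ J Z A 0) :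
    co 0 (x * y) = co 0 x * co 0 y := co_mul hx hy

lemma co_mul1 {x y : Lau Z A} (hx : x ∈ J Z A 0) (hy : y ∈ J Z A 0) :
    co 1 (x * y) = co 0 x * co 1 y + co 1 x * co 0 y := HGe_coeff_mul_one hx hy

noncomputable def F (Z A : Type) [Field Z] [Ring A] [Algebra Z A] : Filt (Lau Z A) := HSF A

lemma mem_F {n : ℕ} {x : Lau Z A} : x ∈ (F Z A).I n ↔ x ∈ J Z A n := Iff.rfl

noncomputable def Cst : A →+* Lau Z A := (HahnSeries.C : A →+* HS A)

lemma co_Cst (k : ℤ) (a : A) : co k (Cst a : Lau Z A) = if k = 0 then a else 0 := by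
  change (HahnSeries.single 0 a : HS A).coeff k = _
  rw [HahnSeries.coeff_single]
  congr

@[simp] lemma co_Cst0 (a : A) : co 0 (Cst a : Lau Z A) = a := by simp [co_Cst]

lemma Cst_mem (a : A) : (Cst a : Lau Z A) ∈ J Z A 0 := HGe_single 0 a

lemma one_mem : (1 : Lau Z A) ∈ J Z A 0 := by simpa using Cst_mem (Z := Z) (1 : A)

@[simp] lemma co_one0 : co 0 (1 : Lau Z A) = 1 := by simpa using co_Cst0 (Z := Z) (1 : A)

@[simp] lemma co_Cst_mul (k : ℤ) (a : A) (x : Lau Z A) : co k (Cst a * x) = a * co k x :=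
  HahnSeries.coeff_single_zero_mul

@[simp] lemma co_mul_Cst (k : ℤ) (a : A) (x : Lau Z A) : co k (x * Cst a) = co k x * a :=
  HahnSeries.coeff_mul_single_zero

lemma co_algebraMap (k : ℤ) (z : HS Z) :
    co k (algebraMap (HS Z) (Lau Z A) z) = algebraMap Z A (z.coeff k) := rfl

lemma algebraMap_mem {n : ℤ} {z : HS Z} (hz : z ∈ HGe Z n) :
    algebraMap (HS Z) (Lau Z A) z ∈ J Z A n := mem_J.2 fun k hk => by
  rw [co_algebraMap, hz k hk, map_zero]

lemma co_smul_Cst (k : ℤ) (z : HS Z) (a : A) : co k (z • (Cst a : Lau Z A)) = z.coeff k • a := by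
  rw [Algebra.smul_def, co_mul_Cst, co_algebraMap, Algebra.smul_def]

lemma algebraMap_C (z : Z) :
    algebraMap (HS Z) (Lau Z A) (HahnSeries.C z) = Cst (algebraMap Z A z) := by
  ext k
  rw [co_algebraMap, co_Cst]
  by_cases h : k = 0 <;> simp [h]

lemma co_C_smul (k : ℤ) (z : Z) (x : Lau Z A) :
    co k ((HahnSeries.C z : HS Z) • x) = z • co k x := by
  rw [Algebra.smul_def, algebraMap_C, co_Cst_mul, Algebra.smul_def]

lemma Cst_smul (z : Z) (a : A) : (Cst (z • a) : Lau Z A) = (HahnSeries.C z : HS Z) • Cst a := by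
  rw [Algebra.smul_def, Algebra.smul_def, algebraMap_C, map_mul]

lemma smul_mem {a b : ℤ} {z : HS Z} {x : Lau Z A} (hz : z ∈ HGe Z a) (hx : x ∈ J Z A b) :
    z • x ∈ J Z A (a + b) := by
  rw [Algebra.smul_def]; exact J_mul (algebraMap_mem hz) hx

lemma co_smul0 {z : HS Z} {x : Lau Z A} (hz : z ∈ HGe Z 0) (hx : x ∈ J Z A 0) :
    co 0 (z • x) = z.coeff 0 • co 0 x := by
  rw [Algebra.smul_def, co_mul0 (algebraMap_mem hz) hx, co_algebraMap, Algebra.smul_def]

lemma C_smul_mem {n : ℤ} (z : Z) {x : Lau Z A} (hx : x ∈ J Z A n) :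
    (HahnSeries.C z : HS Z) • x ∈ J Z A n := mem_J.2 fun k hk => by
  rw [co_C_smul, mem_J.1 hx k hk, smul_zero]

lemma co_tt_smul (a k : ℤ) (x : Lau Z A) : co k (tt Z a • x) = co (k - a) x := by
  have : algebraMap (HS Z) (Lau Z A) (tt Z a) = (tt A a : HS A) := by
    ext k
    rw [co_algebraMap]
    change _ = (HahnSeries.single a 1 : HS A).coeff k
    by_cases h : k = a <;> simp [tt, h]
  rw [Algebra.smul_def, this]
  exact coeff_tt_mul a k x

lemma tt_smul_mem {a b c : ℤ} {x : Lau Z A} (hx : x ∈ J Z A b) (h : c ≤ a + b) :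
    tt Z a • x ∈ J Z A c := mem_J.2 fun k hk => by
  rw [co_tt_smul]
  exact hx _ (by omega)

lemma exists_norm {x : Lau Z A} (hx : x ≠ 0) :
    ∃ n, tt Z n • x ∈ J Z A 0 ∧ co 0 (tt Z n • x) ≠ 0 := by
  obtain ⟨n, h1, h2⟩ := HS_exists_lead (R := A) hx
  refine ⟨-n, tt_smul_mem h1 (by omega), ?_⟩
  rw [co_tt_smul, zero_sub, neg_neg]
  exact h2

/-- normalisation with control on the sign of the exponent -/
lemma exists_norm_pos {x : Lau Z A} (hx : x ∉ J Z A 0) :
    ∃ n, 0 < n ∧ tt Z n • x ∈ J Z A 0 ∧ co 0 (tt Z n • x) ≠ 0 := by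
  have h0 : x ≠ 0 := by rintro rfl; exact hx (zero_mem _)
  obtain ⟨n, h1, h2⟩ := exists_norm h0
  refine ⟨n, ?_, h1, h2⟩
  by_contra hn
  apply hx
  have := tt_smul_mem (a := -n) (c := 0) h1 (by omega)
  rwa [smul_smul, tt_mul, neg_add_cancel, tt_zero, one_smul] at this

lemma comm_Cst_iff (a : A) (x : Lau Z A) :
    Cst a * x = x * Cst a ↔ ∀ k, a * co k x = co k x * a := by
  constructor
  · intro h k
    simpa using congrArg (co k) h
  · intro h
    ext k
    simp [h]

/-- extension of linear functionals -/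
noncomputable def liftF (ρ : A →ₗ[Z] Z) : Lau Z A →ₗ[HS Z] HS Z where
  toFun x := HahnSeries.map (toHS x) ρ
  map_add' x y := by
    ext k
    change ρ (co k (x + y)) = ρ (co k x) + ρ (co k y)
    simp
  map_smul' z x := by
    ext k
    change ρ (HahnSeries.coeff (HSmap (algebraMap Z A) z * toHS x) k) =
      HahnSeries.coeff (z * HahnSeries.map (toHS x) ρ) k
    generalize toHS x = x
    rw [HahnSeries.coeff_mul_left' z.isPWO_support,
      HahnSeries.coeff_mul_right' x.isPWO_support, map_sum]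
    · refine Finset.sum_congr rfl fun ij _ => ?_
      simp [← Algebra.smul_def]
    · intro i hi h
      apply hi
      simp [h]
    · intro i hi h
      apply hi
      simp [h]

lemma coeff_liftF (ρ : A →ₗ[Z] Z) (x : Lau Z A) (k : ℤ) : (liftF ρ x).coeff k = ρ (co k x) := rfl

lemma liftF_Cst (ρ : A →ₗ[Z] Z) (a : A) : liftF ρ (Cst a : Lau Z A) = HahnSeries.C (ρ a) := by
  ext k
  rw [coeff_liftF, co_Cst]
  by_cases h : k = 0 <;> simp [h]

lemma span_Cst [FiniteDimensional Z A] :
    Submodule.span (HS Z) (Set.range (Cst : A → Lau Z A)) = ⊤ := by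
  let b := Module.finBasis Z A
  rw [eq_top_iff]
  intro x _
  have : x = ∑ i, liftF (b.coord i) x • Cst (b i) := by
    ext k
    simp [map_sum, co_smul_Cst, coeff_liftF]
  rw [this]
  exact Submodule.sum_mem _ fun i _ => Submodule.smul_mem _ _ (Submodule.subset_span ⟨_, rfl⟩)

instance [FiniteDimensional Z A] : FiniteDimensional (HS Z) (Lau Z A) := by
  classical
  let b := Module.finBasis Z A
  refine ⟨⟨Finset.univ.image fun i => Cst (b i), ?_⟩⟩
  rw [eq_top_iff]
  intro x _
  have : x = ∑ i, liftF (b.coord i) x • Cst (b i) := by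
    ext k
    simp [map_sum, co_smul_Cst, coeff_liftF]
  rw [this]
  exact Submodule.sum_mem _ fun i _ => Submodule.smul_mem _ _ (Submodule.subset_span (by simp))

noncomputable def tr [FiniteDimensional Z A] (T : Tr Z A) : Tr (HS Z) (Lau Z A) where
  τ := liftF T.τ
  comm := tr_comm_of_span _ _ span_Cst fun a b => by
    rw [← map_mul, ← map_mul, liftF_Cst, liftF_Cst, T.comm]
  one := by rw [← map_one Cst, liftF_Cst, T.one, map_one]

lemma coeff_tr [FiniteDimensional Z A] (T : Tr Z A) (x : Lau Z A) (k : ℤ) :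
    ((tr T).τ x).coeff k = T.τ (co k x) := rfl

noncomputable def ext_ [FiniteDimensional Z A] (T : Tr Z A) : Ext T (tr T) where
  ιZ := HahnSeries.C
  ι := Cst
  smul := Cst_smul
  tr := liftF_Cst _
  top := span_Cst

/-- residues -/
def Res (S : Submodule (HS Z) (Lau Z A)) : Submodule Z A where
  carrier := {a | ∃ x ∈ S, x ∈ J Z A 0 ∧ co 0 x = a}
  add_mem' := by
    rintro _ _ ⟨x, hx, hx', rfl⟩ ⟨y, hy, hy', rfl⟩
    exact ⟨x + y, S.add_mem hx hy, add_mem hx' hy', map_add _ _ _⟩
  zero_mem' := ⟨0, S.zero_mem, zero_mem _, map_zero _⟩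
  smul_mem' := by
    rintro z _ ⟨x, hx, hx', rfl⟩
    exact ⟨(HahnSeries.C z : HS Z) • x, S.smul_mem _ hx, C_smul_mem z hx', co_C_smul _ _ _⟩

lemma mem_Res {S : Submodule (HS Z) (Lau Z A)} {a : A} :
    a ∈ Res S ↔ ∃ x ∈ S, x ∈ J Z A 0 ∧ co 0 x = a := Iff.rfl

lemma li2_of_res {α : Type} [Fintype α] (x : α → Lau Z A × Lau Z A)
    (hx : ∀ i, (x i).1 ∈ J Z A 0 ∧ (x i).2 ∈ J Z A 0)
    (h : LinearIndependent Z fun i => (co 0 (x i).1, co 0 (x i).2)) :
    LinearIndependent (HS Z) x := by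
  rw [Fintype.linearIndependent_iff] at h ⊢
  intro z hz
  by_contra hc
  have hz0 : z ≠ 0 := fun h0 => hc fun i => by simp [h0]
  obtain ⟨n, h1, i, h2⟩ := HS_norm_family z hz0
  apply h2
  apply h (fun i => (tt Z n * z i).coeff 0)
  have h3 : ∑ i, (tt Z n * z i) • x i = 0 := by
    simp only [mul_smul, ← Finset.smul_sum, hz, smul_zero]
  have h4 := congrArg (fun y => co 0 y.1) h3
  have h5 := congrArg (fun y => co 0 y.2) h3
  simp only [Prod.fst_sum, Prod.snd_sum, Prod.smul_fst, Prod.smul_snd, map_sum, Prod.fst_zero,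
    Prod.snd_zero, map_zero, co_smul0 (h1 _) (hx _).1, co_smul0 (h1 _) (hx _).2] at h4 h5
  ext
  · simpa [Prod.fst_sum] using h4
  · simpa [Prod.snd_sum] using h5

lemma li_of_res {α : Type} [Fintype α] (x : α → Lau Z A) (hx : ∀ i, x i ∈ J Z A 0)
    (h : LinearIndependent Z fun i => co 0 (x i)) : LinearIndependent (HS Z) x := by
  have := li2_of_res (fun i => (x i, 0)) (fun i => ⟨hx i, zero_mem _⟩)
    (by simp only [map_zero]; exact h.map' (LinearMap.inl Z A A) Submodule.ker_inl)
  exact LinearIndependent.of_comp (LinearMap.inl (HS Z) (Lau Z A) (Lau Z A)) this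

lemma finrank_Res_le [FiniteDimensional Z A] (S : Submodule (HS Z) (Lau Z A)) :
    finrank Z (Res S) ≤ finrank (HS Z) S := by
  let b := Module.finBasis Z (Res S)
  choose x hx hx' hx'' using fun i => (mem_Res.1 (b i).2)
  have h1 : LinearIndependent (HS Z) x := li_of_res x hx' (by
    simp only [hx'']
    exact b.linearIndependent.map' (Res S).subtype (Submodule.ker_subtype _))
  have h2 : LinearIndependent (HS Z) fun i => (⟨x i, hx i⟩ : S) :=
    LinearIndependent.of_comp S.subtype h1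
  simpa using h2.fintype_card_le_finrank

end R

variable {Z A : Type} [Field Z] [DivisionRing A] [Algebra Z A] [FiniteDimensional Z A]

noncomputable instance : DivisionRing (Lau Z A) := divisionRingOfFiniteDimensional (HS Z) (Lau Z A)

lemma inv_mem {x : Lau Z A} (hx : x ∈ J Z A 0) (h0 : co 0 x ≠ 0) :
    x⁻¹ ∈ J Z A 0 ∧ co 0 x⁻¹ = (co 0 x)⁻¹ := by
  have hx0 : x ≠ 0 := by rintro rfl; simp at h0
  have h1 : x⁻¹ ∈ J Z A 0 := by
    by_contra hc
    obtain ⟨n, hn, h2, h3⟩ := exists_norm_pos hc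
    have := co_mul0 hx h2
    rw [mul_smul_comm, mul_inv_cancel₀ hx0, co_tt_smul, mem_J.1 one_mem _ (by omega)] at this
    exact mul_ne_zero h0 h3 this.symm
  refine ⟨h1, ?_⟩
  have := co_mul0 hx h1
  rw [mul_inv_cancel₀ hx0, co_one0] at this
  exact eq_inv_of_mul_eq_one_right this.symm

lemma finrank_le_Res (T : Tr Z A) (S : Submodule (HS Z) (Lau Z A)) :
    finrank (HS Z) S ≤ finrank Z (Res S) := by
  induction hn : finrank (HS Z) S generalizing S with
  | zero => omega
  | succ n ih =>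
    have hS : S ≠ ⊥ := by rintro rfl; simp at hn
    obtain ⟨y, hy, hy0⟩ := Submodule.exists_mem_ne_zero_of_ne_bot hS
    obtain ⟨k, h1, h2⟩ := exists_norm hy0
    set x := tt Z k • y with hxdef
    have hx : x ∈ S := S.smul_mem _ hy
    have hx0 : x ≠ 0 := by intro h; rw [h] at h2; simp at h2
    let ψ : Lau Z A →ₗ[HS Z] HS Z := (tr T).B x⁻¹
    have hψ : ψ x = 1 := by simp [ψ, inv_mul_cancel₀ hx0, (tr T).one]
    have hd : finrank (HS Z) (S ⊓ LinearMap.ker ψ : Submodule _ _) = n := by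
      have e := (ψ.domRestrict S).finrank_range_add_finrank_ker
      have e1 : LinearMap.range (ψ.domRestrict S) = ⊤ := by
        rw [eq_top_iff]
        intro z _
        exact ⟨z • ⟨x, hx⟩, by simp [hψ]⟩
      have e2 : finrank (HS Z) (LinearMap.ker (ψ.domRestrict S)) =
          finrank (HS Z) (S ⊓ LinearMap.ker ψ : Submodule _ _) := by
        rw [← Submodule.finrank_map_subtype_eq, LinearMap.ker_domRestrict,
          Submodule.map_comap_subtype]
      rw [e1, finrank_top, finrank_self, e2, hn] at e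
      omega
    have hlt : Res (S ⊓ LinearMap.ker ψ) < Res S := by
      refine lt_of_le_of_ne ?_ fun h => ?_
      · rintro _ ⟨z, hz, hz', rfl⟩
        exact ⟨z, hz.1, hz', rfl⟩
      · have : co 0 x ∈ Res S := ⟨x, hx, h1, rfl⟩
        rw [← h] at this
        obtain ⟨z, hz, hz', hz''⟩ := this
        have h3 : (tr T).τ (x⁻¹ * z) = 0 := hz.2
        have h4 := congrArg (fun u : HS Z => u.coeff 0) h3
        simp only [coeff_tr, co_mul0 (inv_mem h1 h2).1 hz', (inv_mem h1 h2).2, hz'',
          inv_mul_cancel₀ h2, T.one] at h4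
        simp at h4
    have := Submodule.finrank_lt_finrank_of_lt hlt
    have := ih _ hd
    omega

lemma finrank_le_of_Res_le (T : Tr Z A) {S : Submodule (HS Z) (Lau Z A)} {N : Submodule Z A}
    (h : Res S ≤ N) : finrank (HS Z) S ≤ finrank Z N :=
  (finrank_le_Res T S).trans (Submodule.finrank_mono h)

lemma Res_eq_of (T : Tr Z A) {S : Submodule (HS Z) (Lau Z A)} {N : Submodule Z A}
    (h : Res S ≤ N) (h' : finrank Z N ≤ finrank (HS Z) S) : Res S = N :=
  Submodule.eq_of_le_of_finrank_le h (h'.trans (finrank_le_Res T S))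

lemma Res_eq_of' {S : Submodule (HS Z) (Lau Z A)} {N : Submodule Z A}
    (h : N ≤ Res S) (h' : finrank (HS Z) S ≤ finrank Z N) : Res S = N :=
  (Submodule.eq_of_le_of_finrank_le h ((finrank_Res_le S).trans h')).symm

end Lau

end Vale.Agent.P199
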