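import Vale.Agent.P199.CycL

namespace Vale.Agent.P199

open Module NPS

section Defs
variable (Z : Type) {D σ : Type} [Field Z] [Ring D] [Algebra Z D] [Fintype σ]

noncomputable def lin (z : NPS σ D) : (σ → Z) →ₗ[Z] D :=
  ∑ i, (LinearMap.proj i : (σ → Z) →ₗ[Z] Z).smulRight (co z [i])

variable {Z} in
lemma lin_apply (z : NPS σ D) (δ : σ → Z) : lin Z z δ = ∑ i, δ i • co z [i] := by
  simp [lin]

noncomputable def quad (z : NPS σ D) : (σ → Z) →ₗ[Z] (σ → Z) →ₗ[Z] D :=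
  ∑ i, (LinearMap.proj i : (σ → Z) →ₗ[Z] Z).smulRight (lin Z (NPS.D i z))

variable {Z} in
lemma quad_apply (z : NPS σ D) (δ δ' : σ → Z) :
    quad Z z δ δ' = ∑ i, ∑ j, (δ i * δ' j) • co z [i, j] := by
  simp [quad, lin_apply, Finset.smul_sum, smul_smul]

noncomputable def inn (X0 Y0 : D) : D →ₗ[Z] D × D :=
  (LinearMap.mulRight Z X0 - LinearMap.mulLeft Z X0).prod
    (LinearMap.mulRight Z Y0 - LinearMap.mulLeft Z Y0)

variable {Z} in
lemma inn_apply (X0 Y0 h : D) : inn Z X0 Y0 h = (h * X0 - X0 * h, h * Y0 - Y0 * h) := rfl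

noncomputable def Phi (X Y : NPS σ D) : ((σ → Z) × D) →ₗ[Z] D × D :=
  ((lin Z X).prod (lin Z Y)).coprod (inn Z (co X []) (co Y []))

variable {Z} in
lemma Phi_apply (X Y : NPS σ D) (δ : σ → Z) (h : D) : Phi Z X Y (δ, h) =
    (lin Z X δ + (h * co X [] - co X [] * h), lin Z Y δ + (h * co Y [] - co Y [] * h)) := rfl

noncomputable def rk (X Y : NPS σ D) : ℕ := finrank Z (LinearMap.range (Phi Z X Y))

variable {Z}

lemma lin_add (z z' : NPS σ D) (δ : σ → Z) : lin Z (z + z') δ = lin Z z δ + lin Z z' δ := by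
  simp [lin_apply, Finset.sum_add_distrib]

lemma lin_C (r : D) (δ : σ → Z) : lin Z (C r : NPS σ D) δ = 0 := by simp [lin_apply]

lemma lin_mul (z z' : NPS σ D) (δ : σ → Z) :
    lin Z (z * z') δ = co z [] * lin Z z' δ + lin Z z δ * co z' [] := by
  simp [lin_apply, co_mul_one, Finset.sum_add_distrib, Finset.mul_sum, Finset.sum_mul]

lemma quad_add (z z' : NPS σ D) (δ δ' : σ → Z) :
    quad Z (z + z') δ δ' = quad Z z δ δ' + quad Z z' δ δ' := by
  simp [quad_apply, Finset.sum_add_distrib]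

lemma quad_C (r : D) (δ δ' : σ → Z) : quad Z (C r : NPS σ D) δ δ' = 0 := by simp [quad_apply]

lemma quad_mul (z z' : NPS σ D) (δ δ' : σ → Z) : quad Z (z * z') δ δ' =
    co z [] * quad Z z' δ δ' + lin Z z δ * lin Z z' δ' + quad Z z δ δ' * co z' [] := by
  simp only [quad_apply, lin_apply, co_mul_two, smul_add, Finset.sum_add_distrib,
    Finset.sum_mul_sum, smul_mul_smul_comm]
  simp only [Finset.mul_sum, Finset.sum_mul, mul_smul_comm, smul_mul_assoc]

lemma lin_single [DecidableEq σ] (z : NPS σ D) (i : σ) : lin Z z (Pi.single i 1) = co z [i] := by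
  rw [lin_apply, Finset.sum_eq_single i]
  · simp
  · intro b _ hb; simp [hb]
  · simp

lemma lin_comm {z : NPS σ D} {a : D} (h : ∀ w, co z w * a = a * co z w) (δ : σ → Z) :
    lin Z z δ * a = a * lin Z z δ := by
  simp [lin_apply, Finset.mul_sum, Finset.sum_mul, h]

end Defs

lemma exists_li_range {Z M N : Type} [Field Z] [AddCommGroup M] [Module Z M] [AddCommGroup N]
    [Module Z N] [FiniteDimensional Z N] (f : M →ₗ[Z] N) :
    ∃ q : Fin (finrank Z (LinearMap.range f)) → M, LinearIndependent Z fun i => f (q i) := by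
  let b := Module.finBasis Z (LinearMap.range f)
  choose q hq using fun i => (b i).2
  refine ⟨q, ?_⟩
  simp only [hq]
  exact b.linearIndependent.map' (LinearMap.range f).subtype (Submodule.ker_subtype _)

lemma card_le_rank {Z M N α : Type} [Field Z] [AddCommGroup M] [Module Z M] [AddCommGroup N]
    [Module Z N] [FiniteDimensional Z N] [Fintype α] (f : M →ₗ[Z] N) {q : α → M}
    (h : LinearIndependent Z fun i => f (q i)) : Fintype.card α ≤ finrank Z (LinearMap.range f) := by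
  have h2 : LinearIndependent Z fun p =>
      (⟨f (q p), LinearMap.mem_range_self _ _⟩ : LinearMap.range f) :=
    LinearIndependent.of_comp (Submodule.subtype _) h
  exact h2.fintype_card_le_finrank

/-- first order part in one direction -/
def dualAt {σ R : Type} [Ring R] (a : σ) : NPS σ R →+* DualNumber R where
  toFun f := TrivSqZeroExt.inl (co f []) + TrivSqZeroExt.inr (co f [a])
  map_one' := by simp
  map_zero' := by simp
  map_add' _ _ := by ext <;> simp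
  map_mul' f g := by ext <;> simp [co_mul_one, co_mul_nil, DualNumber.snd_mul]

lemma dualAt_fst {σ R : Type} [Ring R] (a : σ) (f : NPS σ R) : (dualAt a f).fst = co f [] := by
  simp [dualAt]

lemma dualAt_snd {σ R : Type} [Ring R] (a : σ) (f : NPS σ R) : (dualAt a f).snd = co f [a] := by
  simp [dualAt]

/-- parameters of an arc -/
structure Arc {Z D : Type} [Field Z] [DivisionRing D] [Algebra Z D] (T : Tr Z D)
    (σ : Type) [Fintype σ] where
  S : Type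
  [fS : Fintype S]
  n : ℕ
  k : ℕ
  m : ℕ
  [nz : NeZero m]
  hm : m = n * k
  hn : 2 ≤ n
  hσ : 2 * Fintype.card σ < m
  c : CycD T m (Option S)
  φ : σ → NPS S D
  hφ : SubOK φ
  f1 : σ → Z

attribute [instance] Arc.fS Arc.nz

namespace Arc
variable {Z D σ : Type} [Field Z] [DivisionRing D] [Algebra Z D] [Fintype σ] {T : Tr Z D}
  (A : Arc T σ)

abbrev Z' : Type := HS A.c.Z0
abbrev D' : Type := Lau A.c.Z0 A.c.A
abbrev κ : Type := ZMod A.m × Fin A.m
abbrev σ' : Type := Option (σ × A.κ)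
noncomputable abbrev J (n : ℤ) : AddSubgroup A.D' := Lau.J A.c.Z0 A.c.A n
noncomputable abbrev F : Filt A.D' := Lau.F A.c.Z0 A.c.A
noncomputable abbrev t (n : ℤ) : A.Z' := tt A.c.Z0 n
noncomputable abbrev T' : Tr A.Z' A.D' := Lau.tr A.c.T1
noncomputable abbrev Cst : A.c.A →+* A.D' := Lau.Cst
noncomputable abbrev e (κ : A.κ) : A.c.A := A.c.e none κ
noncomputable abbrev lam : A.c.K := A.c.X none 0

noncomputable def ι' : D →+* A.D' := A.Cst.comp A.c.jι

lemma ι'_apply (d : D) : A.ι' d = A.Cst (A.c.jι d) := rfl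

lemma ι'_mem (d : D) : A.ι' d ∈ A.J 0 := Lau.Cst_mem _

noncomputable def ιd : D →+* DualNumber A.D' := (TrivSqZeroExt.inlHom A.D' A.D').comp A.ι'

@[simp] lemma ιd_fst (d : D) : (A.ιd d).fst = A.ι' d := rfl
@[simp] lemma ιd_snd (d : D) : (A.ιd d).snd = 0 := rfl

noncomputable def sU (a : A.S) : DualNumber A.D' :=
  (A.t 2 • A.Cst (A.c.U A.k a), A.t 2 • A.Cst (A.c.U A.k a))

lemma sU_mem (a : A.S) : A.sU a ∈ A.F.dual.I 2 :=
  ⟨Lau.tt_smul_mem (Lau.Cst_mem _) (by simp), Lau.tt_smul_mem (Lau.Cst_mem _) (by simp)⟩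

lemma okU : EvOK A.F.dual A.ιd A.sU where
  hι r := ⟨A.ι'_mem r, zero_mem _⟩
  hs a := A.F.dual.anti (by omega) (A.sU_mem a)
  comm r a := by
    have : A.ι' r * (A.t 2 • A.Cst (A.c.U A.k a)) = (A.t 2 • A.Cst (A.c.U A.k a)) * A.ι' r := by
      rw [mul_smul_comm, smul_mul_assoc, ι'_apply, ← map_mul, ← map_mul, A.c.U_comm]
    apply TrivSqZeroExt.ext
    · exact this
    · rw [DualNumber.snd_mul, DualNumber.snd_mul, ιd_snd, zero_mul, mul_zero, add_zero, zero_add]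
      exact this

noncomputable def ηp (i : σ) : DualNumber A.D' := ev A.okU (A.φ i)

lemma ηp_mem (i : σ) : A.ηp i ∈ A.F.dual.I 2 := by
  have := ev_sub_const A.okU A.sU_mem (A.φ i)
  rwa [A.hφ.nil, map_zero, sub_zero] at this

lemma ηp_comm (d : D) (i : σ) : A.ιd d * A.ηp i = A.ηp i * A.ιd d := by
  have := congrArg (ev A.okU) (A.hφ.comm d i)
  simp only [map_mul, ev_C] at this
  exact this

lemma okη : EvOK A.F.dual A.ιd A.ηp where
  hι := A.okU.hι
  hs a := A.F.dual.anti (by omega) (A.ηp_mem a)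
  comm := A.ηp_comm

noncomputable def idx (i : σ) : ℕ := Fintype.equivFin σ i

noncomputable def Xi (i : σ) : A.c.A :=
  A.c.y ((2 * idx i + 1 : ℕ) : ZMod A.m) + A.c.y ((2 * idx i + 2 : ℕ) : ZMod A.m)

noncomputable def ζ (i : σ) : A.D' :=
  A.t (2 * A.n - 1) • A.Cst (A.c.jK (A.c.g.x.ιZ (A.f1 i) * A.lam)) + A.t (2 * A.n) • A.Cst (A.Xi i)

lemma ζ_mem (i : σ) : A.ζ i ∈ A.F.I (2 * A.n - 1) := by
  have := A.hn
  exact add_mem (Lau.tt_smul_mem (Lau.Cst_mem _) (by omega))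
    (Lau.tt_smul_mem (Lau.Cst_mem _) (by omega))

lemma ζ_comm (d : D) (i : σ) : A.ι' d * A.ζ i = A.ζ i * A.ι' d := by
  simp only [ζ, mul_add, add_mul, mul_smul_comm, smul_mul_assoc, ι'_apply, ← map_mul, Xi,
    A.c.jK_jι, A.c.y_jι]

noncomputable def ζd (i : σ) : DualNumber A.D' := TrivSqZeroExt.inl (A.ζ i)

lemma ζd_mem (i : σ) : A.ζd i ∈ A.F.dual.I (2 * A.n - 1) := ⟨A.ζ_mem i, zero_mem _⟩

lemma okηζ : EvOK A.F.dual A.ιd (A.ηp + A.ζd) where
  hι := A.okU.hι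
  hs a := add_mem (A.okη.hs a) (A.F.dual.anti (by have := A.hn; omega) (A.ζd_mem a))
  comm r a := by
    rw [Pi.add_apply, mul_add, add_mul, A.ηp_comm]
    congr 1
    apply TrivSqZeroExt.ext
    · exact A.ζ_comm r a
    · simp [DualNumber.snd_mul, ζd]

noncomputable def τv (i : σ) : A.D' := (A.ηp i).fst + A.ζ i

lemma τv_mem (i : σ) : A.τv i ∈ A.J 2 :=
  add_mem (A.ηp_mem i).1 (A.F.anti (show 2 ≤ 2 * A.n - 1 by have := A.hn; omega) (A.ζ_mem i))

open Classical in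
noncomputable def dir : A.σ' → σ → A.D'
  | none, i => (A.ηp i).snd
  | some (i', κ), i => if i = i' then A.Cst (A.e κ) else 0

lemma dir_mem (a : A.σ') (i : σ) : A.dir a i ∈ A.J 0 := by
  rcases a with _ | ⟨i', κ⟩
  · exact Lau.J_anti (by simp) (A.ηp_mem i).2
  · simp only [dir]
    split_ifs
    · exact Lau.Cst_mem _
    · exact zero_mem _

lemma dir_comm (d : D) (a : A.σ') (i : σ) : A.ι' d * A.dir a i = A.dir a i * A.ι' d := by
  rcases a with _ | ⟨i', κ⟩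
  · have := congrArg TrivSqZeroExt.snd (A.ηp_comm d i)
    simp only [DualNumber.snd_mul, ιd_snd, zero_mul, mul_zero, add_zero, zero_add] at this
    exact this
  · simp only [dir]
    split_ifs
    · rw [ι'_apply, ← map_mul, ← map_mul, A.c.e_comm]
    · simp

noncomputable def sv (i : σ) : NPS A.σ' A.D' := NPS.mk fun w => match w with
  | [] => A.τv i
  | [a] => A.dir a i
  | _ :: _ :: _ => 0

lemma D_sv (a : A.σ') (i : σ) : NPS.D a (A.sv i) = C (A.dir a i) := by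
  ext1 w
  cases w <;> rfl

lemma co_sv_nil (i : σ) : co (A.sv i) [] = A.τv i := rfl

lemma okv : EvOK (A.F.nps A.σ') (C.comp A.ι') A.sv where
  hι r w := by
    cases w with
    | nil => exact A.ι'_mem r
    | cons a w => exact zero_mem _
  hs i w := by
    rcases w with _ | ⟨a, _ | ⟨b, w⟩⟩
    · exact Lau.J_anti (by simp) (A.τv_mem i)
    · exact A.dir_mem a i
    · exact zero_mem _
  comm r i := by
    rw [RingHom.comp_apply, comm_C_iff]
    intro w
    rcases w with _ | ⟨a, _ | ⟨b, w⟩⟩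
    · change _ * A.τv i = A.τv i * _
      rw [τv, mul_add, add_mul, ζ_comm]
      congr 1
      exact congrArg TrivSqZeroExt.fst (A.ηp_comm r i)
    · exact A.dir_comm r a i
    · change _ * 0 = 0 * _
      simp

noncomputable def Ψ : NPS σ D →+* NPS A.σ' A.D' := ev A.okv

lemma Ψ_C (d : D) : A.Ψ (C d) = C (A.ι' d) := ev_C _ _

noncomputable def ιZ' : Z →+* A.Z' := (HahnSeries.C : A.c.Z0 →+* A.Z').comp A.c.ι0

lemma ι'_algebraMap (z : Z) : A.ι' (algebraMap Z D z) = algebraMap A.Z' A.D' (A.ιZ' z) := by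
  rw [ι'_apply, A.c.jι_algebraMap, ← Lau.algebraMap_C]; rfl

lemma Ψ_algebraMap (z : Z) :
    A.Ψ (algebraMap Z (NPS σ D) z) = algebraMap A.Z' (NPS A.σ' A.D') (A.ιZ' z) := by
  rw [NPS.algebraMap_eq, NPS.algebraMap_eq, Ψ_C, ι'_algebraMap]

lemma Ψ_mem (z : NPS σ D) (w : List A.σ') : co (A.Ψ z) w ∈ A.J 0 := by
  have := ev_mem A.okv z w
  rw [Nat.zero_sub] at this
  exact this

lemma Ψ_rec (z : NPS σ D) : A.Ψ z = C (A.ι' (co z [])) + ∑ a, A.sv a * A.Ψ (NPS.D a z) :=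
  ev_rec A.okv z

lemma Ψ_nil (z : NPS σ D) : co (A.Ψ z) [] - A.ι' (co z []) ∈ A.J 2 := by
  rw [Ψ_rec]
  simp only [co_add, co_C_nil, co_sum, add_sub_cancel_left, co_mul_nil, co_sv_nil]
  exact sum_mem fun a _ => Lau.J_mul (A.τv_mem a) (A.Ψ_mem _ _)

lemma Ψ_one (z : NPS σ D) (i : σ) (κ : A.κ) :
    co (A.Ψ z) [some (i, κ)] - A.Cst (A.c.jι (co z [i]) * A.e κ) ∈ A.J 2 := by
  rw [Ψ_rec]
  simp only [co_add, co_C_cons, co_sum, zero_add, co_mul_cons, co_sv_nil, D_sv, co_C_mul,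
    Finset.sum_add_distrib]
  rw [add_sub_assoc]
  refine add_mem (sum_mem fun a _ => Lau.J_mul (A.τv_mem a) (A.Ψ_mem _ _)) ?_
  rw [Finset.sum_eq_single i]
  · simp only [dir, if_true]
    rw [A.c.e_comm, map_mul, ← mul_sub]
    exact Lau.J_mul (Lau.Cst_mem _) (A.Ψ_nil (NPS.D i z))
  · intro b _ hb; simp [dir, hb]
  · simp

lemma dualOf_Ψ (z : NPS σ D) : dualAt none (A.Ψ z) = ev A.okηζ z := by
  refine ev_comp A.okv A.okηζ (dualAt none) (fun f => ?_) (fun _ => ?_) (fun a => ?_) z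
  · rw [Filt.mem_dual, dualAt_fst, dualAt_snd]
    exact ⟨A.Ψ_mem f _, A.Ψ_mem f _⟩
  · apply TrivSqZeroExt.ext
    · rw [dualAt_fst]; rfl
    · rw [dualAt_snd]; rfl
  · apply TrivSqZeroExt.ext
    · rw [dualAt_fst]; rfl
    · rw [dualAt_snd, Pi.add_apply, TrivSqZeroExt.snd_add, ζd, TrivSqZeroExt.snd_inl, add_zero]
      rfl

lemma hom_sU (r : ℕ) (f : NPS A.S D) :
    (hom A.ιd A.sU r f).fst = A.t (2 * r) • A.Cst (hom A.c.jι (A.c.U A.k) r f) ∧
    (hom A.ιd A.sU r f).snd = A.t (2 * r) • A.Cst (r • hom A.c.jι (A.c.U A.k) r f) := by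
  induction r generalizing f with
  | zero => simp [hom, ι'_apply]
  | succ r ih =>
    have e : A.t (2 * ((r + 1 : ℕ) : ℤ)) = A.t 2 * A.t (2 * r) := by
      rw [tt_mul]; congr 1; push_cast; ring
    constructor
    · simp only [hom, TrivSqZeroExt.fst_sum, TrivSqZeroExt.fst_mul, (ih _).1, map_sum,
        Finset.smul_sum, map_mul, e]
      refine Finset.sum_congr rfl fun a _ => ?_
      exact smul_mul_smul_comm _ _ _ _
    · simp only [hom, TrivSqZeroExt.snd_sum, DualNumber.snd_mul, (ih _).1, (ih _).2, map_sum,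
        Finset.smul_sum, e]
      refine Finset.sum_congr rfl fun a _ => ?_
      change (A.t 2 • A.Cst (A.c.U A.k a)) * _ + (A.t 2 • A.Cst (A.c.U A.k a)) * _ = _
      rw [smul_mul_smul_comm, smul_mul_smul_comm, ← smul_add, ← map_mul, ← map_mul, ← map_add,
        succ_nsmul, mul_smul_comm]

/-- leading error evaluated on the arc -/
noncomputable def o (b : NPS σ D) : A.c.A := hom A.c.jι (A.c.U A.k) A.n (subst A.hφ b)

lemma Ψ_est {b : NPS σ D} (hb : subst A.hφ b ∈ (Filt.ord A.S D).I A.n) :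
    co (A.Ψ b) [] - (A.t (2 * A.n) • A.Cst (A.o b) + ∑ i, A.ζ i * A.ι' (co b [i]))
      ∈ A.J (2 * A.n + 1) ∧
    co (A.Ψ b) [none] - A.t (2 * A.n) • A.Cst (A.n • A.o b) ∈ A.J (2 * A.n + 1) := by
  have hn := A.hn
  have h1 := lip2 A.okη A.okηζ A.ζd_mem A.ηp_mem (by omega) b
  have h2 : ev A.okU (subst A.hφ b) = ev A.okη b :=
    ev_comp A.hφ.ev A.okη (ev A.okU) (fun f => ev_mem _ _) (fun r => ev_C _ _) (fun _ => rfl) b
  have h3 := ev_sub_hom A.okU A.sU_mem A.n _ hb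
  rw [h2] at h3
  have h4 := add_mem (A.F.dual.anti (show 2 * A.n + 1 ≤ _ by omega) h1)
    (A.F.dual.anti (show 2 * A.n + 1 ≤ _ by omega) h3)
  rw [← dualOf_Ψ] at h4
  obtain ⟨h5, h6⟩ := h4
  simp only [TrivSqZeroExt.fst_add, TrivSqZeroExt.fst_sub, TrivSqZeroExt.fst_sum,
    TrivSqZeroExt.fst_mul, TrivSqZeroExt.snd_add, TrivSqZeroExt.snd_sub, TrivSqZeroExt.snd_sum,
    DualNumber.snd_mul, (A.hom_sU _ _).1, (A.hom_sU _ _).2, ζd, TrivSqZeroExt.fst_inl,
    TrivSqZeroExt.snd_inl, ιd_fst, ιd_snd, mul_zero, zero_mul, add_zero, Finset.sum_const_zero,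
    sub_zero, dualAt_fst, dualAt_snd] at h5 h6
  change _ ∈ A.J (2 * A.n + 1) at h5 h6
  constructor
  · convert h5 using 1
    rw [o]; abel
  · convert h6 using 1
    rw [o]; abel

lemma exists_o : ∃ u : A.c.K, u ≠ 0 ∧ (∀ i, A.c.sK i u = u) ∧
    ∀ b, A.o b = A.c.j (u • A.c.hE A.k A.n 0 (subst A.hφ b)) := by
  obtain ⟨u, h0, h1, h2⟩ := A.c.hom_U A.k A.n
  refine ⟨u, h0, h1, fun b => ?_⟩
  have : (A.n : ZMod A.m) * A.k = 0 := by
    rw [← Nat.cast_mul, ← A.hm, ZMod.natCast_self]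
  rw [o, h2, this, A.c.y_zero, mul_one]

/-- normalised constant term -/
noncomputable def bh (b : NPS σ D) : A.D' := A.t (-(2 * A.n - 1)) • co (A.Ψ b) []

lemma cast_inj {a b : ℕ} (ha : a < A.m) (hb : b < A.m) : (a : ZMod A.m) = b ↔ a = b := by
  rw [ZMod.natCast_eq_natCast_iff', Nat.mod_eq_of_lt ha, Nat.mod_eq_of_lt hb]

lemma idx_lt (i : σ) : idx i < Fintype.card σ := (Fintype.equivFin σ i).2

lemma idx_inj {i i' : σ} (h : idx i = idx i') : i = i' :=
  (Fintype.equivFin σ).injective (Fin.ext h)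

lemma bh_est {b : NPS σ D} (hb : subst A.hφ b ∈ (Filt.ord A.S D).I A.n) :
    A.bh b ∈ A.J 0 ∧ Lau.co 0 (A.bh b) = A.c.j (A.lam • A.c.ι (lin Z b A.f1)) ∧
    Lau.co 1 (A.bh b) = A.o b + ∑ i, A.c.jι (co b [i]) * A.Xi i := by
  have h1 := Lau.tt_smul_mem (a := -(2 * A.n - 1)) (c := 2) (A.Ψ_est hb).1 (by omega)
  have e : A.t (-(2 * A.n - 1)) • (A.t (2 * A.n) • A.Cst (A.o b) + ∑ i, A.ζ i * A.ι' (co b [i])) =
      A.Cst (A.c.j (A.lam • A.c.ι (lin Z b A.f1))) +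
      A.t 1 • A.Cst (A.o b + ∑ i, A.c.jι (co b [i]) * A.Xi i) := by
    have e1 : A.t (-(2 * A.n - 1)) * A.t (2 * A.n) = A.t 1 := by rw [tt_mul]; congr 1; ring
    have e2 : A.t (-(2 * A.n - 1)) * A.t (2 * A.n - 1) = 1 := by rw [tt_mul, neg_add_cancel]; rfl
    have e3 : ∀ i, A.c.jK (A.c.g.x.ιZ (A.f1 i) * A.lam) * A.c.jι (co b [i]) =
        A.c.j (A.lam • A.c.ι (A.f1 i • co b [i])) := fun i => by
      rw [A.c.g.x.smul, smul_smul, A.c.j_smul, mul_comm]; rfl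
    have e4 : ∀ i, A.Xi i * A.c.jι (co b [i]) = A.c.jι (co b [i]) * A.Xi i := fun i => by
      simp only [Xi, mul_add, add_mul, A.c.y_jι]
    simp only [smul_add, Finset.smul_sum, ζ, add_mul, smul_mul_assoc, smul_smul, e1, e2, one_smul,
      ι'_apply, ← map_mul, e3, e4, lin_apply, map_sum, map_add, Finset.sum_add_distrib]
    abel
  rw [smul_sub, e] at h1
  refine ⟨?_, ?_, ?_⟩
  · have := add_mem (Lau.J_anti (show (0 : ℤ) ≤ 2 by omega) h1) (add_mem (Lau.Cst_mem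
      (A.c.j (A.lam • A.c.ι (lin Z b A.f1)))) (Lau.tt_smul_mem (a := 1) (c := 0)
        (Lau.Cst_mem (A.o b + ∑ i, A.c.jι (co b [i]) * A.Xi i)) (by omega)))
    rw [sub_add_cancel] at this
    exact this
  · have := Lau.mem_J.1 h1 0 (by omega)
    rw [map_sub, sub_eq_zero, map_add, Lau.co_tt_smul, Lau.co_tt_smul, Lau.co_Cst,
      Lau.co_Cst] at this
    simpa [bh, Lau.co_tt_smul] using this
  · have := Lau.mem_J.1 h1 1 (by omega)
    rw [map_sub, sub_eq_zero, map_add, Lau.co_tt_smul, Lau.co_tt_smul, Lau.co_Cst,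
      Lau.co_Cst] at this
    simpa [bh, Lau.co_tt_smul] using this

lemma cp_Xi (b : NPS σ D) (i : σ) {r : ℕ} (hr : r = 2 * idx i + 1 ∨ r = 2 * idx i + 2) :
    (r : ZMod A.m) ≠ 0 ∧
    A.c.cp r (A.o b + ∑ i, A.c.jι (co b [i]) * A.Xi i) = A.c.ι (co b [i]) := by
  have hσ := A.hσ
  have hi := idx_lt i
  have h0 : (r : ZMod A.m) ≠ 0 := by
    intro h
    have := (A.cast_inj (a := r) (b := 0) (by omega) (by omega)).1 (by simpa using h)
    omega
  refine ⟨h0, ?_⟩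
  obtain ⟨u, -, -, hu⟩ := A.exists_o
  rw [map_add, hu, A.c.cp_j0, if_neg h0, zero_add, map_sum, Finset.sum_eq_single i]
  · rw [Xi, mul_add, map_add, A.c.jι_apply, A.c.cp_j, A.c.cp_j]
    rcases hr with rfl | rfl
    · rw [if_pos rfl, if_neg, add_zero]
      rw [A.cast_inj (by omega) (by omega)]; omega
    · rw [if_pos rfl, if_neg, zero_add]
      rw [A.cast_inj (by omega) (by omega)]; omega
  · intro i' _ hi'
    have := idx_lt i'
    have : idx i' ≠ idx i := fun h => hi' (idx_inj h)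
    rw [Xi, mul_add, map_add, A.c.jι_apply, A.c.cp_j, A.c.cp_j, if_neg, if_neg, add_zero]
    · rw [A.cast_inj (by omega) (by omega)]; omega
    · rw [A.cast_inj (by omega) (by omega)]; omega
  · simp

/-- constant directions -/
noncomputable def dirc (f : σ → Z) (α : A.κ → A.c.Z0) : A.σ' → A.Z'
  | none => 0
  | some (i, κ) => HahnSeries.C (A.c.ι0 (f i) * α κ)

lemma lin_dirc (f : σ → Z) (α : A.κ → A.c.Z0) (z : NPS σ D) :
    lin A.Z' (A.Ψ z) (A.dirc f α) - A.Cst (A.c.jι (lin Z z f) * ∑ κ, α κ • A.e κ) ∈ A.J 2 := by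
  rw [lin_apply, lin_apply, Fintype.sum_option, Fintype.sum_prod_type, map_sum, Finset.sum_mul_sum,
    map_sum]
  simp only [dirc, zero_smul, zero_add, map_sum, A.c.jι_smul, smul_mul_smul_comm, Lau.Cst_smul,
    ← Finset.sum_sub_distrib, ← smul_sub]
  exact sum_mem fun i _ => sum_mem fun κ _ => Lau.C_smul_mem _ (A.Ψ_one z i _)

lemma exists_dir (f : σ → Z) (k : A.c.K) (l : ZMod A.m) : ∃ δ : A.σ' → A.Z', ∀ z : NPS σ D,
    lin A.Z' (A.Ψ z) δ - A.Cst (A.c.jι (lin Z z f) * (A.c.jK k * A.c.y l)) ∈ A.J 2 := by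
  obtain ⟨α, hα⟩ := A.c.exists_e none k l
  exact ⟨A.dirc f α, fun z => hα ▸ A.lin_dirc f α z⟩

lemma res_of_sub {x : A.D'} {a : A.c.A} (h : x - A.Cst a ∈ A.J 1) :
    x ∈ A.J 0 ∧ Lau.co 0 x = a := by
  constructor
  · simpa using add_mem (Lau.J_anti (show (0 : ℤ) ≤ 1 by omega) h) (Lau.Cst_mem a)
  · have := Lau.mem_J.1 h 0 (by omega)
    rw [map_sub, sub_eq_zero, Lau.co_Cst0] at this
    exact this

variable [FiniteDimensional Z D]

lemma finrank_D' : finrank A.Z' A.D' ≤ A.m * (A.m * finrank Z D) := by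
  rw [(Lau.ext_ A.c.T1).finrank_eq]
  exact A.c.finrank_A none

omit [FiniteDimensional Z D] in
lemma rk_key (z : NPS σ D) (f : σ → Z) (h : D) (κ : A.κ) :
    lin A.Z' (A.Ψ z) (A.dirc f (Pi.single κ 1)) + (A.Cst (A.c.jι h * A.e κ) * co (A.Ψ z) [] -
      co (A.Ψ z) [] * A.Cst (A.c.jι h * A.e κ)) -
      A.Cst (A.c.jι (lin Z z f + (h * co z [] - co z [] * h)) * A.e κ) ∈ A.J 1 := by
  have h1 := A.lin_dirc f (Pi.single κ 1) z
  have e1 : ∑ κ', (Pi.single κ (1 : A.c.Z0) : A.κ → A.c.Z0) κ' • A.e κ' = A.e κ := by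
    rw [Finset.sum_eq_single κ]
    · simp
    · intro b _ hb; simp [hb]
    · simp
  rw [e1] at h1
  have h2 := Lau.J_mul (Lau.Cst_mem (A.c.jι h * A.e κ)) (A.Ψ_nil z)
  have h3 := Lau.J_mul (A.Ψ_nil z) (Lau.Cst_mem (A.c.jι h * A.e κ))
  rw [zero_add] at h2
  rw [add_zero] at h3
  refine Lau.J_anti (show (1 : ℤ) ≤ 2 by omega) ?_
  convert add_mem h1 (sub_mem h2 h3) using 1
  have e2 := A.c.e_comm none κ (co z [])
  simp only [ι'_apply, map_add, map_sub, map_mul, add_mul, sub_mul, mul_sub, mul_assoc]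
  rw [← map_mul A.Cst (A.c.jι (co z [])) (A.e κ), e2, map_mul]
  abel

lemma rk_le (X Y : NPS σ D) : A.m * (A.m * rk Z X Y) ≤ rk A.Z' (A.Ψ X) (A.Ψ Y) := by
  classical
  obtain ⟨q, hli⟩ : ∃ q : Fin (rk Z X Y) → (σ → Z) × D,
      LinearIndependent Z fun i => Phi Z X Y (q i) := exists_li_range (Phi Z X Y)
  let x : Fin (rk Z X Y) × A.κ → (A.σ' → A.Z') × A.D' := fun p =>
    (A.dirc (q p.1).1 (Pi.single p.2 1), A.Cst (A.c.jι (q p.1).2 * A.e p.2))
  have hx : ∀ p, ((Phi A.Z' (A.Ψ X) (A.Ψ Y) (x p)).1 ∈ A.J 0 ∧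
      (Phi A.Z' (A.Ψ X) (A.Ψ Y) (x p)).2 ∈ A.J 0) ∧
      (Lau.co 0 (Phi A.Z' (A.Ψ X) (A.Ψ Y) (x p)).1, Lau.co 0 (Phi A.Z' (A.Ψ X) (A.Ψ Y) (x p)).2) =
      (A.c.jι (Phi Z X Y (q p.1)).1 * A.e p.2, A.c.jι (Phi Z X Y (q p.1)).2 * A.e p.2) := by
    intro p
    have h1 := A.res_of_sub (A.rk_key X (q p.1).1 (q p.1).2 p.2)
    have h2 := A.res_of_sub (A.rk_key Y (q p.1).1 (q p.1).2 p.2)
    have h3 : Phi Z X Y (q p.1) = Phi Z X Y ((q p.1).1, (q p.1).2) := rfl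
    simp only [x, Phi_apply, h3]
    exact ⟨⟨h1.1, h2.1⟩, by rw [h1.2, h2.2]⟩
  have h1 : LinearIndependent A.Z' fun p => Phi A.Z' (A.Ψ X) (A.Ψ Y) (x p) := by
    refine Lau.li2_of_res _ (fun p => (hx p).1) ?_
    have h2 := A.c.li_e none hli
    rw [← funext fun p => (hx p).2] at h2
    exact h2
  have := card_le_rank _ h1
  simp only [Fintype.card_prod, Fintype.card_fin, ZMod.card] at this
  calc A.m * (A.m * rk Z X Y) = rk Z X Y * (A.m * A.m) := by ring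
    _ ≤ _ := this

end Arc

end Vale.Agent.P199
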