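import Mathlib

namespace Vale.Agent.P199

/-- Noncommutative formal power series. -/
def NPS (σ R : Type) : Type := List σ → R

namespace NPS
variable {σ R : Type} [Ring R]

instance : AddCommGroup (NPS σ R) := inferInstanceAs (AddCommGroup (List σ → R))

def co (f : NPS σ R) (w : List σ) : R := f w

def mk (f : List σ → R) : NPS σ R := f

omit [Ring R] in
@[simp] lemma co_mk (f : List σ → R) (w : List σ) : co (mk f) w = f w := rfl

omit [Ring R] in
@[ext] lemma ext {f g : NPS σ R} (h : ∀ w, co f w = co g w) : f = g := funext h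

@[simp] lemma co_add (f g : NPS σ R) (w : List σ) : co (f + g) w = co f w + co g w := rfl
@[simp] lemma co_sub (f g : NPS σ R) (w : List σ) : co (f - g) w = co f w - co g w := rfl
@[simp] lemma co_neg (f : NPS σ R) (w : List σ) : co (-f) w = - co f w := rfl
@[simp] lemma co_zero (w : List σ) : co (0 : NPS σ R) w = 0 := rfl

def coHom (w : List σ) : NPS σ R →+ R where
  toFun f := co f w
  map_zero' := rfl
  map_add' _ _ := rfl

@[simp] lemma co_sum {ι : Type} (s : Finset ι) (f : ι → NPS σ R) (w : List σ) :
    co (∑ i ∈ s, f i) w = ∑ i ∈ s, co (f i) w := map_sum (coHom w) f s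

def D (a : σ) (f : NPS σ R) : NPS σ R := mk fun w => co f (a :: w)

omit [Ring R] in
@[simp] lemma co_D (a : σ) (f : NPS σ R) (w : List σ) : co (D a f) w = co f (a :: w) := rfl

@[simp] lemma D_add (a : σ) (f g : NPS σ R) : D a (f + g) = D a f + D a g := rfl
@[simp] lemma D_sub (a : σ) (f g : NPS σ R) : D a (f - g) = D a f - D a g := rfl
@[simp] lemma D_zero (a : σ) : D a (0 : NPS σ R) = 0 := rfl

def mulF : List σ → NPS σ R → NPS σ R → R
  | [], f, g => co f [] * co g []
  | a :: w, f, g => co f [] * co g (a :: w) + mulF w (D a f) g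

def C0 (r : R) : NPS σ R := mk fun w => match w with
  | [] => r
  | _ :: _ => 0

instance : Mul (NPS σ R) := ⟨fun f g => mk fun w => mulF w f g⟩
instance : One (NPS σ R) := ⟨C0 1⟩

lemma co_mul_nil (f g : NPS σ R) : co (f * g) [] = co f [] * co g [] := rfl
lemma co_mul_cons (f g : NPS σ R) (a : σ) (w : List σ) :
    co (f * g) (a :: w) = co f [] * co g (a :: w) + co (D a f * g) w := rfl

lemma zero_mul' (g : NPS σ R) : (0 : NPS σ R) * g = 0 := by
  ext w
  induction w with
  | nil => simp [co_mul_nil]
  | cons a w ih => simp [co_mul_cons, ih]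

lemma mul_zero' (f : NPS σ R) : f * (0 : NPS σ R) = 0 := by
  ext w
  induction w generalizing f with
  | nil => simp [co_mul_nil]
  | cons a w ih => simp [co_mul_cons, ih]

lemma mul_add' (f g h : NPS σ R) : f * (g + h) = f * g + f * h := by
  ext w
  induction w generalizing f with
  | nil => simp [co_mul_nil, mul_add]
  | cons a w ih => simp only [co_mul_cons, ih, co_add, mul_add]; abel

lemma add_mul' (f g h : NPS σ R) : (f + g) * h = f * h + g * h := by
  ext w
  induction w generalizing f g with
  | nil => simp [co_mul_nil, add_mul]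
  | cons a w ih => simp only [co_mul_cons, D_add, ih, co_add, add_mul]; abel

@[simp] lemma co_C0_nil (r : R) : co (C0 r : NPS σ R) [] = r := rfl
@[simp] lemma co_C0_cons (r : R) (a : σ) (w : List σ) : co (C0 r : NPS σ R) (a :: w) = 0 := rfl
@[simp] lemma D_C0 (r : R) (a : σ) : D a (C0 r : NPS σ R) = 0 := rfl

lemma co_C0_mul (r : R) (g : NPS σ R) (w : List σ) : co (C0 r * g) w = r * co g w := by
  cases w with
  | nil => simp [co_mul_nil]
  | cons a w => simp [co_mul_cons, zero_mul']

lemma co_mul_C0 (r : R) (f : NPS σ R) (w : List σ) : co (f * C0 r) w = co f w * r := by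
  induction w generalizing f with
  | nil => simp [co_mul_nil]
  | cons a w ih => simp [co_mul_cons, ih]

lemma D_mul' (a : σ) (f g : NPS σ R) : D a (f * g) = C0 (co f []) * D a g + D a f * g := by
  ext w
  simp [co_mul_cons, co_C0_mul]

lemma C0_mul_assoc (r : R) (g h : NPS σ R) : (C0 r * g) * h = C0 r * (g * h) := by
  ext w
  induction w generalizing g with
  | nil => simp [co_mul_nil, mul_assoc]
  | cons a w ih =>
    rw [co_C0_mul, co_mul_cons, co_mul_cons, D_mul', D_C0, zero_mul', add_zero, co_C0_nil, ih,
      co_C0_mul, co_C0_mul, mul_add, mul_assoc]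

lemma mul_assoc' (f g h : NPS σ R) : (f * g) * h = f * (g * h) := by
  ext w
  induction w generalizing f with
  | nil => simp [co_mul_nil, mul_assoc]
  | cons a w ih =>
    rw [co_mul_cons, co_mul_cons, D_mul', add_mul', co_add, ih, C0_mul_assoc, co_C0_mul,
      co_mul_cons, co_mul_nil, mul_add, mul_assoc, add_assoc]

instance : Ring (NPS σ R) :=
  { (inferInstance : AddCommGroup (NPS σ R)) with
    mul := (· * ·)
    one := 1
    left_distrib := mul_add'
    right_distrib := add_mul'
    zero_mul := zero_mul'
    mul_zero := mul_zero'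
    mul_assoc := mul_assoc'
    one_mul := fun f => by
      ext w
      exact (co_C0_mul 1 f w).trans (one_mul _)
    mul_one := fun f => by
      ext w
      exact (co_mul_C0 1 f w).trans (mul_one _)
    neg_add_cancel := neg_add_cancel }

/-- constants -/
def C : R →+* NPS σ R where
  toFun := C0
  map_one' := rfl
  map_zero' := by ext w; cases w <;> simp
  map_add' r s := by ext w; cases w <;> simp
  map_mul' r s := by
    ext w
    rw [co_C0_mul]
    cases w <;> simp

@[simp] lemma co_C_nil (r : R) : co (C r : NPS σ R) [] = r := rfl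
@[simp] lemma co_C_cons (r : R) (a : σ) (w : List σ) : co (C r : NPS σ R) (a :: w) = 0 := rfl
@[simp] lemma D_C (r : R) (a : σ) : D a (C r : NPS σ R) = 0 := rfl
@[simp] lemma co_one_nil : co (1 : NPS σ R) [] = 1 := rfl
@[simp] lemma co_one_cons (a : σ) (w : List σ) : co (1 : NPS σ R) (a :: w) = 0 := rfl
@[simp] lemma co_C_mul (r : R) (g : NPS σ R) (w : List σ) : co (C r * g) w = r * co g w :=
  co_C0_mul r g w
@[simp] lemma co_mul_C (r : R) (f : NPS σ R) (w : List σ) : co (f * C r) w = co f w * r :=
  co_mul_C0 r f w
lemma D_mul (a : σ) (f g : NPS σ R) : D a (f * g) = C (co f []) * D a g + D a f * g :=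
  D_mul' a f g

lemma co_mul_one (f g : NPS σ R) (a : σ) :
    co (f * g) [a] = co f [] * co g [a] + co f [a] * co g [] := by
  simp [co_mul_cons, co_mul_nil]

lemma co_mul_two (f g : NPS σ R) (a b : σ) :
    co (f * g) [a, b] = co f [] * co g [a, b] + co f [a] * co g [b] + co f [a, b] * co g [] := by
  simp [co_mul_cons, co_mul_nil, add_assoc]

/-- constant term -/
def cst : NPS σ R →+* R where
  toFun f := co f []
  map_one' := rfl
  map_zero' := rfl
  map_add' _ _ := rfl
  map_mul' _ _ := rfl

@[simp] lemma cst_apply (f : NPS σ R) : cst f = co f [] := rfl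

lemma comm_C_iff (r : R) (f : NPS σ R) : C r * f = f * C r ↔ ∀ w, r * co f w = co f w * r := by
  constructor
  · intro h w
    have := congrArg (fun g => co g w) h
    simpa using this
  · intro h
    ext w
    simp [h]

section Alg
variable {Z : Type} [CommRing Z] [Algebra Z R]

instance : Module Z (NPS σ R) := inferInstanceAs (Module Z (List σ → R))

@[simp] lemma co_smul (z : Z) (f : NPS σ R) (w : List σ) : co (z • f) w = z • co f w := rfl

lemma smul_eq_C_mul (z : Z) (f : NPS σ R) : z • f = C (algebraMap Z R z) * f := by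
  ext w; simp [Algebra.smul_def]

lemma smul_eq_mul_C (z : Z) (f : NPS σ R) : z • f = f * C (algebraMap Z R z) := by
  ext w; simp [Algebra.smul_def, Algebra.commutes]

instance : Algebra Z (NPS σ R) :=
  Algebra.ofModule
    (fun z f g => by rw [smul_eq_C_mul, smul_eq_C_mul, mul_assoc])
    (fun z f g => by rw [smul_eq_mul_C, smul_eq_mul_C, mul_assoc])

lemma algebraMap_eq (z : Z) : algebraMap Z (NPS σ R) z = C (algebraMap Z R z) := by
  rw [Algebra.algebraMap_eq_smul_one, smul_eq_C_mul, mul_one]

def cstA : NPS σ R →ₐ[Z] R :=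
  { (cst : NPS σ R →+* R) with
    commutes' := fun z => by simp [algebraMap_eq] }

@[simp] lemma cstA_apply (f : NPS σ R) : (cstA : NPS σ R →ₐ[Z] R) f = co f [] := rfl

def CA : R →ₐ[Z] NPS σ R :=
  { (C : R →+* NPS σ R) with
    commutes' := fun z => by simp [algebraMap_eq] }

@[simp] lemma CA_apply (r : R) : (CA : R →ₐ[Z] NPS σ R) r = C r := rfl

def coL (w : List σ) : NPS σ R →ₗ[Z] R where
  toFun f := co f w
  map_add' _ _ := rfl
  map_smul' _ _ := rfl

@[simp] lemma coL_apply (w : List σ) (f : NPS σ R) : (coL w : NPS σ R →ₗ[Z] R) f = co f w := rfl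

end Alg

/-- leading coefficient of a product -/
lemma co_mul_append (f g : NPS σ R) (u v : List σ)
    (hf : ∀ w : List σ, w.length < u.length → co f w = 0)
    (hg : ∀ w : List σ, w.length < v.length → co g w = 0) :
    co (f * g) (u ++ v) = co f u * co g v := by
  induction u generalizing f with
  | nil =>
    have key : ∀ (w : List σ) (f : NPS σ R), w.length < v.length → co (f * g) w = 0 := by
      intro w
      induction w with
      | nil => intro f h; simp [co_mul_nil, hg [] h]
      | cons a w ih =>
        intro f h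
        rw [co_mul_cons, hg _ h, ih _ (by simp at h; omega)]
        simp
    cases v with
    | nil => simp [co_mul_nil]
    | cons a w => simp [co_mul_cons, key w _ (by simp)]
  | cons a u ih =>
    rw [List.cons_append, co_mul_cons, hf [] (by simp), ih (D a f)]
    · simp
    · intro w hw
      exact hf _ (by simp; omega)

lemma exists_min (f : NPS σ R) (hf : f ≠ 0) :
    ∃ u, co f u ≠ 0 ∧ ∀ w : List σ, w.length < u.length → co f w = 0 := by
  classical
  have h : ∃ n, ∃ u : List σ, u.length = n ∧ co f u ≠ 0 := by
    by_contra h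
    push Not at h
    exact hf (ext fun w => h _ w rfl)
  obtain ⟨u, hu, hne⟩ := Nat.find_spec h
  refine ⟨u, hne, fun w hw => ?_⟩
  by_contra hw'
  exact Nat.find_min h (hu ▸ hw) ⟨w, rfl, hw'⟩

instance [NoZeroDivisors R] : NoZeroDivisors (NPS σ R) where
  eq_zero_or_eq_zero_of_mul_eq_zero {f g} h := by
    by_contra hc
    push Not at hc
    obtain ⟨u, hu, hu'⟩ := exists_min f hc.1
    obtain ⟨v, hv, hv'⟩ := exists_min g hc.2
    have := co_mul_append f g u v hu' hv'
    rw [h] at this
    exact mul_ne_zero hu hv this.symm

instance [Nontrivial R] : Nontrivial (NPS σ R) :=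
  ⟨0, 1, fun h => by simpa using congrArg (fun f : NPS σ R => co f []) h⟩

open Classical in
/-- the element `r` times the variable `a` -/
noncomputable def var (a : σ) (r : R) : NPS σ R := mk fun w => if w = [a] then r else 0

@[simp] lemma co_var_nil (a : σ) (r : R) : co (var a r) [] = 0 := by simp [var]

open Classical in
lemma co_var (a : σ) (r : R) (w : List σ) : co (var a r) w = if w = [a] then r else 0 := rfl

open Classical in
lemma co_var_one (a b : σ) (r : R) : co (var a r) [b] = if b = a then r else 0 := by
  simp [co_var]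

lemma co_var_two (a b c : σ) (w : List σ) (r : R) : co (var a r) (b :: c :: w) = 0 := by
  simp [co_var]

open Classical in
lemma D_var (a b : σ) (r : R) : D b (var a r) = if b = a then C r else 0 := by
  ext w
  cases w with
  | nil => split_ifs with h <;> simp [co_var, h]
  | cons c w => split_ifs with h <;> simp [co_var]

/-- a fixed point principle for recursion on the length of words -/
lemma exists_fixed {M : Type} [Inhabited M] (F : (List σ → M) → (List σ → M))
    (hF : ∀ x y w, (∀ u : List σ, u.length < w.length → x u = y u) → F x w = F y w) :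
    ∃ x, F x = x := by
  have key : ∀ n (w : List σ), w.length < n → ∀ k, n ≤ k →
      (F^[n] default) w = (F^[k] default) w := by
    intro n
    induction n with
    | zero => intro w h; omega
    | succ n ih =>
      intro w h k hk
      obtain ⟨k, rfl⟩ : ∃ k', k = k' + 1 := ⟨k - 1, by omega⟩
      rw [Function.iterate_succ_apply', Function.iterate_succ_apply']
      apply hF
      intro u hu
      exact ih u (by omega) k (by omega)
  refine ⟨fun w => (F^[w.length + 1] default) w, funext fun w => ?_⟩
  show F _ w = (F^[w.length + 1] default) w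
  rw [Function.iterate_succ_apply']
  apply hF
  intro u hu
  exact key _ u (by omega) _ (by omega)

end NPS

end Vale.Agent.P199
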