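import Vale.Agent.P199.Greedy

namespace Vale.Agent.P199

open Module NPS

section
variable {Z D σ : Type} [Field Z] [DivisionRing D] [Algebra Z D] [Fintype σ]

def HF1 (b : NPS σ D) (f : σ → Z) : Prop :=
  ∀ (S : Type) [Fintype S] (φ : σ → NPS S D) (hφ : SubOK φ) (n : ℕ), 2 ≤ n →
    subst hφ b ∈ (Filt.ord S D).I n → ∀ w : List S, w.length = n →
      co (subst hφ b) w * (lin Z b f)⁻¹ ∈ EE Z b f

def HF2 (T : Tr Z D) (b : NPS σ D) (f : σ → Z) : Prop :=
  ∀ (S : Type) [Fintype S] (φ : σ → NPS S D) (hφ : SubOK φ) (n : ℕ), 2 ≤ n →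
    subst hφ b ∈ (Filt.ord S D).I n → ∀ e ∈ WW T b f, ∀ w : List S, w.length = n →
      ∑ s ∈ Finset.range n, T.τ ((lin Z b f)⁻¹ * e * co (subst hφ b) (w.rotate s)) = 0

noncomputable def Gam (T : Tr Z D) (b : NPS σ D) (f : σ → Z) : D →ₗ[Z] WW T b f →ₗ[Z] Z :=
  LinearMap.mk₂ Z (fun d e => T.τ ((lin Z b f)⁻¹ * e * d)) (fun d d' e => by simp [mul_add])
    (fun z d e => by simp) (fun d e e' => by simp [mul_add, add_mul]) (fun z d e => by simp)

lemma Gam_apply (T : Tr Z D) (b : NPS σ D) (f : σ → Z) (d : D) (e : WW T b f) :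
    Gam T b f d e = T.τ ((lin Z b f)⁻¹ * e * d) := rfl

variable {S : Type}

def sb (D : Type) [Ring D] [Algebra Z D] (c : List S → σ → Z) (i : σ) : NPS S D :=
  NPS.mk fun w => algebraMap Z D (c w i)

omit [Fintype σ] in
lemma co_sb (c : List S → σ → Z) (i : σ) (w : List S) :
    co (sb D c i) w = algebraMap Z D (c w i) := rfl

omit [Fintype σ] in
lemma sb_ok {c : List S → σ → Z} (h : c [] = 0) : SubOK (sb D c) where
  nil a := by simp [co_sb, h]
  comm r a := by
    rw [comm_C_iff]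
    intro w
    rw [co_sb, Algebra.commutes]

omit [Fintype σ] in
lemma sb_add (c c' : List S → σ → Z) : sb D (c + c') = sb D c + sb D c' := by
  funext i
  ext w
  simp [co_sb]

omit [Fintype σ] in
lemma sb_mem {c : List S → σ → Z} {n : ℕ} (h : ∀ w : List S, w.length < n → c w = 0) (i : σ) :
    sb D c i ∈ (Filt.ord S D).I n := by
  rw [Filt.mem_ord]
  intro w hw
  simp [co_sb, h w hw]

lemma subst_congr {φ φ' : σ → NPS S D} (h : SubOK φ) (h' : EvOK (Filt.ord S D) C φ') (e : φ = φ') :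
    subst h = ev h' := by
  subst e; rfl

lemma co_sum_sb (c : List S → σ → Z) (b : NPS σ D) (w : List S) :
    co (∑ i, sb D c i * C (co b [i])) w = lin Z b (c w) := by
  simp [co_sb, lin_apply, Algebra.smul_def]

lemma co_sum_sb2 (c c' : List S → σ → Z) (b : NPS σ D) (u v : List S)
    (h : ∀ w : List S, w.length < u.length → c w = 0)
    (h' : ∀ w : List S, w.length < v.length → c' w = 0) :
    co (∑ i, ∑ j, sb D c i * sb D c' j * C (co b [i, j])) (u ++ v) = quad Z b (c u) (c' v) := by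
  simp only [co_sum, co_mul_C, quad_apply]
  refine Finset.sum_congr rfl fun i _ => Finset.sum_congr rfl fun j _ => ?_
  rw [co_mul_append _ _ _ _ (Filt.mem_ord.1 (sb_mem h i)) (Filt.mem_ord.1 (sb_mem h' j)), co_sb,
    co_sb, ← map_mul, Algebra.smul_def]

lemma subst_nil {φ : σ → NPS S D} (h : SubOK φ) (z : NPS σ D) : co (subst h z) [] = co z [] := by
  have := Filt.mem_ord.1 (ev_sub_const h.ev h.ev.hs z) [] (by simp)
  rw [co_sub, sub_eq_zero] at this
  exact this

lemma subst_sb_one {c : List S → σ → Z} (h : c [] = 0) (z : NPS σ D) (a : S) :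
    co (subst (sb_ok h) z) [a] = lin Z z (c [a]) := by
  have := Filt.mem_ord.1 (ev_sub_lin (sb_ok (D := D) h).ev (sb_ok h).ev.hs z) [a] (by simp)
  rw [co_sub, co_sub, co_C_cons, sub_zero, sub_eq_zero, co_sum_sb] at this
  exact this

lemma subst_sb_two {c : List S → σ → Z} (h : c [] = 0) (z : NPS σ D) (a a' : S) :
    co (subst (sb_ok h) z) [a, a'] = lin Z z (c [a, a']) + quad Z z (c [a]) (c [a']) := by
  have := Filt.mem_ord.1 (ev_sub_quad (sb_ok (D := D) h).ev (sb_ok h).ev.hs z) [a, a'] (by simp)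
  have h1 : ∀ (a : S) (w : List S), w.length < [a].length → c w = 0 := fun a w hw => by
    obtain rfl : w = [] := List.length_eq_zero_iff.1 (by simpa using hw)
    exact h
  have e := co_sum_sb2 c c z [a] [a'] (h1 a) (h1 a')
  rw [co_sub, co_sub, co_sub, co_C_cons, sub_zero, sub_sub, sub_eq_zero, co_sum_sb] at this
  rw [← e]
  exact this

lemma subst_sb_mem2 {c : List S → σ → Z} (h : c [] = 0) {b : NPS σ D} (hb : co b [] = 0)
    (h1 : ∀ a, lin Z b (c [a]) = 0) : subst (sb_ok h) b ∈ (Filt.ord S D).I 2 := by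
  rw [Filt.mem_ord]
  intro w hw
  rcases w with _ | ⟨a, _ | ⟨a', w⟩⟩
  · rw [subst_nil, hb]
  · rw [subst_sb_one h, h1]
  · simp at hw

lemma cyc_solve [CharZero Z] (f : ℕ → Z) (n : ℕ) (hn : n ≠ 0) (h0 : f n = f 0)
    (h : ∑ i ∈ Finset.range n, f i = 0) :
    ∑ i ∈ Finset.range n, (i / n : Z) * f i - ∑ i ∈ Finset.range n, (i / n : Z) * f (1 + i) =
      - f 0 := by
  have hn' : (n : Z) ≠ 0 := by exact_mod_cast hn
  have h1 := Finset.sum_range_succ (fun i => (i : Z) * f i) n
  have h2 := Finset.sum_range_succ' (fun i => (i : Z) * f i) n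
  have h3 := Finset.sum_range_succ f n
  have h4 := Finset.sum_range_succ' f n
  simp only [Nat.cast_add, Nat.cast_one, add_mul, one_mul, Finset.sum_add_distrib, Nat.cast_zero,
    zero_mul, add_zero] at h2
  simp only [div_mul_eq_mul_div, ← Finset.sum_div, add_comm 1]
  rw [h, h0] at h3
  rw [h0] at h1
  field_simp
  linear_combination h2 - h1 - h4 + h3

lemma anti_of_F2 {T : Tr Z D} {b : NPS σ D} {f : σ → Z} (hb : co b [] = 0) (h2 : HF2 T b f)
    (p : σ → Z) (hp : lin Z b p = 0) (q : σ → Z) (hq : lin Z b q = 0) :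
    Gam T b f (quad Z b p q) + Gam T b f (quad Z b q p) = 0 := by
  let c : List Bool → σ → Z := fun w => match w with
    | [true] => p
    | [false] => q
    | _ => 0
  have hc : c [] = 0 := rfl
  ext e
  have := h2 Bool (sb D c) (sb_ok hc) 2 le_rfl
    (subst_sb_mem2 hc hb fun a => by cases a <;> assumption) e e.2 [true, false] rfl
  simp only [Finset.sum_range_succ, Finset.range_zero, Finset.sum_empty, zero_add,
    List.rotate_zero, List.rotate_cons_succ, List.cons_append, List.nil_append,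
    subst_sb_two hc] at this
  simpa [Gam_apply, c] using this

variable [Fintype S] [FiniteDimensional Z D] [CharZero Z]

structure NData (T : Tr Z D) (b : NPS σ D) (f : σ → Z) (p : S → σ → Z) : Prop where
  hv : lin Z b f ≠ 0
  hb : co b [] = 0
  h1 : HF1 b f
  h2 : HF2 T b f
  p0 : ∀ a, lin Z b (p a) = 0
  iso : ∀ a a', Gam T b f (quad Z b (p a) (p a')) = 0
  surj : ∀ ψ : S → WW T b f →ₗ[Z] Z, ∃ κ, lin Z b κ = 0 ∧ ∀ a, Gam T b f (quad Z b κ (p a)) = ψ a

def NSt (b : NPS σ D) (p : S → σ → Z) (n : ℕ) (c : List S → σ → Z) : Prop :=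
  ∃ h : c [] = 0, (∀ a, c [a] = p a) ∧ subst (sb_ok h) b ∈ (Filt.ord S D).I n

variable {T : Tr Z D} {b : NPS σ D} {f : σ → Z} {p : S → σ → Z}

omit [CharZero Z] in
lemma NData.stepB (N : NData T b f p) {n : ℕ} (hn : 2 ≤ n) {c : List S → σ → Z} (h : c [] = 0)
    (hp : ∀ a, c [a] = p a) (hc : subst (sb_ok h) b ∈ (Filt.ord S D).I n)
    (hW : ∀ w : List S, w.length = n → Gam T b f (co (subst (sb_ok h) b) w) = 0) :
    ∃ c', NSt b p (n + 1) c' ∧ ∀ w : List S, w.length < n → c' w = c w := by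
  classical
  have key : ∀ w : List S, ∃ δ : σ → Z, w.length = n → lin Z b δ = co (subst (sb_ok h) b) w := by
    intro w
    by_cases hw : w.length = n
    swap
    · exact ⟨0, fun e => absurd e hw⟩
    have h1 := T.mem_of_perp_sub _ _ (Vt_le b f) (N.h1 S _ _ n hn hc w hw) fun e he he' => by
      have := LinearMap.congr_fun (hW w hw) ⟨e, he, he'⟩
      rw [Gam_apply, mul_assoc, T.comm, mul_assoc] at this
      exact this
    obtain ⟨δ, hδ⟩ := mem_Vt.1 h1
    exact ⟨δ, fun _ => mul_right_cancel₀ (inv_ne_zero N.hv) hδ⟩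
  choose δ hδ using key
  let κ : List S → σ → Z := fun w => if w.length = n then -δ w else 0
  have hκ : ∀ w : List S, w.length < n → κ w = 0 := fun w hw => if_neg (by omega)
  have h' : (c + κ) [] = 0 := by rw [Pi.add_apply, h, hκ _ (by simp; omega), add_zero]
  have ok' : EvOK (Filt.ord S D) C (sb D c + sb D κ) := sb_add (D := D) c κ ▸ (sb_ok h').ev
  refine ⟨c + κ, ⟨h', fun a => ?_, ?_⟩, fun w hw => ?_⟩
  · rw [Pi.add_apply, hp, hκ _ (by simp; omega), add_zero]
  · rw [subst_congr _ ok' (sb_add c κ), Filt.mem_ord]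
    intro w hw
    have := Filt.mem_ord.1 (lip2 (sb_ok h).ev ok' (sb_mem hκ) (sb_ok h).ev.hs (by omega) b) w hw
    rw [co_sub, co_sub, sub_sub, sub_eq_zero, co_sum_sb] at this
    rw [this]
    by_cases hw' : w.length = n
    · simp only [κ, if_pos hw', map_neg, hδ w hw']
      exact add_neg_cancel _
    · rw [hκ w (by omega), map_zero, add_zero]
      exact Filt.mem_ord.1 hc w (by omega)
  · rw [Pi.add_apply, hκ w hw, add_zero]

lemma NData.stepA (N : NData T b f p) {n : ℕ} (hn : 2 ≤ n) {c : List S → σ → Z} (h : c [] = 0)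
    (hp : ∀ a, c [a] = p a) (hc : subst (sb_ok h) b ∈ (Filt.ord S D).I (n + 1)) :
    ∃ c' : List S → σ → Z, ∃ h' : c' [] = 0, (∀ a, c' [a] = p a) ∧ subst (sb_ok h') b ∈ (Filt.ord S D).I (n + 1) ∧
      (∀ w : List S, w.length = n + 1 → Gam T b f (co (subst (sb_ok h') b) w) = 0) ∧
      ∀ w : List S, w.length < n → c' w = c w := by
  classical
  let o : List S → WW T b f →ₗ[Z] Z := fun w => Gam T b f (co (subst (sb_ok h) b) w)
  let Bt : List S → WW T b f →ₗ[Z] Z := fun w =>
    ∑ i ∈ Finset.range (n + 1), (i / (n + 1 : ℕ) : Z) • o (w.rotate i)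
  have hBt : ∀ w : List S, w.length = n + 1 → Bt w - Bt (w.rotate 1) = - o w := by
    intro w hw
    ext e
    have := cyc_solve (fun i => o (w.rotate i) e) (n + 1) (by omega)
      (by simp only [← hw, List.rotate_length, List.rotate_zero])
      (N.h2 S _ _ (n + 1) (by omega) hc e e.2 w hw)
    simpa [Bt, List.rotate_rotate] using this
  choose κ0 hκ0 hκ1 using fun u : List S => N.surj fun a => Bt (u ++ [a])
  let κ : List S → σ → Z := fun w => if w.length = n then κ0 w else 0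
  have hκ : ∀ w : List S, w.length < n → κ w = 0 := fun w hw => if_neg (by omega)
  have hκl : ∀ w, lin Z b (κ w) = 0 := fun w => by
    simp only [κ]
    split_ifs
    · exact hκ0 w
    · simp
  have h' : (c + κ) [] = 0 := by rw [Pi.add_apply, h, hκ _ (by simp; omega), add_zero]
  have ok' : EvOK (Filt.ord S D) C (sb D c + sb D κ) := sb_add (D := D) c κ ▸ (sb_ok h').ev
  have hc1 : ∀ (a : S) (w : List S), w.length < [a].length → c w = 0 := fun a w hw => by
    obtain rfl : w = [] := List.length_eq_zero_iff.1 (by simpa using hw)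
    exact h
  refine ⟨c + κ, h', fun a => ?_, ?_, fun w hw => ?_, fun w hw => ?_⟩
  · rw [Pi.add_apply, hp, hκ _ (by simp; omega), add_zero]
  · rw [subst_congr _ ok' (sb_add c κ), Filt.mem_ord]
    intro w hw
    have := Filt.mem_ord.1 (lip2 (sb_ok h).ev ok' (sb_mem hκ) (sb_ok h).ev.hs (by omega) b) w hw
    rw [co_sub, co_sub, sub_sub, sub_eq_zero, co_sum_sb, hκl, add_zero] at this
    rw [this]
    exact Filt.mem_ord.1 hc w hw
  · rw [subst_congr _ ok' (sb_add c κ)]
    have := Filt.mem_ord.1 (lip3 (sb_ok h).ev ok' (sb_mem hκ) (sb_ok h).ev.hs (by omega) b) w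
      (by omega)
    have e1 : ∑ i, ∑ j, (sb D κ i * (sb D c j + sb D κ j) + sb D c i * sb D κ j) * C (co b [i, j]) =
        ∑ i, ∑ j, sb D κ i * sb D c j * C (co b [i, j]) +
        ∑ i, ∑ j, sb D κ i * sb D κ j * C (co b [i, j]) +
        ∑ i, ∑ j, sb D c i * sb D κ j * C (co b [i, j]) := by
      simp only [mul_add, add_mul, Finset.sum_add_distrib]
    have e2 : co (∑ i, ∑ j, sb D κ i * sb D κ j * C (co b [i, j])) w = 0 := by
      refine (Filt.mem_ord (n := n + n)).1 (sum_mem fun i _ => sum_mem fun j _ => ?_) w (by omega)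
      exact (Filt.ord S D).mul_mem' ((Filt.ord S D).mul_mem (sb_mem hκ i) (sb_mem hκ j))
        (Filt.mem_ord_zero _) (by omega)
    obtain ⟨u, a', hu⟩ : ∃ u a', w = u ++ [a'] := by
      rcases List.eq_nil_or_concat w with rfl | ⟨u, a', rfl⟩
      · simp at hw
      · exact ⟨u, a', by simp⟩
    obtain ⟨a, u', hu'⟩ : ∃ a u', w = [a] ++ u' := by
      cases w with
      | nil => simp at hw
      | cons a u' => exact ⟨a, u', rfl⟩
    have hul : u.length = n := by simpa [hu] using hw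
    have hul' : u'.length = n := by simpa [hu'] using hw
    have e3 := co_sum_sb2 κ c b u [a'] (hul ▸ hκ) (hc1 a')
    have e4 := co_sum_sb2 c κ b [a] u' (hc1 a) (hul' ▸ hκ)
    rw [← hu] at e3
    rw [← hu'] at e4
    rw [co_sub, co_sub, co_sub, co_sum_sb, hκl, sub_zero, sub_sub, sub_eq_zero, e1, co_add, co_add,
      e2, e3, e4, add_zero, hp, hp] at this
    have e5 := anti_of_F2 N.hb N.h2 (p a) (N.p0 a) (κ u') (hκl u')
    have e6 := hBt w hw
    have e7 : w.rotate 1 = u' ++ [a] := by rw [hu']; simp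
    rw [this, map_add, map_add, eq_neg_of_add_eq_zero_left e5]
    simp only [κ, if_pos hul, if_pos hul', hκ1]
    rw [← hu, ← e7, ← sub_eq_add_neg, e6]
    exact add_neg_cancel _
  · rw [Pi.add_apply, hκ w hw, add_zero]

lemma NData.step (N : NData T b f p) (k : ℕ) {c : List S → σ → Z} (h : NSt b p (k + 2) c) :
    ∃ c', NSt b p (k + 3) c' ∧ ∀ w : List S, w.length < k + 1 → c' w = c w := by
  obtain ⟨h, hp, hc⟩ := h
  rcases k with _ | k
  · obtain ⟨c', h1, h2⟩ := N.stepB le_rfl h hp hc fun w hw => by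
      rcases w with _ | ⟨a, _ | ⟨a', _ | ⟨a'', w⟩⟩⟩ <;> simp at hw
      rw [subst_sb_two h, map_add, hp, hp, N.iso, add_zero]
      ext e
      rw [Gam_apply, mul_assoc, T.comm, mul_assoc, T.comm]
      exact e.2.2 _ (mem_Vt.2 ⟨_, rfl⟩)
    exact ⟨c', h1, fun w hw => h2 w (by omega)⟩
  · obtain ⟨c1, h1, h2, h3, h4, h5⟩ := N.stepA (n := k + 2) (by omega) h hp hc
    obtain ⟨c', h6, h7⟩ := N.stepB (by omega) h1 h2 h3 h4
    exact ⟨c', h6, fun w hw => (h7 w (by omega)).trans (h5 w hw)⟩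

lemma NData.solve (N : NData T b f p) :
    ∃ c : List S → σ → Z, ∃ h : c [] = 0, (∀ a, c [a] = p a) ∧ subst (sb_ok h) b = 0 := by
  let c0 : List S → σ → Z := fun w => match w with
    | [a] => p a
    | _ => 0
  have h0 : NSt b p 2 c0 := ⟨rfl, fun _ => rfl, subst_sb_mem2 rfl N.hb N.p0⟩
  choose nx hnx1 hnx2 using fun (k : ℕ) (c : {c // NSt b p (k + 2) c}) => N.step k c.2
  let sq : (k : ℕ) → {c // NSt b p (k + 2) c} := fun k =>
    Nat.rec (motive := fun k => {c // NSt b p (k + 2) c}) ⟨c0, h0⟩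
      (fun k c => ⟨nx k c, hnx1 k c⟩) k
  have hsq : ∀ (w : List S) k, w.length ≤ k → (sq k).1 w = (sq w.length).1 w := by
    intro w k hk
    induction k, hk using Nat.le_induction with
    | base => rfl
    | succ k hk ih => rw [← ih]; exact hnx2 k (sq k) w (by omega)
  let c : List S → σ → Z := fun w => (sq w.length).1 w
  have hc : c [] = 0 := (sq 0).2.1
  refine ⟨c, hc, fun a => (sq 1).2.2.1 a, (Filt.ord S D).sep _ fun k => ?_⟩
  obtain ⟨h1, -, h2⟩ := (sq k).2
  have e : sb D c = sb D (sq k).1 + sb D (c - (sq k).1) := by rw [← sb_add, add_sub_cancel]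
  have ok' : EvOK (Filt.ord S D) C (sb D (sq k).1 + sb D (c - (sq k).1)) := e ▸ (sb_ok hc).ev
  rw [subst_congr _ ok' e]
  have h3 := lip1 (sb_ok h1).ev ok' (e := k) (sb_mem fun w hw => by
    rw [Pi.sub_apply, hsq w k (by omega), sub_self]) b
  have := add_mem h3 ((Filt.ord S D).anti (show k ≤ k + 2 by omega) h2)
  rwa [subst, sub_add_cancel] at this

theorem newton (T : Tr Z D) (X Y b : NPS σ D) (f : σ → Z) (hv : lin Z b f ≠ 0) (hb : co b [] = 0)
    (h1 : HF1 b f) (h2 : HF2 T b f) (g N : ℕ)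
    (nd : ∀ e ∈ WW T b f, e ≠ 0 → ∃ Θ : Submodule Z (σ → Z), N ≤ finrank Z Θ ∧
      ∀ δ' ∈ Θ, δ' ≠ 0 → ∃ δ, T.τ ((lin Z b f)⁻¹ * e * quad Z b δ δ') ≠ 0)
    (hrk : finrank Z D + N ≤ rk Z X Y)
    (hN : 2 * finrank Z (EE Z b f) + g * finrank Z (WW T b f) +
      (g + 1) * (finrank Z (WW T b f) + 1) < N) :
    ∃ (φ : σ → NPS (Fin g) D) (hφ : SubOK φ), subst hφ b = 0 ∧
      finrank Z (LinearMap.range (inn Z (co X []) (co Y []))) + g ≤
        rk Z (subst hφ X) (subst hφ Y) := by
  let I := LinearMap.range (inn Z (co X []) (co Y []))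
  let lam := I.mkQ.comp ((lin Z X).prod (lin Z Y))
  have hI : ∀ (S : Submodule Z (D × D)), I ≤ S →
      finrank Z (S.map I.mkQ) + finrank Z I = finrank Z S := fun S hS => by
    have := finrank_map_add_inf I.mkQ S
    rwa [Submodule.ker_mkQ, inf_eq_right.2 hS] at this
  obtain ⟨p, hp0, hp1, hp2, hp3⟩ := greedy2 ((quad Z b).compr₂ (Gam T b f)) lam
    (LinearMap.ker (lin Z b)) (fun p hp q hq => anti_of_F2 hb h2 p hp q hq) g N
    (finrank Z (EE Z b f))
    (by
      have e1 := (lin Z b).finrank_range_add_finrank_ker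
      have e2 : finrank Z (LinearMap.range (lin Z b)) = finrank Z (Vt Z b f) :=
        LinearEquiv.finrank_eq (Submodule.equivMapOfInjective _
          (mul_left_injective₀ (inv_ne_zero hv)) _)
      have e3 : finrank Z (Vt Z b f) ≤ finrank Z (EE Z b f) := Submodule.finrank_mono (Vt_le b f)
      omega)
    (by
      have e1 := hI (LinearMap.range (Phi Z X Y)) (by
        rw [Phi, LinearMap.range_coprod]; exact le_sup_right)
      have e2 : (LinearMap.range (Phi Z X Y)).map I.mkQ = LinearMap.range lam := by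
        rw [Phi, LinearMap.range_coprod, Submodule.map_sup, Submodule.mkQ_map_self, sup_bot_eq,
          LinearMap.range_comp]
      have e3 : finrank Z I ≤ finrank Z D := LinearMap.finrank_range_le _
      rw [e2] at e1
      rw [rk] at hrk
      omega)
    (fun e he => nd e e.2 fun h => he (Subtype.ext h)) hN
  obtain ⟨c, hc, hc1, hc2⟩ := NData.solve (T := T) (f := f) ⟨hv, hb, h1, h2, hp0, hp1, hp2⟩
  refine ⟨sb D c, sb_ok hc, hc2, ?_⟩
  have e1 := hI (LinearMap.range (Phi Z (subst (sb_ok hc) X) (subst (sb_ok hc) Y))) (by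
    rw [Phi, LinearMap.range_coprod, subst_nil, subst_nil]; exact le_sup_right)
  have e2 := card_le_rank (I.mkQ.comp (Phi Z (subst (sb_ok hc) X) (subst (sb_ok hc) Y)))
    (q := fun a : Fin g => (Pi.single a 1, 0)) (by
      convert hp3 using 2 with a
      simp [lam, Phi_apply, lin_single, subst_sb_one hc, hc1])
  rw [LinearMap.range_comp, Fintype.card_fin] at e2
  rw [rk, ← e1, add_comm]
  exact Nat.add_le_add_right e2 _

end

end Vale.Agent.P199
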