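import Vale.Agent.P199.Casimir

namespace Vale.Agent.P199

open Module NPS Filter

lemma fd_of_rel {Z R ι : Type} [Field Z] [Ring R] [Algebra Z R] [Fintype ι] (X Y : R) (q : ι → R)
    (S : Set R) (hS : S.Finite) (hint : ∀ a ∈ S, IsIntegral Z a)
    (hmem : ∀ a ∈ S, a ∈ Algebra.adjoin Z {X, Y})
    (hc : ∀ a ∈ S, ∀ u ∈ ({X, Y} : Set R), Commute a u)
    (h1 : ∃ β : ι → R, (∀ k, β k ∈ S) ∧ 1 = ∑ k, β k * q k)
    (hq : ∀ u ∈ ({X, Y} : Set R), ∀ j, ∃ β : ι → R, (∀ k, β k ∈ S) ∧ u * q j = ∑ k, β k * q k) :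
    FiniteDimensional Z (Algebra.adjoin Z {X, Y}) := by
  let K := Algebra.adjoin Z S
  have hK : K.toSubmodule.FG := by
    haveI : IsMulCommutative K := Algebra.isMulCommutative_adjoin Z fun a ha b hb =>
      Algebra.commute_of_mem_adjoin_of_forall_mem_commute (hmem b hb) (hc a ha)
    letI : CommRing K := { (inferInstance : Ring K) with mul_comm := mul_comm' }
    have h2 := fg_adjoin_of_finite (R := Z) (s := ((↑) : K → R) ⁻¹' S)
      (hS.preimage Subtype.val_injective.injOn) fun x hx =>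
        (isIntegral_algHom_iff K.val Subtype.val_injective).1 (hint _ hx)
    rw [Algebra.adjoin_adjoin_coe_preimage] at h2
    exact Module.Finite.iff_fg.1 ⟨h2⟩
  let N := Submodule.span Z (Set.range q)
  let M := K.toSubmodule * N
  have hM : M.FG := hK.mul (Submodule.fg_span (Set.finite_range q))
  have hsum : ∀ β : ι → R, (∀ k, β k ∈ S) → ∑ k, β k * q k ∈ M := fun β hβ =>
    Submodule.sum_mem _ fun k _ => Submodule.mul_mem_mul (Algebra.subset_adjoin (hβ k))
      (Submodule.subset_span ⟨k, rfl⟩)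
  have hKM : ∀ k ∈ K, ∀ m ∈ M, k * m ∈ M := fun k hk m hm => by
    refine Submodule.mul_induction_on hm (fun a ha b hb => ?_) (fun a b ha hb => ?_)
    · rw [← mul_assoc]
      exact Submodule.mul_mem_mul (K.mul_mem hk ha) hb
    · rw [mul_add]; exact add_mem ha hb
  have hu : ∀ u ∈ ({X, Y} : Set R), ∀ m ∈ M, u * m ∈ M := fun u hu m hm => by
    refine Submodule.mul_induction_on hm (fun a ha b hb => ?_) (fun a b ha hb => ?_)
    · have : Commute u a :=
        Algebra.commute_of_mem_adjoin_of_forall_mem_commute ha fun c hc' => (hc c hc' u hu).symm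
      rw [← mul_assoc, this.eq, mul_assoc]
      apply hKM a ha
      induction hb using Submodule.span_induction with
      | mem x hx =>
        obtain ⟨j, rfl⟩ := hx
        obtain ⟨β, hβ, e⟩ := hq u hu j
        rw [e]; exact hsum β hβ
      | zero => rw [mul_zero]; exact zero_mem _
      | add x y _ _ hx hy => rw [mul_add]; exact add_mem hx hy
      | smul z x _ hx => rw [mul_smul_comm]; exact M.smul_mem _ hx
    · rw [mul_add]; exact add_mem ha hb
  have hA : ∀ a ∈ Algebra.adjoin Z {X, Y}, ∀ m ∈ M, a * m ∈ M := fun a ha => by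
    induction ha using Algebra.adjoin_induction with
    | mem x hx => exact hu x hx
    | algebraMap r => intro m hm; rw [← Algebra.smul_def]; exact M.smul_mem _ hm
    | add x y _ _ hx hy => intro m hm; rw [add_mul]; exact add_mem (hx m hm) (hy m hm)
    | mul x y _ _ hx hy => intro m hm; rw [mul_assoc]; exact hx _ (hy m hm)
  obtain ⟨β, hβ, e⟩ := h1
  have hle : (Algebra.adjoin Z {X, Y}).toSubmodule ≤ M := fun a ha => by
    have := hA a ha 1 (e ▸ hsum β hβ)
    rwa [mul_one] at this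
  haveI : Module.Finite Z M := Module.Finite.iff_fg.2 hM
  exact Submodule.finiteDimensional_of_le hle

abbrev FR : Type := FreeRing (Bool ⊕ (ℕ × ℕ))

def sy (p : ℕ × ℕ) : FR := FreeRing.of (Sum.inr p)
def ge (b : Bool) : FR := FreeRing.of (Sum.inl b)

structure Stg where
  s : St
  val : ℕ × ℕ → s.Z

noncomputable def Stg.ρ (g : Stg) : FR →+* g.s.R :=
  FreeRing.lift (Sum.elim (fun b => bif b then g.s.X else g.s.Y)
    fun p => algebraMap g.s.Z g.s.R (g.val p))

lemma Stg.ρ_sy (g : Stg) (p : ℕ × ℕ) : g.ρ (sy p) = algebraMap g.s.Z g.s.R (g.val p) :=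
  FreeRing.lift_of _ _
lemma Stg.ρ_X (g : Stg) : g.ρ (ge true) = g.s.X := FreeRing.lift_of _ _
lemma Stg.ρ_Y (g : Stg) : g.ρ (ge false) = g.s.Y := FreeRing.lift_of _ _

lemma FR.ind {C : FR → Prop} (hn1 : C (-1)) (hX : C (ge true)) (hY : C (ge false))
    (hs : ∀ p, C (sy p)) (ha : ∀ x y, C x → C y → C (x + y)) (hm : ∀ x y, C x → C y → C (x * y))
    (z : FR) : C z := by
  refine FreeRing.induction_on z hn1 ?_ ha hm
  rintro ((_ | _) | p)
  · exact hY
  · exact hX
  · exact hs p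

lemma Stg.ρ_mem (g : Stg) (T : FR) : g.ρ T ∈ Algebra.adjoin g.s.Z {g.s.X, g.s.Y} := by
  induction T using FR.ind with
  | hn1 => rw [map_neg, map_one]; exact neg_mem (one_mem _)
  | hX => rw [g.ρ_X]; exact Algebra.subset_adjoin (by simp)
  | hY => rw [g.ρ_Y]; exact Algebra.subset_adjoin (by simp)
  | hs p => rw [g.ρ_sy]; exact Subalgebra.algebraMap_mem _ _
  | ha x y hx hy => rw [map_add]; exact add_mem hx hy
  | hm x y hx hy => rw [map_mul]; exact mul_mem hx hy

lemma Stg.step (g : Stg) (n : ℕ) (T : FR) : ∃ (g' : Stg) (M : Mor g.s g'.s),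
    (∀ p : ℕ × ℕ, p.1 ≠ n → g'.val p = M.ι (g.val p)) ∧ (M.Ψ (g.ρ T) = 0 ∨ ∃ m : ℕ,
      M.Ψ (g.ρ T) * ∑ i ∈ Finset.range m, g'.ρ (sy (n, i)) * M.Ψ (g.ρ T) ^ i = 1) := by
  obtain ⟨s', M, q, h⟩ := main_step g.s (g.ρ T) (g.ρ_mem T)
  refine ⟨⟨s', fun p => if p.1 = n then q.coeff p.2 else M.ι (g.val p)⟩, M,
    fun p hp => if_neg hp, h.imp_right fun h => ⟨q.natDegree + 1, ?_⟩⟩
  rw [Polynomial.aeval_eq_sum_range] at h
  rw [← h]
  congr 1
  refine Finset.sum_congr rfl fun i _ => ?_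
  rw [Stg.ρ_sy, Algebra.smul_def]
  simp only [if_true]

structure Tower where
  g : ℕ → Stg
  M : ∀ n, Mor (g n).s (g (n + 1)).s
  hval : ∀ n (p : ℕ × ℕ), p.1 ≠ n → (g (n + 1)).val p = (M n).ι ((g n).val p)
  hstep : ∀ (T : FR) (N : ℕ), ∃ n, N ≤ n ∧ ((M n).Ψ ((g n).ρ T) = 0 ∨ ∃ m : ℕ,
      (M n).Ψ ((g n).ρ T) * ∑ i ∈ Finset.range m, (g (n + 1)).ρ (sy (n, i)) *
        (M n).Ψ ((g n).ρ T) ^ i = 1)

lemma Tower.nonempty : Nonempty Tower := by
  obtain ⟨e, he⟩ := exists_surjective_nat FR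
  choose nx M h1 h2 using Stg.step
  let g : ℕ → Stg := fun n => Nat.rec ⟨St.init, 0⟩ (fun n g => nx g n (e n.unpair.1)) n
  refine ⟨⟨g, fun n => M (g n) n (e n.unpair.1), fun n => h1 (g n) n _, fun T N => ?_⟩⟩
  obtain ⟨k, rfl⟩ := he T
  refine ⟨Nat.pair k N, Nat.right_le_pair _ _, ?_⟩
  have := h2 (g (Nat.pair k N)) (Nat.pair k N) (e (Nat.pair k N).unpair.1)
  have e1 : e (Nat.pair k N).unpair.1 = e k := by rw [Nat.unpair_pair]
  rw [← e1]
  exact this

namespace Tower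
variable (t : Tower)

def comp (N : ℕ) : Subring FR where
  carrier := {T | ∀ n, N ≤ n → (t.M n).Ψ ((t.g n).ρ T) = (t.g (n + 1)).ρ T}
  mul_mem' ha hb n hn := by simp only [map_mul, ha n hn, hb n hn]
  add_mem' ha hb n hn := by simp only [map_add, ha n hn, hb n hn]
  one_mem' n _ := by simp only [map_one]
  zero_mem' n _ := by simp only [map_zero]
  neg_mem' ha n hn := by simp only [map_neg, ha n hn]

lemma comp_mono {N N' : ℕ} (h : N ≤ N') : t.comp N ≤ t.comp N' :=
  fun _ hT n hn => hT n (h.trans hn)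

lemma sy_mem (k i : ℕ) : sy (k, i) ∈ t.comp (k + 1) := fun n hn => by
  rw [Stg.ρ_sy, Stg.ρ_sy, Mor.halg, t.hval n (k, i) (by simp; omega)]

lemma exists_comp (T : FR) : ∃ N, T ∈ t.comp N := by
  induction T using FR.ind with
  | hn1 => exact ⟨0, neg_mem (one_mem _)⟩
  | hX => exact ⟨0, fun n _ => by rw [Stg.ρ_X, Stg.ρ_X, Mor.hX]⟩
  | hY => exact ⟨0, fun n _ => by rw [Stg.ρ_Y, Stg.ρ_Y, Mor.hY]⟩
  | hs p => exact ⟨p.1 + 1, t.sy_mem _ _⟩
  | ha x y hx hy =>
    obtain ⟨a, ha⟩ := hx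
    obtain ⟨b, hb⟩ := hy
    exact ⟨max a b, add_mem (t.comp_mono (le_max_left _ _) ha) (t.comp_mono (le_max_right _ _) hb)⟩
  | hm x y hx hy =>
    obtain ⟨a, ha⟩ := hx
    obtain ⟨b, hb⟩ := hy
    exact ⟨max a b, mul_mem (t.comp_mono (le_max_left _ _) ha) (t.comp_mono (le_max_right _ _) hb)⟩

lemma ev_zero {T : FR} {N : ℕ} (hT : T ∈ t.comp N) (h : (t.g N).ρ T = 0) :
    ∀ᶠ n in atTop, (t.g n).ρ T = 0 := by
  refine eventually_atTop.2 ⟨N, fun n hn => ?_⟩
  induction n, hn using Nat.le_induction with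
  | base => exact h
  | succ n hn ih => rw [← hT n hn, ih, map_zero]

lemma dich (T : FR) : (∀ᶠ n in atTop, (t.g n).ρ T = 0) ∨ ∃ k m : ℕ, ∀ᶠ n in atTop,
    (t.g n).ρ (T * ∑ i ∈ Finset.range m, sy (k, i) * T ^ i - 1) = 0 := by
  obtain ⟨N, hN⟩ := t.exists_comp T
  obtain ⟨n, hn, h⟩ := t.hstep T N
  rw [hN n hn] at h
  have hT : T ∈ t.comp (n + 1) := t.comp_mono (by omega) hN
  refine h.imp (t.ev_zero hT) fun ⟨m, h⟩ => ⟨n, m, t.ev_zero (N := n + 1) ?_ ?_⟩
  · exact sub_mem (mul_mem hT (sum_mem fun i _ => mul_mem (t.sy_mem _ _) (pow_mem hT _)))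
      (one_mem _)
  · simp only [map_sub, map_mul, map_sum, map_pow, map_one, h, sub_self]

def con : RingCon FR where
  r T T' := ∀ᶠ n in atTop, (t.g n).ρ T = (t.g n).ρ T'
  iseqv := ⟨fun _ => Eventually.of_forall fun _ => rfl, fun h => h.mono fun _ => Eq.symm,
    fun h h' => (h.and h').mono fun _ h => h.1.trans h.2⟩
  add' h h' := (h.and h').mono fun _ h => by rw [map_add, map_add, h.1, h.2]
  mul' h h' := (h.and h').mono fun _ h => by rw [map_mul, map_mul, h.1, h.2]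

def Q : Type := t.con.Quotient

noncomputable instance : Ring t.Q := inferInstanceAs (Ring t.con.Quotient)

noncomputable def π : FR →+* t.Q := t.con.mk'

lemma π_surj : Function.Surjective t.π := Quotient.mk''_surjective

lemma π_eq {T T' : FR} : t.π T = t.π T' ↔ ∀ᶠ n in atTop, (t.g n).ρ T = (t.g n).ρ T' :=
  t.con.eq

lemma π_eq_zero {T : FR} : t.π T = 0 ↔ ∀ᶠ n in atTop, (t.g n).ρ T = 0 := by
  rw [← map_zero t.π, π_eq]
  simp only [map_zero]

instance : Nontrivial t.Q := ⟨1, 0, fun h => by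
  rw [← map_one t.π, π_eq_zero] at h
  obtain ⟨n, hn⟩ := h.exists
  rw [map_one] at hn
  exact one_ne_zero hn⟩

lemma sy_cent (p : ℕ × ℕ) : t.π (sy p) ∈ Subring.center t.Q := by
  rw [Subring.mem_center_iff]
  intro q
  obtain ⟨T, rfl⟩ := t.π_surj q
  rw [← map_mul, ← map_mul, π_eq]
  exact Eventually.of_forall fun n => by rw [map_mul, map_mul, Stg.ρ_sy, Algebra.commutes]

lemma dichQ (q : t.Q) : q = 0 ∨ ∃ r : Polynomial (Subring.center t.Q),
    q * Polynomial.aeval q r = 1 := by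
  obtain ⟨T, rfl⟩ := t.π_surj q
  refine (t.dich T).imp t.π_eq_zero.2 fun ⟨k, m, h⟩ =>
    ⟨∑ i ∈ Finset.range m, Polynomial.monomial i ⟨_, t.sy_cent (k, i)⟩, ?_⟩
  rw [← π_eq_zero] at h
  simp only [map_sub, map_mul, map_sum, map_pow, map_one, sub_eq_zero] at h
  simp only [map_sum, Polynomial.aeval_monomial]
  exact h

noncomputable instance : DivisionRing t.Q := DivisionRing.ofIsUnitOrEqZero fun q => by
  rcases t.dichQ q with h | ⟨r, h⟩
  · exact Or.inr h
  · have hc : Polynomial.aeval q r * q = q * Polynomial.aeval q r := by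
      have := congrArg (Polynomial.aeval q) (mul_comm r Polynomial.X)
      simpa only [map_mul, Polynomial.aeval_X] using this
    exact Or.inl ⟨⟨q, _, h, hc.trans h⟩, rfl⟩

lemma algebraic : Algebra.IsAlgebraic (Subring.center t.Q) t.Q := ⟨fun q => by
  rcases t.dichQ q with rfl | ⟨r, h⟩
  · exact isAlgebraic_zero
  · refine ⟨Polynomial.X * r - 1, fun h0 => ?_, by simp [h]⟩
    have := congrArg (Polynomial.eval 0) h0
    simp at this⟩

lemma adjoin_top : Algebra.adjoin (Subring.center t.Q) {t.π (ge true), t.π (ge false)} = ⊤ := by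
  rw [eq_top_iff]
  rintro q -
  obtain ⟨T, rfl⟩ := t.π_surj q
  induction T using FR.ind with
  | hn1 => rw [map_neg, map_one]; exact neg_mem (one_mem _)
  | hX => exact Algebra.subset_adjoin (by simp)
  | hY => exact Algebra.subset_adjoin (by simp)
  | hs p => exact Subalgebra.algebraMap_mem _ (⟨_, t.sy_cent p⟩ : Subring.center t.Q)
  | ha x y hx hy => rw [map_add]; exact add_mem hx hy
  | hm x y hx hy => rw [map_mul]; exact mul_mem hx hy

lemma ev_int (T : FR) : ∀ᶠ n in atTop, IsIntegral (t.g n).s.Z ((t.g n).ρ T) := by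
  rcases t.dich T with h | ⟨k, m, h⟩
  · exact h.mono fun n h => by rw [h]; exact isIntegral_zero
  · refine h.mono fun n h => IsAlgebraic.isIntegral ⟨Polynomial.X * (∑ i ∈ Finset.range m,
      Polynomial.monomial i ((t.g n).val (k, i))) - 1, fun h0 => ?_, ?_⟩
    · have := congrArg (Polynomial.eval 0) h0
      simp at this
    · simp only [map_sub, map_mul, map_sum, map_pow, map_one, Stg.ρ_sy] at h
      simpa only [map_sub, map_mul, map_sum, Polynomial.aeval_monomial, Polynomial.aeval_X,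
        map_one] using h

lemma not_finite : ¬ Module.Finite (Subring.center t.Q) t.Q := by
  intro hfin
  obtain ⟨r, v, hv⟩ := Module.Finite.exists_fin (R := Subring.center t.Q) (M := t.Q)
  choose L hL using t.π_surj
  have hx : ∀ x : t.Q, ∃ c : Fin r → Subring.center t.Q, ∑ k, c k • v k = x := fun x =>
    (Submodule.mem_span_range_iff_exists_fun _).1 (hv ▸ Submodule.mem_top)
  choose c hc using hx
  let w : Option (Bool × Fin r) → FR := fun o => o.elim 1 fun p => ge p.1 * L (v p.2)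
  let a : Option (Bool × Fin r) × Fin r → FR := fun p => L (c (t.π (w p.1)) p.2)
  have e1 : ∀ o, ∀ᶠ n in atTop, (t.g n).ρ (w o) = (t.g n).ρ (∑ k, a (o, k) * L (v k)) := by
    intro o
    rw [← π_eq, ← hc (t.π (w o))]
    simp only [map_sum, map_mul, a, hL]
    rfl
  have e2 : ∀ p b, ∀ᶠ n in atTop, (t.g n).ρ (a p * ge b) = (t.g n).ρ (ge b * a p) := by
    intro p b
    rw [← π_eq, map_mul, map_mul, hL]
    exact (Subring.mem_center_iff.1 (c _ _).2 _).symm
  obtain ⟨n, ⟨h1, h2⟩, h3⟩ := (((eventually_all.2 e1).and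
    (eventually_all.2 fun p => eventually_all.2 (e2 p))).and
    (eventually_all.2 fun p => t.ev_int (a p))).exists
  apply (t.g n).s.not_fd
  simp only [map_sum, map_mul] at h1 h2
  refine fd_of_rel _ _ (fun k => (t.g n).ρ (L (v k))) (Set.range fun p => (t.g n).ρ (a p))
    (Set.finite_range _) ?_ ?_ ?_ ⟨fun k => (t.g n).ρ (a (none, k)), fun k => ⟨_, rfl⟩, ?_⟩ ?_
  · rintro _ ⟨p, rfl⟩; exact h3 p
  · rintro _ ⟨p, rfl⟩; exact (t.g n).ρ_mem _
  · rintro _ ⟨p, rfl⟩ u (rfl | rfl)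
    · rw [← Stg.ρ_X]; exact h2 p true
    · rw [← Stg.ρ_Y]; exact h2 p false
  · rw [← h1 none]; exact (map_one _).symm
  · rintro u (rfl | rfl) j
    · refine ⟨fun k => (t.g n).ρ (a (some (true, j), k)), fun k => ⟨_, rfl⟩, ?_⟩
      rw [← h1, ← Stg.ρ_X, ← map_mul]; rfl
    · refine ⟨fun k => (t.g n).ρ (a (some (false, j), k)), fun k => ⟨_, rfl⟩, ?_⟩
      rw [← h1, ← Stg.ρ_Y, ← map_mul]; rfl

end Tower

end Vale.Agent.P199
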