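import Vale.Agent.P199.Ev

namespace Vale.Agent.P199

open NPS Module

/-- normalised traces -/
structure Tr (Z D : Type) [Field Z] [Ring D] [Algebra Z D] where
  τ : D →ₗ[Z] Z
  comm : ∀ x y, τ (x * y) = τ (y * x)
  one : τ 1 = 1

section Sub
variable {Z D : Type} [Field Z] [DivisionRing D] [Algebra Z D] [FiniteDimensional Z D]

lemma sub_inv_mem (S : Subalgebra Z D) {x : D} (hx : x ∈ S) : x⁻¹ ∈ S := by
  by_cases h0 : x = 0
  · simp [h0]
  · obtain ⟨y, hy⟩ := FiniteDimensional.exists_mul_eq_one Z (x := (⟨x, hx⟩ : S))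
      (fun h => h0 (congrArg Subtype.val h))
    have : x * y = 1 := congrArg Subtype.val hy
    rw [← eq_inv_of_mul_eq_one_right this]
    exact y.2

lemma finrank_dvd_of_le {A B : Subalgebra Z D} (h : A ≤ B) : finrank Z A ∣ finrank Z B := by
  letI : DivisionRing A := divisionRingOfFiniteDimensional Z A
  letI : Module A B := Module.compHom B (Subalgebra.inclusion h).toRingHom
  haveI : IsScalarTower Z A B := ⟨fun z a b => by
    apply Subtype.ext
    change ((z • a : A) : D) * b = z • ((a : D) * b)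
    simp⟩
  exact Dvd.intro _ (Module.finrank_mul_finrank Z A B)

lemma exists_inv_poly (x : D) (hx : x ≠ 0) : ∃ p : Polynomial Z, x * Polynomial.aeval x p = 1 := by
  have := sub_inv_mem (Algebra.adjoin Z {x}) (Algebra.self_mem_adjoin_singleton Z x)
  rw [Algebra.adjoin_singleton_eq_range_aeval] at this
  obtain ⟨p, hp⟩ := this
  refine ⟨p, ?_⟩
  change Polynomial.aeval x p = x⁻¹ at hp
  rw [hp, mul_inv_cancel₀ hx]

end Sub

namespace Tr
section R
variable {Z D : Type} [Field Z] [Ring D] [Algebra Z D] (T : Tr Z D)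

def B : LinearMap.BilinForm Z D := (LinearMap.mul Z D).compr₂ T.τ

@[simp] lemma B_apply (x y : D) : T.B x y = T.τ (x * y) := rfl

lemma B_refl : T.B.IsRefl := fun x y h => by
  rw [B_apply] at h ⊢
  rw [T.comm, h]

def perp (G : Set D) : Submodule Z D where
  carrier := {d | ∀ g ∈ G, T.τ (g * d) = 0}
  add_mem' ha hb g hg := by rw [mul_add, map_add, ha g hg, hb g hg, add_zero]
  zero_mem' g _ := by simp
  smul_mem' z d hd g hg := by rw [mul_smul_comm, map_smul, hd g hg, smul_zero]

lemma mem_perp {G : Set D} {d : D} : d ∈ T.perp G ↔ ∀ g ∈ G, T.τ (g * d) = 0 := Iff.rfl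

lemma perp_eq (G : Set D) : T.perp G = T.B.orthogonal (Submodule.span Z G) := by
  ext d
  rw [mem_perp, LinearMap.BilinForm.mem_orthogonal_iff]
  constructor
  · intro h n hn
    induction hn using Submodule.span_induction with
    | mem x hx => exact h x hx
    | zero => simp
    | add x y _ _ hx hy => rw [map_add, LinearMap.add_apply, hx, hy, add_zero]
    | smul z x _ hx => rw [map_smul, LinearMap.smul_apply, hx, smul_zero]
  · intro h g hg
    exact h g (Submodule.subset_span hg)

lemma τ_algebraMap (z : Z) : T.τ (algebraMap Z D z) = z := by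
  rw [Algebra.algebraMap_eq_smul_one, map_smul, T.one, smul_eq_mul, mul_one]

lemma τ_comm_zero {p a : D} (h : p * a = a * p) (g : D) : T.τ (p * (g * a - a * g)) = 0 := by
  rw [mul_sub, map_sub, ← mul_assoc, T.comm, ← mul_assoc, ← mul_assoc, h, sub_self]

end R

variable {Z D : Type} [Field Z] [DivisionRing D] [Algebra Z D] (T : Tr Z D)

lemma eq_zero_of {x : D} (h : T.τ (x⁻¹ * x) = 0) : x = 0 := by
  by_contra hx
  rw [inv_mul_cancel₀ hx, T.one] at h
  exact one_ne_zero h

lemma eq_zero_of' {x : D} (h : T.τ (x * x⁻¹) = 0) : x = 0 :=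
  T.eq_zero_of (by rw [T.comm, h])

lemma B_nondeg : T.B.Nondegenerate :=
  ⟨fun x h => T.eq_zero_of' (h x⁻¹), fun x h => T.eq_zero_of (h x⁻¹)⟩

lemma perp_comm (S : Set D) :
    T.perp {g | ∃ s ∈ S, ∃ y, g = y * s - s * y} = (Subalgebra.centralizer Z S).toSubmodule := by
  ext x
  simp only [mem_perp, Subalgebra.mem_toSubmodule, Subalgebra.mem_centralizer_iff]
  constructor
  · intro h s hs
    rw [← sub_eq_zero]
    apply T.eq_zero_of
    have := h _ ⟨s, hs, (s * x - x * s)⁻¹, rfl⟩
    rw [← this, mul_sub, sub_mul, map_sub, map_sub, mul_assoc, mul_assoc, T.comm s, mul_assoc]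
  · rintro h _ ⟨s, hs, y, rfl⟩
    rw [T.comm]
    exact T.τ_comm_zero (h s hs).symm y

variable [FiniteDimensional Z D]

lemma finrank_perp (G : Set D) :
    finrank Z (T.perp G) = finrank Z D - finrank Z (Submodule.span Z G) := by
  rw [perp_eq, LinearMap.BilinForm.finrank_orthogonal T.B_nondeg]

lemma perp_perp (G : Set D) : T.perp (T.perp G) = Submodule.span Z G := by
  rw [perp_eq, Submodule.span_eq, perp_eq,
    LinearMap.BilinForm.orthogonal_orthogonal T.B_nondeg T.B_refl]

lemma eq_zero_of_sub (S : Subalgebra Z D) {e : D} (he : e ∈ S) (h : ∀ s ∈ S, T.τ (s * e) = 0) :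
    e = 0 := T.eq_zero_of (h _ (sub_inv_mem S he))

lemma exists_dual (ρ : D →ₗ[Z] Z) : ∃ y, ∀ d, ρ d = T.τ (y * d) :=
  ⟨(T.B.toDual T.B_nondeg).symm ρ, fun d =>
    (LinearMap.BilinForm.apply_toDual_symm_apply (hB := T.B_nondeg) ρ d).symm⟩

lemma mem_of_perp_perp (N : Submodule Z D) {x : D} (h : ∀ g ∈ T.perp N, T.τ (g * x) = 0) :
    x ∈ N := by
  have : x ∈ T.perp (T.perp N) := h
  rwa [perp_perp, Submodule.span_eq] at this

/-- inside a subalgebra, double orthogonal -/
lemma mem_of_perp_sub (S : Subalgebra Z D) (N : Submodule Z D) (hN : N ≤ S.toSubmodule) {x : D}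
    (hx : x ∈ S) (h : ∀ e ∈ S, e ∈ T.perp N → T.τ (e * x) = 0) : x ∈ N := by
  have h1 : x ∈ T.perp (T.perp ((N ⊔ T.perp S : Submodule Z D) : Set D)) := by
    intro e he
    apply h e
    · apply T.mem_of_perp_perp S.toSubmodule
      intro g hg
      exact he g (Submodule.mem_sup_right hg)
    · intro g hg
      exact he g (Submodule.mem_sup_left hg)
  rw [perp_perp, Submodule.span_eq, Submodule.mem_sup] at h1
  obtain ⟨n, hn, z, hz, rfl⟩ := h1
  have hzS : z ∈ S := by
    have := S.sub_mem hx (hN hn)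
    simpa using this
  rw [T.eq_zero_of_sub S hzS hz, add_zero]
  exact hn

lemma exists_perp_of_not_le (S : Subalgebra Z D) (N : Submodule Z D) (hN : N ≤ S.toSubmodule)
    (h : ¬ S.toSubmodule ≤ N) : ∃ e ∈ S, e ≠ 0 ∧ e ∈ T.perp N := by
  by_contra hc
  push Not at hc
  apply h
  intro x hx
  apply T.mem_of_perp_sub S N hN hx
  intro e he he'
  by_cases h0 : e = 0
  · simp [h0]
  · exact absurd he' (hc e he h0)

lemma solve (a x : D) : ∃ g p : D, (∀ q, q * a = a * q → T.τ (q * g) = 0) ∧ p * a = a * p ∧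
    x = p + (g * a - a * g) := by
  let P := (Subalgebra.centralizer Z {a}).toSubmodule
  have hP : ∀ q, q ∈ P ↔ q * a = a * q := fun q => by
    simp [P, Subalgebra.mem_centralizer_iff, eq_comm]
  have hc : IsCompl P (T.perp P) := by
    rw [perp_eq, Submodule.span_eq, LinearMap.BilinForm.isCompl_orthogonal_iff_disjoint T.B_refl,
      Submodule.disjoint_def]
    intro y hy hy'
    exact T.eq_zero_of_sub (Subalgebra.centralizer Z {a}) hy hy'
  have dec : ∀ y : D, ∃ p ∈ P, ∃ r ∈ T.perp P, p + r = y := fun y =>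
    Submodule.mem_sup.1 (hc.sup_eq_top ▸ Submodule.mem_top)
  obtain ⟨p, hp, r, hr, rfl⟩ := dec x
  have h2 : ∃ g, r = g * a - a * g := by
    have e := T.perp_perp {g | ∃ s ∈ ({a} : Set D), ∃ y, g = y * s - s * y}
    rw [perp_comm] at e
    change T.perp P = _ at e
    rw [e] at hr
    clear hc dec
    induction hr using Submodule.span_induction with
    | mem x hx =>
      obtain ⟨s, rfl, y, rfl⟩ := hx
      exact ⟨y, rfl⟩
    | zero => exact ⟨0, by simp⟩
    | add x y _ _ hx hy =>
      obtain ⟨g, rfl⟩ := hx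
      obtain ⟨g', rfl⟩ := hy
      exact ⟨g + g', by noncomm_ring⟩
    | smul z x _ hx =>
      obtain ⟨g, rfl⟩ := hx
      exact ⟨z • g, by simp [smul_sub]⟩
  obtain ⟨g, rfl⟩ := h2
  obtain ⟨p', hp', g', hg', rfl⟩ := dec g
  refine ⟨g', p, fun q hq => hg' q ((hP q).2 hq), (hP p).1 hp, ?_⟩
  rw [add_mul, mul_add, (hP p').1 hp']
  abel

/-- block diagonalisation -/
lemma block_diag {σ : Type} (β : NPS σ D) : ∃ g b : NPS σ D, co g [] = 1 ∧ co b [] = 0 ∧
    (∀ w, co b w * co β [] = co β [] * co b w) ∧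
    (∀ w, w ≠ [] → ∀ q, q * co β [] = co β [] * q → T.τ (q * co g w) = 0) ∧
    β * g = g * (C (co β []) + b) := by
  choose G P h1 h2 h3 using T.solve (co β [])
  let tl : (List σ → D) → NPS σ D := fun x => NPS.mk fun w => match w with
    | [] => 0
    | a :: u => x (a :: u)
  have tl1 : ∀ x, tl x ∈ (Filt.ord σ D).I 1 := fun x => by
    rw [Filt.mem_ord]
    intro w hw
    obtain rfl : w = [] := List.length_eq_zero_iff.1 (by omega)
    rfl
  have tl2 : ∀ x y n, (∀ u : List σ, u.length < n → x u = y u) →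
      tl x - tl y ∈ (Filt.ord σ D).I n := fun x y n h => by
    rw [Filt.mem_ord]
    intro w hw
    cases w with
    | nil => simp [tl]
    | cons a u => simp [tl, h _ hw]
  let R : (List σ → D × D) → NPS σ D := fun x =>
    tl (co β) + tl (co β) * tl (fun u => (x u).1) - tl (fun u => (x u).1) * tl (fun u => (x u).2)
  haveI : Inhabited (D × D) := ⟨0⟩
  obtain ⟨x, hx⟩ := exists_fixed (fun (x : List σ → D × D) w => (G (co (R x) w), P (co (R x) w)))
    (fun x y w h => by
      have e : co (R x) w = co (R y) w := by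
        have hg := tl2 (fun u => (x u).1) (fun u => (y u).1) w.length fun u hu => by rw [h u hu]
        have hb := tl2 (fun u => (x u).2) (fun u => (y u).2) w.length fun u hu => by rw [h u hu]
        have : R x - R y ∈ (Filt.ord σ D).I (w.length + 1) := by
          have e2 : R x - R y =
              tl (co β) * (tl (fun u => (x u).1) - tl (fun u => (y u).1)) -
              ((tl (fun u => (x u).1) - tl (fun u => (y u).1)) * tl (fun u => (x u).2) +
               tl (fun u => (y u).1) * (tl (fun u => (x u).2) - tl (fun u => (y u).2))) := by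
            simp only [R]; noncomm_ring
          rw [e2]
          refine AddSubgroup.sub_mem _ ?_ (AddSubgroup.add_mem _ ?_ ?_)
          · exact (Filt.ord σ D).mul_mem' (tl1 _) hg (by omega)
          · exact (Filt.ord σ D).mul_mem' hg (tl1 fun u => (x u).2) le_rfl
          · exact (Filt.ord σ D).mul_mem' (tl1 fun u => (y u).1) hb (by rw [add_comm])
        rw [Filt.mem_ord] at this
        exact sub_eq_zero.1 (this w (by omega))
      simp only [e])
  have hx1 : ∀ w, (x w).1 = G (co (R x) w) := fun w => by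
    conv_lhs => rw [← hx]
  have hx2 : ∀ w, (x w).2 = P (co (R x) w) := fun w => by
    conv_lhs => rw [← hx]
  refine ⟨1 + tl (fun u => (x u).1), tl (fun u => (x u).2), by simp [tl], by simp [tl], ?_, ?_, ?_⟩
  · intro w
    cases w with
    | nil => simp [tl]
    | cons a u =>
      change (x (a :: u)).2 * _ = _ * (x (a :: u)).2
      rw [hx2]; exact h2 _
  · intro w hw q hq
    cases w with
    | nil => exact absurd rfl hw
    | cons a u =>
      rw [co_add, co_one_cons, zero_add]
      change T.τ (q * (x (a :: u)).1) = 0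
      rw [hx1]; exact h1 _ q hq
  · have hβ : β = C (co β []) + tl (co β) := by
      ext w
      cases w <;> simp [tl]
    have key : R x = tl (fun u => (x u).2) +
        (tl (fun u => (x u).1) * C (co β []) - C (co β []) * tl (fun u => (x u).1)) := by
      ext w
      cases w with
      | nil => simp [R, tl, co_mul_nil]
      | cons a u =>
        rw [h3 (co (R x) (a :: u)), ← hx1, ← hx2]
        simp [tl]
    conv_lhs => rw [hβ]
    simp only [R] at key
    rw [← sub_eq_zero] at key ⊢
    rw [← key]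
    noncomm_ring

end Tr

/-- base change data -/
structure Ext {Z D K E : Type} [Field Z] [Ring D] [Algebra Z D] [Field K] [Ring E] [Algebra K E]
    (T : Tr Z D) (T' : Tr K E) where
  ιZ : Z →+* K
  ι : D →+* E
  smul : ∀ z d, ι (z • d) = ιZ z • ι d
  tr : ∀ d, T'.τ (ι d) = ιZ (T.τ d)
  top : Submodule.span K (Set.range ι) = ⊤

lemma exists_dual_family {Z M α : Type} [Field Z] [AddCommGroup M] [Module Z M] [DecidableEq α]
    {v : α → M} (hv : LinearIndependent Z v) (j : α) :
    ∃ ρ : M →ₗ[Z] Z, ∀ i, ρ (v i) = if i = j then 1 else 0 := by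
  obtain ⟨ρ, hρ⟩ := LinearMap.exists_extend ((Finsupp.lapply j).comp hv.repr)
  refine ⟨ρ, fun i => ?_⟩
  have := LinearMap.congr_fun hρ ⟨v i, Submodule.subset_span ⟨i, rfl⟩⟩
  simp only [LinearMap.comp_apply, Submodule.subtype_apply] at this
  rw [this, hv.repr_eq_single i _ rfl]
  simp [Finsupp.single_apply]

lemma li_of_functionals {Z K M M' α : Type} [Field Z] [Field K] [AddCommGroup M] [Module Z M]
    [AddCommGroup M'] [Module K M'] [Fintype α] (ιZ : Z →+* K) (f : M → M')
    (hf : ∀ ρ : M →ₗ[Z] Z, ∃ ρ' : M' →ₗ[K] K, ∀ d, ρ' (f d) = ιZ (ρ d))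
    {v : α → M} (hv : LinearIndependent Z v) : LinearIndependent K (fun i => f (v i)) := by
  classical
  rw [Fintype.linearIndependent_iff]
  intro g hg j
  obtain ⟨ρ, hρ⟩ := exists_dual_family hv j
  obtain ⟨ρ', hρ'⟩ := hf ρ
  have := congrArg ρ' hg
  simpa [map_sum, hρ', hρ, apply_ite] using this

namespace Ext
variable {Z D K E : Type} [Field Z] [DivisionRing D] [Algebra Z D] [Field K] [DivisionRing E]
  [Algebra K E] {T : Tr Z D} {T' : Tr K E} (x : Ext T T')

lemma algebraMap_eq (z : Z) : x.ι (algebraMap Z D z) = algebraMap K E (x.ιZ z) := by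
  rw [Algebra.algebraMap_eq_smul_one, x.smul, map_one, Algebra.algebraMap_eq_smul_one]

def bc (N : Submodule Z D) : Submodule K E := Submodule.span K (x.ι '' N)

lemma mem_bc {N : Submodule Z D} {d : D} (h : d ∈ N) : x.ι d ∈ x.bc N :=
  Submodule.subset_span ⟨d, h, rfl⟩

lemma bc_mono {N N' : Submodule Z D} (h : N ≤ N') : x.bc N ≤ x.bc N' :=
  Submodule.span_mono (Set.image_mono h)

lemma bc_span (G : Set D) : x.bc (Submodule.span Z G) = Submodule.span K (x.ι '' G) := by
  apply le_antisymm
  · apply Submodule.span_le.2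
    rintro _ ⟨d, hd, rfl⟩
    induction hd using Submodule.span_induction with
    | mem y hy => exact Submodule.subset_span ⟨y, hy, rfl⟩
    | zero => simp
    | add y z _ _ hy hz => rw [map_add]; exact Submodule.add_mem _ hy hz
    | smul z y _ hy => rw [x.smul]; exact Submodule.smul_mem _ _ hy
  · exact Submodule.span_mono (Set.image_mono Submodule.subset_span)

lemma bc_top : x.bc ⊤ = ⊤ := by
  rw [bc, ← x.top]; simp

lemma bc_ind {N : Submodule Z D} {p : E → Prop} (h0 : ∀ d ∈ N, p (x.ι d)) (hz : p 0)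
    (ha : ∀ y z, p y → p z → p (y + z)) (hs : ∀ (k : K) y, p y → p (k • y)) {y : E}
    (hy : y ∈ x.bc N) : p y := by
  induction hy using Submodule.span_induction with
  | mem y hy => obtain ⟨d, hd, rfl⟩ := hy; exact h0 d hd
  | zero => exact hz
  | add y z _ _ hy hz => exact ha _ _ hy hz
  | smul k y _ hy => exact hs _ _ hy

def bcA (S : Subalgebra Z D) : Subalgebra K E :=
  (x.bc S.toSubmodule).toSubalgebra (by simpa using x.mem_bc (N := S.toSubmodule) S.one_mem)
    (fun y z hy hz => by
      refine x.bc_ind (p := fun y => y * z ∈ x.bc S.toSubmodule) ?_ (by simp) ?_ ?_ hy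
      · intro d hd
        refine x.bc_ind (p := fun z => x.ι d * z ∈ x.bc S.toSubmodule) ?_ (by simp) ?_ ?_ hz
        · intro d' hd'
          rw [← map_mul]
          exact x.mem_bc (S.mul_mem hd hd')
        · intro a b ha hb; rw [mul_add]; exact Submodule.add_mem _ ha hb
        · intro k a ha; rw [mul_smul_comm]; exact Submodule.smul_mem _ _ ha
      · intro a b ha hb; rw [add_mul]; exact Submodule.add_mem _ ha hb
      · intro k a ha; rw [smul_mul_assoc]; exact Submodule.smul_mem _ _ ha)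

lemma mem_bcA {S : Subalgebra Z D} {y : E} : y ∈ x.bcA S ↔ y ∈ x.bc S.toSubmodule := Iff.rfl

lemma comm_of_bc {N : Submodule Z D} {y : E} (hy : y ∈ x.bc N) {e : E}
    (h : ∀ d ∈ N, x.ι d * e = e * x.ι d) : y * e = e * y := by
  refine x.bc_ind (p := fun y => y * e = e * y) h (by simp) ?_ ?_ hy
  · intro a b ha hb; rw [add_mul, mul_add, ha, hb]
  · intro k a ha; rw [smul_mul_assoc, mul_smul_comm, ha]

lemma τ_zero_of_bc {N : Submodule Z D} {y : E} (hy : y ∈ x.bc N) {e : E}
    (h : ∀ d ∈ N, T'.τ (x.ι d * e) = 0) : T'.τ (y * e) = 0 := by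
  refine x.bc_ind (p := fun y => T'.τ (y * e) = 0) h (by simp) ?_ ?_ hy
  · intro a b ha hb; rw [add_mul, map_add, ha, hb, add_zero]
  · intro k a ha; rw [smul_mul_assoc, map_smul, ha, smul_zero]

variable [FiniteDimensional Z D]

lemma ext_fun (ρ : D →ₗ[Z] Z) : ∃ ρ' : E →ₗ[K] K, ∀ d, ρ' (x.ι d) = x.ιZ (ρ d) := by
  obtain ⟨y, hy⟩ := T.exists_dual ρ
  refine ⟨T'.B (x.ι y), fun d => ?_⟩
  rw [Tr.B_apply, ← map_mul, x.tr, hy]

lemma li {α : Type} [Fintype α] {v : α → D} (hv : LinearIndependent Z v) :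
    LinearIndependent K (fun i => x.ι (v i)) :=
  li_of_functionals x.ιZ x.ι x.ext_fun hv

lemma li2 {α : Type} [Fintype α] {v : α → D × D} (hv : LinearIndependent Z v) :
    LinearIndependent K (fun i => (x.ι (v i).1, x.ι (v i).2)) := by
  refine li_of_functionals x.ιZ (fun d : D × D => (x.ι d.1, x.ι d.2)) (fun ρ => ?_) hv
  obtain ⟨ρ1, h1⟩ := x.ext_fun (ρ.comp (LinearMap.inl Z D D))
  obtain ⟨ρ2, h2⟩ := x.ext_fun (ρ.comp (LinearMap.inr Z D D))
  refine ⟨ρ1.coprod ρ2, fun d => ?_⟩
  simp only [LinearMap.coprod_apply, h1, h2, LinearMap.comp_apply, ← map_add]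
  simp

lemma finrank_bc (N : Submodule Z D) : finrank K (x.bc N) = finrank Z N := by
  let b := Module.finBasis Z N
  have hli : LinearIndependent Z (fun i => (b i : D)) :=
    b.linearIndependent.map' N.subtype N.ker_subtype
  have hsp : Submodule.span Z (Set.range fun i => (b i : D)) = N := by
    have := congrArg (Submodule.map N.subtype) b.span_eq
    rw [Submodule.map_span, Submodule.map_top, Submodule.range_subtype, ← Set.range_comp] at this
    exact this
  have := finrank_span_eq_card (x.li hli)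
  rw [Fintype.card_fin] at this
  rw [← this]
  conv_lhs => rw [← hsp, bc_span, ← Set.range_comp]
  rfl

include x in
lemma finite : FiniteDimensional K E := by
  let b := Module.finBasis Z D
  have : Submodule.span K (Set.range fun i => x.ι (b i)) = ⊤ := by
    rw [← x.bc_top, ← b.span_eq, bc_span, ← Set.range_comp]; rfl
  exact ⟨this ▸ Submodule.fg_span (Set.finite_range _)⟩

include x in
lemma finrank_eq : finrank K E = finrank Z D := by
  have := x.finrank_bc ⊤
  rwa [bc_top, finrank_top, finrank_top] at this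

lemma mem_bc_perp (G : Set D) {y : E} (h : ∀ g ∈ G, T'.τ (x.ι g * y) = 0) :
    y ∈ x.bc (T.perp G) := by
  haveI := x.finite
  have : x.bc (T.perp G) = T'.perp (x.ι '' G) := by
    apply Submodule.eq_of_le_of_finrank_eq
    · intro z hz
      rintro _ ⟨g, hg, rfl⟩
      rw [T'.comm]
      refine x.τ_zero_of_bc hz fun d hd => ?_
      rw [← map_mul, x.tr, T.comm, hd g hg, map_zero]
    · rw [finrank_bc, T.finrank_perp, T'.finrank_perp, ← bc_span, finrank_bc, x.finrank_eq]
  rw [this]
  rintro _ ⟨g, hg, rfl⟩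
  exact h g hg

lemma mem_bc_cent (S : Set D) {y : E} (h : ∀ s ∈ S, x.ι s * y = y * x.ι s) :
    y ∈ x.bcA (Subalgebra.centralizer Z S) := by
  rw [mem_bcA, ← T.perp_comm]
  apply mem_bc_perp
  rintro _ ⟨s, hs, z, rfl⟩
  rw [T'.comm, map_sub x.ι, map_mul x.ι, map_mul x.ι]
  exact T'.τ_comm_zero (h s hs).symm _

lemma eq_zero_of_perp (S : Subalgebra Z D) {y : E} (hy : y ∈ x.bcA S)
    (h : ∀ d ∈ S, T'.τ (x.ι d * y) = 0) : y = 0 := by
  haveI := x.finite
  exact T'.eq_zero_of_sub _ hy fun s hs => x.τ_zero_of_bc hs h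

end Ext

end Vale.Agent.P199
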